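import Vale.Agent.P146.R3.H49.SC

/-!
# P146: orthonormality of the Chebyshev polynomials and the moments of the semicircle law
-/

open MeasureTheory Set

namespace Vale.Agent.P146.R3.H49

/-- `∫ U_j U_k = δ_{jk}` -/
theorem integral_chR_mul (j k : ℕ) :
    ∫ x, chR j x * chR k x ∂sc = if j = k then 1 else 0 := by
  rw [integral_sc (f := fun x => chR j x * chR k x)
    ((continuous_chR j).mul (continuous_chR k)).measurable]
  have hp := Real.pi_pos
  have h4 : ∀ m : ℕ, m ≠ 0 → ∫ θ in (0:ℝ)..Real.pi, Real.cos (m * θ) = 0 := by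
    intro m hm
    have hm' : (m : ℝ) ≠ 0 := by exact_mod_cast hm
    rw [intervalIntegral.integral_comp_mul_left (fun x => Real.cos x) hm', integral_cos]
    simp [Real.sin_nat_mul_pi]
  have key : ∀ j d : ℕ, ∫ θ in (0:ℝ)..Real.pi,
      2 / Real.pi * Real.sin θ ^ 2 * (chR j (2 * Real.cos θ) * chR (j + d) (2 * Real.cos θ)) =
      if d = 0 then 1 else 0 := by
    intro j d
    have e : ∀ θ : ℝ, 2 / Real.pi * Real.sin θ ^ 2 *
        (chR j (2 * Real.cos θ) * chR (j + d) (2 * Real.cos θ)) =
        1 / Real.pi * (Real.cos ((d : ℕ) * θ) - Real.cos (((2 * j + d + 2 : ℕ) : ℝ) * θ)) := by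
      intro θ
      have h1 := chR_cos j θ
      have h1' := chR_cos (j + d) θ
      have h2 : (d : ℝ) * θ = (((j + d : ℕ) : ℝ) + 1) * θ - (j + 1) * θ := by push_cast; ring
      have h3 : ((2 * j + d + 2 : ℕ) : ℝ) * θ = (((j + d : ℕ) : ℝ) + 1) * θ + (j + 1) * θ := by
        push_cast; ring
      rw [h2, h3, Real.cos_sub, Real.cos_add, ← h1, ← h1']
      ring
    simp_rw [e]
    rw [intervalIntegral.integral_const_mul, intervalIntegral.integral_sub
      ((by fun_prop : Continuous fun θ : ℝ => Real.cos ((d : ℕ) * θ)).intervalIntegrable _ _)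
      ((by fun_prop : Continuous fun θ : ℝ =>
        Real.cos (((2 * j + d + 2 : ℕ) : ℝ) * θ)).intervalIntegrable _ _)]
    rw [h4 (2 * j + d + 2) (by omega), sub_zero]
    by_cases hd : d = 0
    · subst hd
      simp
    · rw [h4 d hd, if_neg hd, mul_zero]
  rcases le_total j k with h | h
  · obtain ⟨d, rfl⟩ := Nat.exists_eq_add_of_le h
    have := key j d
    have e : (if j = j + d then (1 : ℝ) else 0) = if d = 0 then 1 else 0 := by
      by_cases hd : d = 0
      · simp [hd]
      · rw [if_neg hd, if_neg (by omega)]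
    rw [e, ← this]
  · obtain ⟨d, rfl⟩ := Nat.exists_eq_add_of_le h
    have := key k d
    have e : (if k + d = k then (1 : ℝ) else 0) = if d = 0 then 1 else 0 := by
      by_cases hd : d = 0
      · simp [hd]
      · rw [if_neg hd, if_neg (by omega)]
    rw [e, ← this]
    congr 1
    funext θ
    ring

lemma integrable_continuous_sc {f : ℝ → ℝ} (hf : Continuous f) : Integrable f sc := by
  obtain ⟨C, hC⟩ := isCompact_Icc.exists_bound_of_continuousOn (s := Icc (-2 : ℝ) 2) hf.continuousOn
  refine Integrable.of_bound hf.measurable.aestronglyMeasurable C ?_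
  filter_upwards [sc_ae] with x hx using hC x hx

end Vale.Agent.P146.R3.H49
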