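import Vale.Agent.P146.R3.H49.Inv

/-!
# P146: the supports of the semicircle law and of the law of `β x + 2 s U_k(x)`
-/

open MeasureTheory Set Filter Topology

namespace Vale.Agent.P146.R3.H49

lemma sc_pos {V : Set ℝ} (hV : IsOpen V) {x : ℝ} (hx : x ∈ Icc (-2 : ℝ) 2) (hxV : x ∈ V) :
    0 < sc V := by
  unfold sc
  rw [Measure.map_apply measurable_cos2 hV.measurableSet,
    withDensity_apply _ (measurable_cos2 hV.measurableSet)]
  set W : Set ℝ := (fun θ : ℝ => 2 * Real.cos θ) ⁻¹' V with hWdef
  have hW : IsOpen W := hV.preimage (by fun_prop)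
  have hθ : Real.arccos (x / 2) ∈ W := by
    show 2 * Real.cos (Real.arccos (x / 2)) ∈ V
    rw [Real.cos_arccos (by linarith [hx.1]) (by linarith [hx.2])]
    convert hxV using 1; ring
  have hcl : Real.arccos (x / 2) ∈ closure (Ioo 0 Real.pi) := by
    rw [closure_Ioo Real.pi_pos.ne]
    exact ⟨Real.arccos_nonneg _, Real.arccos_le_pi _⟩
  have hne : (W ∩ Ioo 0 Real.pi).Nonempty := mem_closure_iff.1 hcl W hW hθ
  have hop : IsOpen (W ∩ Ioo 0 Real.pi) := hW.inter isOpen_Ioo
  rw [Measure.restrict_restrict (measurable_cos2 hV.measurableSet)]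
  refine lt_of_lt_of_le ?_ (lintegral_mono_set (s := W ∩ Ioo 0 Real.pi) ?_)
  · rw [setLIntegral_pos_iff (by fun_prop)]
    have : (Function.support fun θ : ℝ =>
        ENNReal.ofReal (2 / Real.pi * Real.sin θ ^ 2)) ∩ (W ∩ Ioo 0 Real.pi) =
        W ∩ Ioo 0 Real.pi := by
      apply inter_eq_right.2
      intro θ hθ
      have hp := Real.pi_pos
      have : 0 < Real.sin θ := Real.sin_pos_of_pos_of_lt_pi hθ.2.1 hθ.2.2
      simp only [Function.mem_support, ne_eq, ENNReal.ofReal_eq_zero, not_le]
      positivity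
    rw [this]
    exact hop.measure_pos _ hne
  · intro θ hθ
    exact ⟨hθ.1, ⟨hθ.2.1.le, hθ.2.2.le⟩⟩

theorem support_sc : sc.support = Icc (-2 : ℝ) 2 := by
  apply Subset.antisymm
  · exact Measure.support_subset_of_isClosed isClosed_Icc sc_ae
  · intro x hx
    rw [Measure.support_eq_forall_isOpen]
    intro V hxV hV
    exact sc_pos hV hx hxV

theorem isCompact_support_sc : IsCompact sc.support := by
  rw [support_sc]; exact isCompact_Icc

/-- the support of the law of `β x + 2 s U_k(x)` is the image of `[-2,2]` -/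
theorem support_muS (b : ℝ) (k : ℕ) (s : ℝ) :
    (muS b k s).support = hs b k s '' Icc (-2 : ℝ) 2 := by
  have hc : IsCompact (hs b k s '' Icc (-2 : ℝ) 2) := isCompact_Icc.image (continuous_hs b k s)
  apply Subset.antisymm
  · exact support_subset hc.isClosed fun x hx => mem_image_of_mem _ hx
  · rintro _ ⟨x, hx, rfl⟩
    rw [Measure.support_eq_forall_isOpen]
    intro V hxV hV
    unfold muS
    rw [Measure.map_apply (continuous_hs b k s).measurable hV.measurableSet]
    exact sc_pos (hV.preimage (continuous_hs b k s)) hx hxV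

theorem sSup_support_muS (b : ℝ) (k : ℕ) (s : ℝ) :
    sSup (muS b k s).support = sSup (hs b k s '' Icc (-2 : ℝ) 2) := by rw [support_muS]

theorem sInf_support_muS (b : ℝ) (k : ℕ) (s : ℝ) :
    sInf (muS b k s).support = sInf (hs b k s '' Icc (-2 : ℝ) 2) := by rw [support_muS]

/-- integration against the law of `β x + 2 s U_k(x)` -/
lemma integral_muS' (b : ℝ) (k : ℕ) (s : ℝ) {f : ℝ → ℝ} (hf : Measurable f) :
    ∫ x, f x ∂(muS b k s) = ∫ x, f (hs b k s x) ∂sc := by
  unfold muS
  rw [integral_map (continuous_hs b k s).measurable.aemeasurable hf.aestronglyMeasurable]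

end Vale.Agent.P146.R3.H49
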