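import Vale.Agent.P146.R3.H49.Main

/-!
# P146, N5a: the uniform derivative
-/

open MeasureTheory Set Filter Topology Vale.Agent.P166

namespace Vale.Agent.P146.R3.H49

variable {b s : ℝ} {k : ℕ}

lemma zeta_edge_le {δ : ℝ} (hδ2 : δ ≤ 1 / 2) :
    (1 - δ) + (1 - δ)⁻¹ ≤ 2 + 2 * δ ^ 2 := by
  have h1 : 0 < 1 - δ := by linarith
  have h2 : (1 - δ) + (1 - δ)⁻¹ = 2 + δ ^ 2 / (1 - δ) := by field_simp; ring
  rw [h2]
  have h3 : δ ^ 2 / (1 - δ) ≤ 2 * δ ^ 2 := by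
    rw [div_le_iff₀ h1]; nlinarith [sq_nonneg δ]
  linarith

lemma zeta_ge {w : ℝ} (hw : 0 < w) (hw1 : w ≤ 1) : 2 + (1 - w) ^ 2 ≤ w + w⁻¹ := by
  have h2 : w + w⁻¹ = 2 + (1 - w) ^ 2 / w := by field_simp; ring
  rw [h2]
  have h3 : (1 - w) ^ 2 ≤ (1 - w) ^ 2 / w := by
    rw [le_div_iff₀ hw]; nlinarith [sq_nonneg (1 - w)]
  linarith

lemma hs_zero (b : ℝ) (k : ℕ) (x : ℝ) : hs b k 0 x = b * x := by
  unfold hs; ring

/-- value at `s = 0`, interior -/
lemma z0_int (hb : 0 < b) (k : ℕ) {w : ℝ} (hw : 0 < w) (hw1 : w < 1) :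
    stInv (muS b k 0) (w / b) = b * (w + w⁻¹) := by
  apply le_antisymm
  · apply le_of_forall_pos_le_add
    intro e he
    have hz := zeta_gt hw hw1 rfl
    have h := upper_int (b := b) (s := 0) (k := k) hb hw hw1 he
      (fun x hx => by
        have : 0 < b * (w + w⁻¹ - x) := mul_pos hb (by linarith [hx.2])
        simp only [mul_zero, zero_mul, abs_zero]
        linarith)
      (fun x hx => by
        have : 0 < b * (w + w⁻¹ - x) := mul_pos hb (by linarith [hx.2])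
        have h0 : 0 ≤ e / 4 * (b * (w + w⁻¹ - x)) := by positivity
        simpa using h0)
      (fun x hx => by
        rw [hs_zero, hs_zero]
        exact mul_le_mul_of_nonneg_left hx.2 hb.le)
    simpa using h
  · have hy : 0 < w / b := div_pos hw hb
    apply le_stInv hy
    intro z hz
    have h := lower_int hb hw hw1 hz
    simpa using h

/-- value at `s = 0` beyond the range of the Stieltjes transform -/
lemma z0_edge (hb : 0 < b) (k : ℕ) {y : ℝ} (hy : 1 ≤ b * y) :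
    stInv (muS b k 0) y = 2 * b := by
  have hy0 : 0 < y := by
    by_contra hc
    rw [not_lt] at hc
    nlinarith [mul_nonpos_of_nonneg_of_nonpos hb.le hc]
  apply le_antisymm
  · apply le_of_forall_pos_le_add
    intro e he
    set δ := min (1 / 2) (Real.sqrt (e / (2 * b))) with hδ
    have hδ0 : 0 < δ := lt_min (by norm_num) (Real.sqrt_pos.2 (by positivity))
    have hδ2 : δ ≤ 1 / 2 := min_le_left _ _
    have hδ3 : δ ^ 2 ≤ e / (2 * b) := by
      calc δ ^ 2 ≤ (Real.sqrt (e / (2 * b))) ^ 2 := by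
            gcongr; exact min_le_right _ _
        _ = e / (2 * b) := Real.sq_sqrt (by positivity)
    have h1 : (1 - δ) / b ≤ y := by
      rw [div_le_iff₀ hb]; linarith
    have h2 := stInv_anti (b := b) (k := k) (s := 0) (div_pos (by linarith : 0 < 1 - δ) hb) h1
    rw [z0_int hb k (by linarith) (by linarith)] at h2
    have h3 := zeta_edge_le hδ2
    have h4 : b * (2 * δ ^ 2) ≤ e := by
      calc b * (2 * δ ^ 2) ≤ b * (2 * (e / (2 * b))) := by gcongr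
        _ = e := by field_simp
    nlinarith [mul_le_mul_of_nonneg_left h3 hb.le]
  · apply le_stInv hy0
    intro z hz
    have h := (le_sSup_support b k 0).trans hz.1.le
    rw [hs_zero] at h
    linarith

/-- lower bound for all `y` -/
lemma lower_all (hb : 0 < b) (k : ℕ) (s : ℝ) {y : ℝ} (hy : 0 < y) :
    stInv (muS b k 0) y + 2 * s * ((k + 1) * min (b * y) 1 ^ k) ≤ stInv (muS b k s) y := by
  by_cases h : b * y < 1
  · rw [min_eq_left h.le]
    have e : y = (b * y) / b := by field_simp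
    have hw : 0 < b * y := by positivity
    have h1 : stInv (muS b k 0) y = b * (b * y + (b * y)⁻¹) := by
      conv_lhs => rw [e]
      exact z0_int hb k hw h
    rw [h1]
    apply le_stInv hy
    intro z hz
    rw [e] at hz
    have h2 := lower_int hb hw h hz
    exact h2
  · rw [not_lt] at h
    rw [min_eq_right h, z0_edge hb k h]
    apply le_stInv hy
    intro z hz
    have h := (le_sSup_support b k s).trans hz.1.le
    unfold hs at h
    rw [chR_two] at h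
    rw [one_pow]
    linarith

lemma one_sub_pow_le {w : ℝ} (hw : 0 ≤ w) (k : ℕ) : 1 - w ^ k ≤ k * (1 - w) := by
  have h := one_add_mul_le_pow (a := w - 1) (by linarith) k
  have e : 1 + (w - 1) = w := by ring
  rw [e] at h
  linarith

lemma sq_add_le {p q : ℝ} (hq : 0 ≤ q) (hq4 : q ≤ 4) : (p + q) ^ 2 ≤ 8 * (p ^ 2 + q) := by
  nlinarith [sq_nonneg (p - q), sq_nonneg p, mul_nonneg hq (sub_nonneg.2 hq4)]

/-- the constant of the problem -/
lemma exists_C1 (k : ℕ) : ∃ C1 : ℝ, 0 < C1 ∧ (k : ℝ) * (k + 1) ≤ C1 ∧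
    (∀ x ∈ Icc (-2 : ℝ) 2, |(k + 1) - chR k x| ≤ C1 * (2 - x)) ∧
    ∀ w : ℝ, 0 ≤ w → w ≤ 1 → ∀ x ∈ Icc (-2 : ℝ) 2,
      |(k + 1) * w ^ k - chR k x| ≤ C1 * ((1 - w) + (2 - x)) := by
  obtain ⟨C, hC0, hC⟩ := exists_edge k
  have hk0 : (0 : ℝ) ≤ k := Nat.cast_nonneg k
  have hC1 : 0 < C + k * (k + 1) + 1 := by positivity
  have hCC1 : C ≤ C + k * (k + 1) + 1 := by nlinarith
  have hkC1 : (k : ℝ) * (k + 1) ≤ C + k * (k + 1) + 1 := by linarith
  refine ⟨C + k * (k + 1) + 1, hC1, hkC1, ?_, ?_⟩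
  · intro x hx
    have h6 : 0 ≤ 2 - x := by linarith [hx.2]
    exact (hC x hx).trans (by gcongr)
  intro w hw hw1 x hx
  have h1 := hC x hx
  have h2 := one_sub_pow_le hw k
  have h3 : w ^ k ≤ 1 := pow_le_one₀ hw hw1
  have e : (k + 1) * w ^ k - chR k x = ((k + 1) - chR k x) - (k + 1) * (1 - w ^ k) := by ring
  rw [e]
  have h4 : |((k : ℝ) + 1) * (1 - w ^ k)| ≤ k * (k + 1) * (1 - w) := by
    rw [abs_of_nonneg (mul_nonneg (by linarith) (by linarith))]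
    calc ((k : ℝ) + 1) * (1 - w ^ k) ≤ (k + 1) * (k * (1 - w)) := by gcongr
      _ = _ := by ring
  have h5 : 0 ≤ 1 - w := by linarith
  have h6 : 0 ≤ 2 - x := by linarith [hx.2]
  calc |((k + 1) - chR k x) - (k + 1) * (1 - w ^ k)| ≤
        |(k + 1) - chR k x| + |((k : ℝ) + 1) * (1 - w ^ k)| := abs_sub _ _
    _ ≤ C * (2 - x) + k * (k + 1) * (1 - w) := add_le_add h1 h4
    _ ≤ (C + k * (k + 1) + 1) * (2 - x) + (C + k * (k + 1) + 1) * (1 - w) := by gcongr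
    _ = _ := by ring

/-- the edge of the support for small `s` -/
lemma hs_le_edge {C1 : ℝ} (hC : ∀ x ∈ Icc (-2 : ℝ) 2, |(k + 1) - chR k x| ≤ C1 * (2 - x))
    (hs1 : |s| * (8 * C1) ≤ b) (hC1 : 0 < C1) : ∀ x ∈ Icc (-2 : ℝ) 2, hs b k s x ≤ hs b k s 2 := by
  intro x hx
  have h4 := hC x hx
  have h5 : 0 ≤ 2 - x := by linarith [hx.2]
  have h6 : |2 * s * ((k + 1) - chR k x)| ≤ b * (2 - x) := by
    rw [abs_mul, abs_mul, abs_of_pos (by norm_num : (0 : ℝ) < 2)]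
    calc 2 * |s| * |((k : ℝ) + 1) - chR k x| ≤ 2 * |s| * (C1 * (2 - x)) := by gcongr
      _ = (2 * |s| * C1) * (2 - x) := by ring
      _ ≤ b * (2 - x) := by
        gcongr
        have : 0 ≤ |s| * C1 := by positivity
        linarith
  have h7 := (abs_le.1 h6).1
  have e : hs b k s 2 - hs b k s x = b * (2 - x) + 2 * s * ((k + 1) - chR k x) := by
    unfold hs; rw [chR_two]; ring
  linarith

/-- the upper bound away from the edge -/
lemma hint {C1 ε δ w : ℝ} (hb : 0 < b) (hε : 0 < ε) (hC1 : 0 < C1)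
    (hdiff : ∀ w : ℝ, 0 ≤ w → w ≤ 1 → ∀ x ∈ Icc (-2 : ℝ) 2,
      |(k + 1) * w ^ k - chR k x| ≤ C1 * ((1 - w) + (2 - x)))
    (h3 : ∀ x ∈ Icc (-2 : ℝ) 2, hs b k s x ≤ hs b k s 2) (hsp : 0 < |s|)
    (b1 : |s| * (8 * C1) ≤ b) (b3 : |s| * (512 * C1 ^ 2) ≤ ε * b)
    (hδ0 : 0 < δ) (hδ4 : 8 * C1 * |s| ≤ b * δ) (hw : 0 < w) (hwδ : w ≤ 1 - δ) :
    stInv (muS b k s) (w / b) ≤ b * (w + w⁻¹) + 2 * s * ((k + 1) * w ^ k) + ε / 4 * |s| := by
  have hw1 : w < 1 := by linarith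
  have h6 : 0 ≤ 1 - w := by linarith
  have h7 := zeta_ge hw hw1.le
  apply upper_int hb hw hw1 (by positivity) _ _ h3
  · intro x hx
    have h5 : 0 ≤ 2 - x := by linarith [hx.2]
    have h8 := hdiff w hw.le hw1.le x hx
    rw [abs_mul, abs_mul, abs_of_pos (by norm_num : (0 : ℝ) < 2)]
    have h9 : 2 * |s| * |(k + 1) * w ^ k - chR k x| ≤
        2 * |s| * (C1 * ((1 - w) + (2 - x))) := by gcongr
    have h10 : 8 * C1 * |s| * (1 - w) ≤ b * (1 - w) ^ 2 := by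
      calc 8 * C1 * |s| * (1 - w) ≤ b * δ * (1 - w) := by gcongr
        _ ≤ b * (1 - w) * (1 - w) := by gcongr; linarith
        _ = _ := by ring
    have h11 : 8 * C1 * |s| * (2 - x) ≤ b * (2 - x) := by
      gcongr; linarith
    have h12 : b * ((1 - w) ^ 2 + (2 - x)) ≤ b * (w + w⁻¹ - x) := by
      gcongr; linarith
    calc 2 * |s| * |(k + 1) * w ^ k - chR k x| ≤ 2 * |s| * (C1 * ((1 - w) + (2 - x))) := h9
      _ = (8 * C1 * |s| * (1 - w) + 8 * C1 * |s| * (2 - x)) / 4 := by ring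
      _ ≤ (b * (1 - w) ^ 2 + b * (2 - x)) / 4 := by gcongr
      _ = b * ((1 - w) ^ 2 + (2 - x)) / 4 := by ring
      _ ≤ _ := by gcongr
  · intro x hx
    have h5 : 0 ≤ 2 - x := by linarith [hx.2]
    have h5' : 2 - x ≤ 4 := by linarith [hx.1]
    have h8 := hdiff w hw.le hw1.le x hx
    have h9 : (2 * s * ((k + 1) * w ^ k - chR k x)) ^ 2 =
        4 * |s| ^ 2 * |(k + 1) * w ^ k - chR k x| ^ 2 := by
      rw [sq_abs, sq_abs]; ring
    rw [h9]
    have h11 := sq_add_le (p := 1 - w) h5 h5'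
    have h12 : b * ((1 - w) ^ 2 + (2 - x)) ≤ b * (w + w⁻¹ - x) := by
      gcongr; linarith
    calc 4 * |s| ^ 2 * |(k + 1) * w ^ k - chR k x| ^ 2
        ≤ 4 * |s| ^ 2 * (C1 * ((1 - w) + (2 - x))) ^ 2 := by gcongr
      _ = 4 * |s| ^ 2 * C1 ^ 2 * ((1 - w) + (2 - x)) ^ 2 := by ring
      _ ≤ 4 * |s| ^ 2 * C1 ^ 2 * (8 * ((1 - w) ^ 2 + (2 - x))) := by gcongr
      _ = (|s| * (512 * C1 ^ 2)) * |s| / 16 * ((1 - w) ^ 2 + (2 - x)) := by ring
      _ ≤ (ε * b) * |s| / 16 * ((1 - w) ^ 2 + (2 - x)) := by gcongr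
      _ = ε / 4 * |s| / 4 * (b * ((1 - w) ^ 2 + (2 - x))) := by ring
      _ ≤ ε / 4 * |s| / 4 * (b * (w + w⁻¹ - x)) := by gcongr

/-- the upper bound near the edge -/
lemma hedge {C1 ε δ κ y : ℝ} (hb : 0 < b) (hε : 0 < ε) (hC1 : 0 < C1)
    (hkC1 : (k : ℝ) * (k + 1) ≤ C1) (hκdef : κ = ε / (8 * b))
    (hδ0 : 0 < δ) (hδsq : δ ^ 2 = κ * |s|) (hδ2 : δ ≤ 1 / 2) (hδ3 : δ ≤ ε / (8 * C1))
    (h4 : stInv (muS b k s) ((1 - δ) / b) ≤
      b * ((1 - δ) + (1 - δ)⁻¹) + 2 * s * ((k + 1) * (1 - δ) ^ k) + ε / 4 * |s|)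
    (hy : 0 < y) (hbd : 1 - δ < b * y) :
    stInv (muS b k s) y ≤ stInv (muS b k 0) y +
      2 * s * ((k + 1) * min (b * y) 1 ^ k) + ε * |s| := by
  have hw' : 0 < 1 - δ := by linarith
  have h1 : (1 - δ) / b ≤ y := by
    rw [div_le_iff₀ hb]; linarith
  have h2 := stInv_anti (b := b) (k := k) (s := s) (div_pos hw' hb) h1
  have h5 := zeta_edge_le hδ2
  have h6 : b * ((1 - δ) + (1 - δ)⁻¹) ≤ 2 * b + ε / 4 * |s| := by
    calc b * ((1 - δ) + (1 - δ)⁻¹) ≤ b * (2 + 2 * δ ^ 2) := by gcongr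
      _ = 2 * b + ε / 4 * |s| := by rw [hδsq, hκdef]; field_simp; ring
  -- the value at `s = 0`
  have h7 : 2 * b ≤ stInv (muS b k 0) y := by
    have h8 := (le_sSup_support b k 0)
    rw [hs_zero] at h8
    apply le_stInv hy
    intro z hz
    linarith [hz.1]
  -- the powers
  have h8 : |(1 - δ) ^ k - min (b * y) 1 ^ k| ≤ k * δ := by
    have h9 : (1 - δ) ^ k ≤ min (b * y) 1 ^ k := by
      gcongr
      exact le_min hbd.le (by linarith)
    have h10 : min (b * y) 1 ^ k ≤ 1 := by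
      apply pow_le_one₀ (le_min (by positivity) zero_le_one) (min_le_right _ _)
    have h11 := one_sub_pow_le hw'.le k
    rw [abs_sub_comm, abs_of_nonneg (by linarith)]
    have e : (k : ℝ) * (1 - (1 - δ)) = k * δ := by ring
    linarith
  have h9 : 2 * s * ((k + 1) * (1 - δ) ^ k) - 2 * s * ((k + 1) * min (b * y) 1 ^ k) ≤
      ε / 4 * |s| := by
    calc 2 * s * ((k + 1) * (1 - δ) ^ k) - 2 * s * ((k + 1) * min (b * y) 1 ^ k)
        = 2 * (k + 1) * (s * ((1 - δ) ^ k - min (b * y) 1 ^ k)) := by ring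
      _ ≤ 2 * (k + 1) * (|s| * |(1 - δ) ^ k - min (b * y) 1 ^ k|) := by
          rw [← abs_mul]
          exact mul_le_mul_of_nonneg_left (le_abs_self _) (by positivity)
      _ ≤ 2 * (k + 1) * (|s| * (k * δ)) := by gcongr
      _ = 2 * (k * (k + 1)) * δ * |s| := by ring
      _ ≤ 2 * C1 * (ε / (8 * C1)) * |s| := by gcongr
      _ = ε / 4 * |s| := by field_simp; ring
  have h10 : 0 ≤ ε * |s| := by positivity
  linarith

/-- the uniform derivative at `s = 0` of the inverse Stieltjes transform of the law of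
`b x + 2 s U_k(x)` -/
theorem n5a (b : ℝ) (hb : 0 < b) (k : ℕ) (ε : ℝ) (hε : 0 < ε) :
    ∃ s0 > 0, ∀ s, |s| ≤ s0 → ∀ y, 0 < y →
      |stInv (muS b k s) y - stInv (muS b k 0) y - 2 * s * ((k + 1) * min (b * y) 1 ^ k)| ≤
        ε * |s| := by
  obtain ⟨C1, hC1, hkC1, hC, hdiff⟩ := exists_C1 k
  obtain ⟨κ, hκdef⟩ : ∃ κ : ℝ, κ = ε / (8 * b) := ⟨_, rfl⟩
  have hκ : 0 < κ := by rw [hκdef]; positivity
  obtain ⟨s0, hs0def⟩ : ∃ s0 : ℝ, s0 = min (min (b / (8 * C1)) (b ^ 2 * κ / (64 * C1 ^ 2)))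
    (min (ε * b / (512 * C1 ^ 2)) (min ((ε / (8 * C1)) ^ 2 / κ) (1 / (4 * κ)))) := ⟨_, rfl⟩
  have hs0 : 0 < s0 := by
    rw [hs0def]
    refine lt_min (lt_min ?_ ?_) (lt_min ?_ (lt_min ?_ ?_)) <;> positivity
  refine ⟨s0, hs0, fun s hss y hy => ?_⟩
  by_cases hsz : s = 0
  · subst hsz; simp
  have hsp : 0 < |s| := abs_pos.2 hsz
  rw [hs0def] at hss
  have b1 : |s| ≤ b / (8 * C1) := hss.trans ((min_le_left _ _).trans (min_le_left _ _))
  have b2 : |s| ≤ b ^ 2 * κ / (64 * C1 ^ 2) := hss.trans ((min_le_left _ _).trans (min_le_right _ _))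
  have b3 : |s| ≤ ε * b / (512 * C1 ^ 2) := hss.trans ((min_le_right _ _).trans (min_le_left _ _))
  have b4 : |s| ≤ (ε / (8 * C1)) ^ 2 / κ :=
    hss.trans ((min_le_right _ _).trans ((min_le_right _ _).trans (min_le_left _ _)))
  have b5 : |s| ≤ 1 / (4 * κ) :=
    hss.trans ((min_le_right _ _).trans ((min_le_right _ _).trans (min_le_right _ _)))
  rw [le_div_iff₀ (by positivity)] at b1 b2 b3 b4 b5
  obtain ⟨δ, hδdef⟩ : ∃ δ : ℝ, δ = Real.sqrt (κ * |s|) := ⟨_, rfl⟩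
  have hδ0 : 0 < δ := by rw [hδdef]; exact Real.sqrt_pos.2 (by positivity)
  have hδsq : δ ^ 2 = κ * |s| := by rw [hδdef]; exact Real.sq_sqrt (by positivity)
  have hδ2 : δ ≤ 1 / 2 := by
    rw [hδdef]
    apply Real.sqrt_le_iff.2 ⟨by norm_num, ?_⟩
    linarith
  have hδ3 : δ ≤ ε / (8 * C1) := by
    rw [hδdef]
    apply Real.sqrt_le_iff.2 ⟨by positivity, ?_⟩
    linarith
  have hδ4 : 8 * C1 * |s| ≤ b * δ := by
    have h1 : (8 * C1 * |s|) ^ 2 ≤ (b * δ) ^ 2 := by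
      rw [mul_pow b δ, hδsq]
      calc (8 * C1 * |s|) ^ 2 = |s| * (64 * C1 ^ 2) * |s| := by ring
        _ ≤ b ^ 2 * κ * |s| := by gcongr
        _ = _ := by ring
    exact (sq_le_sq₀ (by positivity) (by positivity)).1 h1
  have h3 := hs_le_edge hC b1 hC1
  have hlow := lower_all hb k s hy
  have hup : stInv (muS b k s) y ≤ stInv (muS b k 0) y +
      2 * s * ((k + 1) * min (b * y) 1 ^ k) + ε * |s| := by
    by_cases hbd : b * y ≤ 1 - δ
    · have h1 : b * y < 1 := by linarith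
      rw [min_eq_left h1.le]
      have hw : 0 < b * y := by positivity
      have e : y = (b * y) / b := by field_simp
      have h2 := hint hb hε hC1 hdiff h3 hsp b1 b3 hδ0 hδ4 hw hbd
      have h4 := z0_int hb k hw h1
      rw [← e] at h2 h4
      rw [h4]
      have : ε / 4 * |s| ≤ ε * |s| := by gcongr; linarith
      linarith
    · rw [not_le] at hbd
      exact hedge hb hε hC1 hkC1 hκdef hδ0 hδsq hδ2 hδ3
        (hint hb hε hC1 hdiff h3 hsp b1 b3 hδ0 hδ4 (by linarith) le_rfl) hy hbd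
  have h10 : 0 ≤ ε * |s| := by positivity
  rw [abs_le]
  constructor
  · linarith
  · linarith

/-- the same for the R-transform -/
theorem rt_diff (b : ℝ) (hb : 0 < b) (k : ℕ) (ε : ℝ) (hε : 0 < ε) :
    ∃ s0 > 0, ∀ s y, |s| ≤ s0 → 0 < y → y ≤ 1 →
      |Rt (muS b k s) y - Rt (muS b k 0) y - 2 * s * ((k + 1) * min (b * y) 1 ^ k)| ≤
        ε * |s| := by
  obtain ⟨s0, h0, h⟩ := n5a b hb k ε hε
  refine ⟨s0, h0, fun s y hs hy _ => ?_⟩
  have e : Rt (muS b k s) y - Rt (muS b k 0) y - 2 * s * ((k + 1) * min (b * y) 1 ^ k) =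
      stInv (muS b k s) y - stInv (muS b k 0) y - 2 * s * ((k + 1) * min (b * y) 1 ^ k) := by
    unfold Rt; ring
  rw [e]
  exact h s hs y hy

end Vale.Agent.P146.R3.H49
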