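import Vale.Agent.P146.R3.Def

/-!
# P146, N5a: the semicircle law and the Chebyshev polynomials
-/

open MeasureTheory Set

namespace Vale.Agent.P146.R3.H49

lemma chR_cos (k : ℕ) (θ : ℝ) :
    chR k (2 * Real.cos θ) * Real.sin θ = Real.sin ((k + 1) * θ) := by
  have key : ∀ k : ℕ, chR k (2 * Real.cos θ) * Real.sin θ = Real.sin ((k + 1) * θ) ∧
      chR (k + 1) (2 * Real.cos θ) * Real.sin θ = Real.sin ((k + 2) * θ) := by
    intro k
    induction k with
    | zero =>
      refine ⟨by simp, ?_⟩
      simp only [zero_add, chR_one, Nat.cast_zero]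
      rw [Real.sin_two_mul]; ring
    | succ k ih =>
      refine ⟨by rw [ih.2]; push_cast; ring_nf, ?_⟩
      rw [chR_succ_succ, sub_mul, mul_assoc, ih.1, ih.2]
      have h1 : (((k + 1 : ℕ) : ℝ) + 2) * θ = (k + 2) * θ + θ := by push_cast; ring
      have h2 : ((k : ℝ) + 1) * θ = (k + 2) * θ - θ := by ring
      rw [h1, h2, Real.sin_add, Real.sin_sub]; ring
  exact (key k).1

lemma continuous_chR (k : ℕ) : Continuous (chR k) := by
  have key : ∀ k : ℕ, Continuous (chR k) ∧ Continuous (chR (k + 1)) := by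
    intro k
    induction k with
    | zero =>
      refine ⟨?_, ?_⟩
      · have : chR 0 = fun _ => 1 := by ext x; simp
        rw [this]; exact continuous_const
      · have : chR 1 = fun x => x := by ext x; simp
        rw [zero_add, this]; exact continuous_id
    | succ k ih =>
      refine ⟨ih.2, ?_⟩
      have : chR (k + 2) = fun x => x * chR (k + 1) x - chR k x := by
        ext x; rw [chR_succ_succ]
      show Continuous (chR (k + 2))
      rw [this]
      exact (continuous_id.mul ih.2).sub ih.1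
  exact (key k).1

lemma chR_two (k : ℕ) : chR k 2 = k + 1 := by
  have key : ∀ k : ℕ, chR k 2 = k + 1 ∧ chR (k + 1) 2 = k + 2 := by
    intro k
    induction k with
    | zero => constructor <;> simp
    | succ k ih =>
      refine ⟨by rw [ih.2]; push_cast; ring, ?_⟩
      rw [chR_succ_succ, ih.1, ih.2]; push_cast; ring
  exact (key k).1

/-- `|U_k(x)| ≤ k + 1` on `[-2, 2]` -/
lemma abs_chR_le (k : ℕ) {x : ℝ} (hx : x ∈ Icc (-2 : ℝ) 2) : |chR k x| ≤ k + 1 := by
  -- reduce to the open interval by continuity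
  have hop : ∀ x ∈ Ioo (-2 : ℝ) 2, |chR k x| ≤ k + 1 := by
    intro x hx
    set θ := Real.arccos (x / 2) with hθ
    have hc : 2 * Real.cos θ = x := by
      rw [hθ, Real.cos_arccos (by linarith [hx.1]) (by linarith [hx.2])]; ring
    have hs : 0 < Real.sin θ := by
      rw [hθ, Real.sin_arccos]
      apply Real.sqrt_pos.2
      nlinarith [hx.1, hx.2]
    have h1 := chR_cos k θ
    rw [hc] at h1
    have h2 : ∀ m : ℕ, |Real.sin (m * θ)| ≤ m * Real.sin θ := by
      intro m
      induction m with
      | zero => simp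
      | succ m ih =>
        have : ((m + 1 : ℕ) : ℝ) * θ = m * θ + θ := by push_cast; ring
        rw [this, Real.sin_add]
        calc |Real.sin (m * θ) * Real.cos θ + Real.cos (m * θ) * Real.sin θ|
            ≤ |Real.sin (m * θ) * Real.cos θ| + |Real.cos (m * θ) * Real.sin θ| := abs_add_le _ _
          _ ≤ |Real.sin (m * θ)| * 1 + 1 * Real.sin θ := by
              rw [abs_mul, abs_mul, abs_of_pos hs]
              gcongr
              · exact Real.abs_cos_le_one _
              · exact Real.abs_cos_le_one _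
          _ ≤ ((m + 1 : ℕ) : ℝ) * Real.sin θ := by push_cast; linarith
    have h3 := h2 (k + 1)
    have h4 : |chR k x| * Real.sin θ ≤ (k + 1) * Real.sin θ := by
      rw [← abs_of_pos hs, ← abs_mul, h1, abs_of_pos hs]
      push_cast at h3
      exact h3
    exact le_of_mul_le_mul_right h4 hs
  have hcl : IsClosed {x : ℝ | |chR k x| ≤ k + 1} :=
    isClosed_le (continuous_chR k).abs continuous_const
  have hsub : closure (Ioo (-2 : ℝ) 2) ⊆ {x : ℝ | |chR k x| ≤ k + 1} :=
    hcl.closure_subset_iff.2 hop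
  rw [closure_Ioo (by norm_num)] at hsub
  exact hsub hx

/-- `U_k` is Lipschitz at the edge `2` -/
lemma exists_edge (k : ℕ) : ∃ C : ℝ, 0 ≤ C ∧
    ∀ x ∈ Icc (-2 : ℝ) 2, |(k + 1) - chR k x| ≤ C * (2 - x) := by
  have key : ∀ k : ℕ, (∃ C : ℝ, 0 ≤ C ∧ ∀ x ∈ Icc (-2 : ℝ) 2, |(k + 1) - chR k x| ≤ C * (2 - x)) ∧
      (∃ C : ℝ, 0 ≤ C ∧ ∀ x ∈ Icc (-2 : ℝ) 2, |(k + 2) - chR (k + 1) x| ≤ C * (2 - x)) := by
    intro k
    induction k with
    | zero =>
      refine ⟨⟨0, le_rfl, fun x _ => by simp⟩, ⟨1, zero_le_one, fun x hx => ?_⟩⟩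
      simp only [zero_add, chR_one, Nat.cast_zero]
      rw [abs_of_nonneg (by linarith [hx.2])]; linarith
    | succ k ih =>
      obtain ⟨⟨C, hC, h1⟩, ⟨C', hC', h2⟩⟩ := ih
      refine ⟨⟨C', hC', fun x hx => ?_⟩, ⟨2 * C' + C + (k + 2), by positivity, fun x hx => ?_⟩⟩
      · have := h2 x hx
        have e : (((k + 1 : ℕ) : ℝ) + 1) - chR (k + 1) x = (k + 2) - chR (k + 1) x := by
          push_cast; ring
        rw [e]; exact this
      · rw [chR_succ_succ]
        have e : ((k + 1 : ℕ) : ℝ) + 2 - (x * chR (k + 1) x - chR k x) =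
            x * ((k + 2) - chR (k + 1) x) - ((k + 1) - chR k x) + (k + 2) * (2 - x) := by
          push_cast; ring
        rw [e]
        have hx2 : |x| ≤ 2 := abs_le.2 ⟨hx.1, hx.2⟩
        have h2x : 0 ≤ 2 - x := by linarith [hx.2]
        calc |x * ((k + 2) - chR (k + 1) x) - ((k + 1) - chR k x) + (k + 2) * (2 - x)|
            ≤ |x * ((k + 2) - chR (k + 1) x) - ((k + 1) - chR k x)| + |(k + 2) * (2 - x)| :=
              abs_add_le _ _
          _ ≤ |x * ((k + 2) - chR (k + 1) x)| + |(k + 1) - chR k x| + |(k + 2) * (2 - x)| := by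
              gcongr; exact abs_sub _ _
          _ ≤ 2 * (C' * (2 - x)) + C * (2 - x) + (k + 2) * (2 - x) := by
              gcongr
              · rw [abs_mul]
                exact mul_le_mul hx2 (h2 x hx) (abs_nonneg _) (by norm_num)
              · exact h1 x hx
              · rw [abs_of_nonneg (by positivity)]
          _ = _ := by ring
  exact (key k).1

lemma measurable_cos2 : Measurable (fun θ : ℝ => 2 * Real.cos θ) := by fun_prop

/-- integration against the semicircle law -/
lemma integral_sc {f : ℝ → ℝ} (hf : Measurable f) :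
    ∫ x, f x ∂sc = ∫ θ in (0:ℝ)..Real.pi,
      2 / Real.pi * Real.sin θ ^ 2 * f (2 * Real.cos θ) := by
  unfold sc
  rw [integral_map measurable_cos2.aemeasurable hf.aestronglyMeasurable,
    integral_withDensity_eq_integral_toReal_smul (by fun_prop) (ae_of_all _ fun _ => by simp),
    intervalIntegral.integral_of_le Real.pi_pos.le, ← integral_Icc_eq_integral_Ioc]
  congr 1
  funext θ
  have hp := Real.pi_pos
  rw [ENNReal.toReal_ofReal (by positivity), smul_eq_mul]

instance : IsProbabilityMeasure sc := by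
  unfold sc
  have : IsProbabilityMeasure ((volume.restrict (Icc 0 Real.pi)).withDensity fun θ =>
      ENNReal.ofReal (2 / Real.pi * Real.sin θ ^ 2)) := by
    constructor
    rw [withDensity_apply _ MeasurableSet.univ, Measure.restrict_univ]
    have hp := Real.pi_pos
    rw [← ofReal_integral_eq_lintegral_ofReal]
    · rw [integral_Icc_eq_integral_Ioc, ← intervalIntegral.integral_of_le Real.pi_pos.le,
        intervalIntegral.integral_const_mul, integral_sin_sq]
      simp
    · exact (Continuous.integrableOn_Icc (by fun_prop))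
    · exact ae_of_all _ fun θ => by positivity
  exact Measure.isProbabilityMeasure_map measurable_cos2.aemeasurable

lemma sc_ae : ∀ᵐ x ∂sc, x ∈ Icc (-2 : ℝ) 2 := by
  unfold sc
  refine (ae_map_iff measurable_cos2.aemeasurable (p := fun x => x ∈ Icc (-2 : ℝ) 2)
    measurableSet_Icc).2 ?_
  exact ae_of_all _ fun θ => ⟨by linarith [Real.neg_one_le_cos θ], by linarith [Real.cos_le_one θ]⟩

/-- the edge `2` belongs to the support -/
lemma sc_edge {c : ℝ} (hc : c < 2) : 0 < sc (Ioi c) := by
  unfold sc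
  rw [Measure.map_apply measurable_cos2 measurableSet_Ioi,
    withDensity_apply _ (measurable_cos2 measurableSet_Ioi)]
  have hcont : ContinuousAt (fun θ : ℝ => 2 * Real.cos θ) 0 := by fun_prop
  have hev : ∀ᶠ θ in nhds (0 : ℝ), 2 * Real.cos θ ∈ Ioi c := by
    apply hcont.eventually
    simp only [Real.cos_zero, mul_one]
    exact Ioi_mem_nhds hc
  obtain ⟨r, hr, hball⟩ := Metric.eventually_nhds_iff.1 hev
  set r' := min (r / 2) (Real.pi / 2) with hr'
  have hr'0 : 0 < r' := lt_min (by linarith) (by linarith [Real.pi_pos])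
  have hsub : Ioo 0 r' ⊆ (fun θ : ℝ => 2 * Real.cos θ) ⁻¹' Ioi c := by
    intro θ hθ
    apply hball
    rw [Real.dist_eq, sub_zero, abs_of_pos hθ.1]
    linarith [hθ.2, min_le_left (r / 2) (Real.pi / 2)]
  rw [Measure.restrict_restrict (measurable_cos2 measurableSet_Ioi)]
  refine lt_of_lt_of_le ?_ (lintegral_mono_set (s := Ioo 0 r') ?_)
  · rw [setLIntegral_pos_iff (by fun_prop)]
    have : (Function.support fun θ : ℝ =>
        ENNReal.ofReal (2 / Real.pi * Real.sin θ ^ 2)) ∩ Ioo 0 r' = Ioo 0 r' := by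
      apply inter_eq_right.2
      intro θ hθ
      have hp := Real.pi_pos
      have : 0 < Real.sin θ := Real.sin_pos_of_pos_of_lt_pi hθ.1
        (by linarith [hθ.2, min_le_right (r / 2) (Real.pi / 2)])
      simp only [Function.mem_support, ne_eq, ENNReal.ofReal_eq_zero, not_le]
      positivity
    rw [this, Real.volume_Ioo]
    simpa using hr'0
  · intro θ hθ
    exact ⟨hsub hθ, ⟨hθ.1.le, by linarith [hθ.2, min_le_right (r / 2) (Real.pi / 2),
      Real.pi_pos]⟩⟩

/-- `∫ U_k = δ_{k0}` -/
lemma integral_chR (k : ℕ) : ∫ x, chR k x ∂sc = if k = 0 then 1 else 0 := by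
  rw [integral_sc (continuous_chR k).measurable]
  have hp := Real.pi_pos
  have e : ∀ θ : ℝ, 2 / Real.pi * Real.sin θ ^ 2 * chR k (2 * Real.cos θ) =
      1 / Real.pi * (Real.cos (k * θ) - Real.cos ((k + 2) * θ)) := by
    intro θ
    have h1 := chR_cos k θ
    have h2 : (k : ℝ) * θ = (k + 1) * θ - θ := by ring
    have h3 : ((k : ℝ) + 2) * θ = (k + 1) * θ + θ := by ring
    rw [h2, h3, Real.cos_sub, Real.cos_add, ← h1]
    ring
  simp_rw [e]
  rw [intervalIntegral.integral_const_mul, intervalIntegral.integral_sub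
    ((by fun_prop : Continuous fun θ : ℝ => Real.cos (k * θ)).intervalIntegrable _ _)
    ((by fun_prop : Continuous fun θ : ℝ => Real.cos ((k + 2) * θ)).intervalIntegrable _ _)]
  have h4 : ∀ m : ℕ, m ≠ 0 → ∫ θ in (0:ℝ)..Real.pi, Real.cos (m * θ) = 0 := by
    intro m hm
    have hm' : (m : ℝ) ≠ 0 := by exact_mod_cast hm
    rw [intervalIntegral.integral_comp_mul_left (fun x => Real.cos x) hm', integral_cos]
    simp [Real.sin_nat_mul_pi]
  have h5 := h4 (k + 2) (by omega)
  push_cast at h5
  rw [h5, sub_zero]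
  by_cases hk : k = 0
  · subst hk
    simp
  · rw [h4 k hk, if_neg hk, mul_zero]

end Vale.Agent.P146.R3.H49
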