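import Mathlib

/-!
# P146: the sum of the errors over the levels (real numbers only)
-/

open Finset

namespace Vale.Agent.P146.R3.H49.Sum

variable {d K : ℕ}

/-- Cauchy-Schwarz -/
lemma cs (s : Finset ℕ) (a b : ℕ → ℝ) {A B : ℝ} (hA : 0 ≤ A) (hB : 0 ≤ B)
    (ha : ∑ j ∈ s, a j ^ 2 ≤ A ^ 2) (hb : ∑ j ∈ s, b j ^ 2 ≤ B ^ 2) :
    ∑ j ∈ s, a j * b j ≤ A * B := by
  have h := Finset.sum_mul_sq_le_sq_mul_sq s a b
  have h2 : (∑ j ∈ s, a j * b j) ^ 2 ≤ (A * B) ^ 2 := by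
    rw [mul_pow]
    exact h.trans (mul_le_mul ha hb (Finset.sum_nonneg fun _ _ => sq_nonneg _) (sq_nonneg _))
  exact (abs_le_of_sq_le_sq' h2 (mul_nonneg hA hB)).2

/-- the sum of the squares of the pairs -/
lemma pair_sq (s : Finset ℕ) (x y : ℕ → ℝ) {A : ℝ} (hx : ∑ j ∈ s, x j ^ 2 ≤ A ^ 2)
    (hy : ∑ j ∈ s, y j ^ 2 ≤ A ^ 2) : ∑ j ∈ s, (x j + y j) ^ 2 ≤ (2 * A) ^ 2 := by
  have h : ∀ j ∈ s, (x j + y j) ^ 2 ≤ 2 * x j ^ 2 + 2 * y j ^ 2 := fun j _ => by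
    nlinarith [sq_nonneg (x j - y j)]
  refine (Finset.sum_le_sum h).trans ?_
  rw [Finset.sum_add_distrib, ← Finset.mul_sum, ← Finset.mul_sum]
  nlinarith

/-- **The sum of the variances.** -/
theorem sum_V (s : Finset ℕ) {V b x y : ℕ → ℝ} {B G L σ : ℝ} (hL : 0 ≤ L) (hσ : 0 < σ)
    (hG : 0 ≤ G) (hB : 0 ≤ B) (hV : ∀ j ∈ s, 0 ≤ V j) (hb : ∑ j ∈ s, b j ^ 2 ≤ B ^ 2)
    (hx : ∑ j ∈ s, x j ^ 2 ≤ (σ * G) ^ 2) (hy : ∑ j ∈ s, y j ^ 2 ≤ (σ * G) ^ 2)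
    (h2 : ∀ j ∈ s, √(V j) ≤ b j + L * (x j + y j) / σ) :
    ∑ j ∈ s, V j ≤ (2 * (B + 2 * (L * G))) ^ 2 := by
  have h3 : ∑ j ∈ s, (L * (x j + y j) / σ) ^ 2 ≤ (2 * (L * G)) ^ 2 := by
    have e : ∀ j, (L * (x j + y j) / σ) ^ 2 = (L / σ) ^ 2 * (x j + y j) ^ 2 := fun j => by ring
    simp_rw [e]
    rw [← Finset.mul_sum]
    refine (mul_le_mul_of_nonneg_left (pair_sq s x y hx hy) (sq_nonneg _)).trans (le_of_eq ?_)
    field_simp
  have h4 : ∀ j ∈ s, V j ≤ (b j + L * (x j + y j) / σ) ^ 2 := by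
    intro j hj
    rw [← Real.sq_sqrt (hV j hj)]
    exact pow_le_pow_left₀ (Real.sqrt_nonneg _) (h2 j hj) 2
  refine (Finset.sum_le_sum h4).trans ?_
  have hM : ∀ u v : ℝ, (u + v) ^ 2 ≤ 2 * u ^ 2 + 2 * v ^ 2 := fun u v => by
    nlinarith [sq_nonneg (u - v)]
  refine (Finset.sum_le_sum fun j _ => hM _ _).trans ?_
  rw [Finset.sum_add_distrib, ← Finset.mul_sum, ← Finset.mul_sum]
  have h5 : 0 ≤ L * G := mul_nonneg hL hG
  nlinarith [mul_nonneg hB h5]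

/-- **The sum of the errors over the levels.**  `V j` are the variances, `D j` the differences of
the second moments, `f j` the deviations of the fields, `a j` the increments of the test
function. -/
theorem sum_err {V D a b f : ℕ → ℝ} {B G L Λ σ : ℝ} (hL : 0 < L) (hσ : 0 < σ)
    (hG : 0 ≤ G) (hB : 0 ≤ B) (hΛ : 0 ≤ Λ)
    (hV : ∀ j ∈ Ico d K, 0 ≤ V j) (hD : ∀ j ∈ Ico d K, 0 ≤ D j)
    (ha : ∑ j ∈ Ico d K, a j ^ 2 ≤ 1) (hb : ∑ j ∈ Ico d K, b j ^ 2 ≤ B ^ 2)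
    (hf : ∑ j ∈ Ico d (K + 2), f j ^ 2 ≤ (σ * G) ^ 2)
    (hΛs : ∑ j ∈ Ico d K, 1 / ((j : ℝ) + 1) ≤ Λ ^ 2)
    (h2 : ∀ j ∈ Ico d K, √(V j) ≤ b j + L * (f (j + 1) + f (j + 2)) / σ)
    (h3 : ∀ j ∈ Ico d K, ((j : ℝ) + 1) / L * D j ≤ V j / L + (f j + f (j + 1)) * √(V j) / σ) :
    ∑ j ∈ Ico d K, 1 / L * (√(D j) + a j * √(V j)) ≤
      2 * ((B + 3) * (1 + Λ)) * (1 / L + G) := by
  have hf0 : ∑ j ∈ Ico d K, f j ^ 2 ≤ (σ * G) ^ 2 :=
    (Finset.sum_le_sum_of_subset_of_nonneg (Finset.Ico_subset_Ico le_rfl (by omega))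
      fun _ _ _ => sq_nonneg _).trans hf
  have hf1 : ∑ j ∈ Ico d K, f (j + 1) ^ 2 ≤ (σ * G) ^ 2 := by
    rw [Finset.sum_Ico_add' (fun j => f j ^ 2) d K 1]
    exact (Finset.sum_le_sum_of_subset_of_nonneg (Finset.Ico_subset_Ico (by omega) (by omega))
      fun _ _ _ => sq_nonneg _).trans hf
  have hf2 : ∑ j ∈ Ico d K, f (j + 2) ^ 2 ≤ (σ * G) ^ 2 := by
    rw [Finset.sum_Ico_add' (fun j => f j ^ 2) d K 2]
    exact (Finset.sum_le_sum_of_subset_of_nonneg (Finset.Ico_subset_Ico (by omega) (by omega))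
      fun _ _ _ => sq_nonneg _).trans hf
  obtain ⟨W, hW⟩ : ∃ W : ℝ, W = 2 * (B + 2 * (L * G)) := ⟨_, rfl⟩
  have hLG : 0 ≤ L * G := mul_nonneg hL.le hG
  have hW0 : 0 ≤ W := by rw [hW]; positivity
  have hSV : ∑ j ∈ Ico d K, V j ≤ W ^ 2 := by
    rw [hW]
    exact sum_V _ hL.le hσ hG hB hV hb hf1 hf2 h2
  have hSV2 : ∑ j ∈ Ico d K, √(V j) ^ 2 ≤ W ^ 2 := by
    rw [Finset.sum_congr rfl fun j hj => Real.sq_sqrt (hV j hj)]
    exact hSV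
  -- the first part
  have t1 : ∑ j ∈ Ico d K, a j * √(V j) ≤ 1 * W :=
    cs _ a (fun j => √(V j)) zero_le_one hW0 (by rw [one_pow]; exact ha) hSV2
  -- the second part
  have t2 : ∑ j ∈ Ico d K, ((j : ℝ) + 1) / L * D j ≤ (W + L * G) ^ 2 / L := by
    have h4 : ∑ j ∈ Ico d K, (f j + f (j + 1)) * √(V j) ≤ 2 * (σ * G) * W :=
      cs _ (fun j => f j + f (j + 1)) (fun j => √(V j)) (by positivity) hW0
        (pair_sq _ _ _ hf0 hf1) hSV2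
    have h5 : ∑ j ∈ Ico d K, (V j / L + (f j + f (j + 1)) * √(V j) / σ) ≤
        W ^ 2 / L + 2 * G * W := by
      rw [Finset.sum_add_distrib, ← Finset.sum_div, ← Finset.sum_div]
      have h6 : (∑ j ∈ Ico d K, (f j + f (j + 1)) * √(V j)) / σ ≤ 2 * G * W := by
        rw [div_le_iff₀ hσ]
        linarith
      have h7 : (∑ j ∈ Ico d K, V j) / L ≤ W ^ 2 / L := by gcongr
      linarith
    refine (Finset.sum_le_sum h3).trans (h5.trans ?_)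
    have h8 : W ^ 2 / L + 2 * G * W = (W ^ 2 + 2 * (L * G) * W) / L := by
      field_simp
    rw [h8]
    gcongr
    nlinarith [sq_nonneg (L * G)]
  have t3 : ∑ j ∈ Ico d K, √(L / ((j : ℝ) + 1)) * √(((j : ℝ) + 1) / L * D j) ≤
      (√L * Λ) * ((W + L * G) / √L) := by
    refine cs _ (fun j => √(L / ((j : ℝ) + 1))) (fun j => √(((j : ℝ) + 1) / L * D j))
      (by positivity) (by positivity) ?_ ?_
    · have e1 : ∀ j ∈ Ico d K, √(L / ((j : ℝ) + 1)) ^ 2 = L * (1 / ((j : ℝ) + 1)) := by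
        intro j _
        rw [Real.sq_sqrt (by positivity)]
        ring
      rw [Finset.sum_congr rfl e1, ← Finset.mul_sum, mul_pow, Real.sq_sqrt hL.le]
      exact mul_le_mul_of_nonneg_left hΛs hL.le
    · have e1 : ∀ j ∈ Ico d K, √(((j : ℝ) + 1) / L * D j) ^ 2 = ((j : ℝ) + 1) / L * D j := by
        intro j hj
        have := hD j hj
        rw [Real.sq_sqrt (by positivity)]
      rw [Finset.sum_congr rfl e1, div_pow, Real.sq_sqrt hL.le]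
      exact t2
  have t4 : ∑ j ∈ Ico d K, √(D j) ≤ Λ * (W + L * G) := by
    have e1 : ∀ j ∈ Ico d K, √(D j) = √(L / ((j : ℝ) + 1)) * √(((j : ℝ) + 1) / L * D j) := by
      intro j hj
      rw [← Real.sqrt_mul (by positivity)]
      congr 1
      have : (j : ℝ) + 1 ≠ 0 := by positivity
      field_simp
    rw [Finset.sum_congr rfl e1]
    refine t3.trans (le_of_eq ?_)
    have : √L ≠ 0 := (Real.sqrt_pos.2 hL).ne'
    field_simp
  rw [← Finset.mul_sum, Finset.sum_add_distrib]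
  have t5 : ∑ j ∈ Ico d K, √(D j) + ∑ j ∈ Ico d K, a j * √(V j) ≤
      Λ * (W + L * G) + 1 * W := add_le_add t4 t1
  have t6 : 1 / L * (∑ j ∈ Ico d K, √(D j) + ∑ j ∈ Ico d K, a j * √(V j)) ≤
      1 / L * (Λ * (W + L * G) + 1 * W) := mul_le_mul_of_nonneg_left t5 (by positivity)
  refine t6.trans ?_
  have e2 : 1 / L * (Λ * (W + L * G) + 1 * W) =
      2 * B * (1 + Λ) * (1 / L) + (4 * (1 + Λ) + Λ) * G := by
    rw [hW]
    field_simp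
    ring
  rw [e2]
  have h9 : 0 ≤ 1 / L := by positivity
  nlinarith [mul_nonneg (mul_nonneg hB (by linarith : (0 : ℝ) ≤ 1 + Λ)) hG,
    mul_nonneg (by linarith : (0 : ℝ) ≤ 1 + Λ) h9, mul_nonneg hΛ hG, mul_nonneg hB h9]

/-- Abel summation over the levels.  `X j = E w_j (u_j - R_j)`, `Y j = E w_(j+1) (u_j - R_j)`,
`g j = g_j(w_j)`, `h j = g_j(w_(j+1))`. -/
theorem abel {X Y g h : ℕ → ℝ} {q : ℝ} (hdK : d ≤ K)
    (h1 : ∀ j ∈ Ico d K, q * Y j = g (j + 1) - h j) :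
    ∑ j ∈ Ico d K, q * X j =
      ∑ j ∈ Ico d K, q * (X j - Y j) + (g K - g d) + ∑ j ∈ Ico d K, (g j - h j) := by
  have e1 : ∑ j ∈ Ico d K, (g (j + 1) - g j) = g K - g d := Finset.sum_Ico_sub g hdK
  rw [← e1, ← Finset.sum_add_distrib, ← Finset.sum_add_distrib]
  refine Finset.sum_congr rfl fun j hj => ?_
  linear_combination h1 j hj

/-- **The total error.** -/
theorem total {V D a b f P X Y g h : ℕ → ℝ} {B G L Λ σ : ℝ} (hdK : d ≤ K) (hL : 0 < L)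
    (hσ : 0 < σ) (hG : 0 ≤ G) (hB : 0 ≤ B) (hΛ : 0 ≤ Λ)
    (hV : ∀ j ∈ Ico d K, 0 ≤ V j) (hD : ∀ j ∈ Ico d K, 0 ≤ D j)
    (ha : ∑ j ∈ Ico d K, a j ^ 2 ≤ 1) (hb : ∑ j ∈ Ico d K, b j ^ 2 ≤ B ^ 2)
    (hf : ∑ j ∈ Ico d (K + 2), f j ^ 2 ≤ (σ * G) ^ 2)
    (hΛs : ∑ j ∈ Ico d K, 1 / ((j : ℝ) + 1) ≤ Λ ^ 2)
    (h1 : ∀ j ∈ Ico d K, 1 / L * Y j = g (j + 1) - h j)
    (hXY : ∀ j ∈ Ico d K, |X j - Y j| ≤ a j * √(V j))
    (hgh : ∀ j ∈ Ico d K, |g j - h j| ≤ f j * a j / σ)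
    (hg : ∀ j ∈ Icc d K, |g j| ≤ f j / σ)
    (hP : ∀ j ∈ Ico d K, |P j - X j| ≤ √(D j))
    (h2 : ∀ j ∈ Ico d K, √(V j) ≤ b j + L * (f (j + 1) + f (j + 2)) / σ)
    (h3 : ∀ j ∈ Ico d K, ((j : ℝ) + 1) / L * D j ≤ V j / L + (f j + f (j + 1)) * √(V j) / σ) :
    |∑ j ∈ Ico d K, 1 / L * P j| ≤ 2 * ((B + 3) * (1 + Λ)) * (1 / L + G) + 3 * G := by
  have hs := sum_err hL hσ hG hB hΛ hV hD ha hb hf hΛs h2 h3
  have hL' : 0 ≤ 1 / L := by positivity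
  have hσG : 0 ≤ σ * G := by positivity
  have fle : ∀ j ∈ Icc d K, f j / σ ≤ G := by
    intro j hj
    rw [Finset.mem_Icc] at hj
    rw [div_le_iff₀ hσ, mul_comm]
    refine abs_le_of_sq_le_sq' (a := f j) ?_ hσG |>.2
    refine le_trans ?_ hf
    exact Finset.single_le_sum (f := fun j => f j ^ 2) (fun _ _ => sq_nonneg _)
      (Finset.mem_Ico.2 ⟨hj.1, by omega⟩)
  have e1 : ∑ j ∈ Ico d K, 1 / L * P j = ∑ j ∈ Ico d K, 1 / L * (P j - X j) +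
      ∑ j ∈ Ico d K, 1 / L * X j := by
    rw [← Finset.sum_add_distrib]
    exact Finset.sum_congr rfl fun j _ => by ring
  rw [e1, abel (X := X) (Y := Y) hdK h1]
  have b1 : |∑ j ∈ Ico d K, 1 / L * (P j - X j)| ≤ ∑ j ∈ Ico d K, 1 / L * √(D j) := by
    refine (Finset.abs_sum_le_sum_abs _ _).trans (Finset.sum_le_sum fun j hj => ?_)
    rw [abs_mul, abs_of_nonneg hL']
    exact mul_le_mul_of_nonneg_left (hP j hj) hL'
  have b2 : |∑ j ∈ Ico d K, 1 / L * (X j - Y j)| ≤ ∑ j ∈ Ico d K, 1 / L * (a j * √(V j)) := by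
    refine (Finset.abs_sum_le_sum_abs _ _).trans (Finset.sum_le_sum fun j hj => ?_)
    rw [abs_mul, abs_of_nonneg hL']
    exact mul_le_mul_of_nonneg_left (hXY j hj) hL'
  have b3 : |∑ j ∈ Ico d K, (g j - h j)| ≤ G := by
    refine (Finset.abs_sum_le_sum_abs _ _).trans ((Finset.sum_le_sum hgh).trans ?_)
    rw [← Finset.sum_div, div_le_iff₀ hσ]
    have hf' : ∑ j ∈ Ico d K, f j ^ 2 ≤ (σ * G) ^ 2 :=
      (Finset.sum_le_sum_of_subset_of_nonneg (Finset.Ico_subset_Ico le_rfl (by omega))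
        fun _ _ _ => sq_nonneg _).trans hf
    have := cs (Ico d K) f a hσG zero_le_one hf' (by rw [one_pow]; exact ha)
    linarith
  have b4 := (hg K (Finset.mem_Icc.2 ⟨hdK, le_rfl⟩)).trans (fle K (Finset.mem_Icc.2 ⟨hdK, le_rfl⟩))
  have b5 := (hg d (Finset.mem_Icc.2 ⟨le_rfl, hdK⟩)).trans (fle d (Finset.mem_Icc.2 ⟨le_rfl, hdK⟩))
  have e2 : ∑ j ∈ Ico d K, 1 / L * (√(D j) + a j * √(V j)) =
      ∑ j ∈ Ico d K, 1 / L * √(D j) + ∑ j ∈ Ico d K, 1 / L * (a j * √(V j)) := by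
    rw [← Finset.sum_add_distrib]
    exact Finset.sum_congr rfl fun j _ => by ring
  rw [e2] at hs
  rw [abs_le] at b1 b2 b3 b4 b5 ⊢
  constructor <;> linarith [b1.1, b1.2, b2.1, b2.2, b3.1, b3.2, b4.1, b4.2, b5.1, b5.2]

/-- the increments of two paths -/
lemma sum_incr {R T : ℕ → ℝ} (hR : ∀ j ∈ Ico d K, R j ≤ R (j + 1))
    (hT : ∀ j ∈ Ico d K, T j ≤ T (j + 1)) (hR0 : 0 ≤ R d) (hRK : R K ≤ 1) (hT0 : 0 ≤ T d)
    (hTK : T K ≤ 1) (hdK : d ≤ K) :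
    ∑ j ∈ Ico d K, (√(T (j + 1) - T j) + (R (j + 1) - R j)) ^ 2 ≤ 2 ^ 2 := by
  have h1 : ∀ j ∈ Ico d K, (√(T (j + 1) - T j) + (R (j + 1) - R j)) ^ 2 ≤
      2 * (T (j + 1) - T j) + 2 * (R (j + 1) - R j) := by
    intro j hj
    have h2 : √(T (j + 1) - T j) ^ 2 = T (j + 1) - T j := Real.sq_sqrt (by linarith [hT j hj])
    have h3 : R (j + 1) - R j ≤ 1 := by
      have h5 := Finset.single_le_sum (f := fun j => R (j + 1) - R j)
        (fun i hi => by linarith [hR i hi]) hj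
      rw [Finset.sum_Ico_sub R hdK] at h5
      linarith
    have h4 : 0 ≤ R (j + 1) - R j := by linarith [hR j hj]
    nlinarith [sq_nonneg (√(T (j + 1) - T j) - (R (j + 1) - R j))]
  refine (Finset.sum_le_sum h1).trans ?_
  rw [Finset.sum_add_distrib, ← Finset.mul_sum, ← Finset.mul_sum, Finset.sum_Ico_sub T hdK,
    Finset.sum_Ico_sub R hdK]
  linarith

/-- the harmonic sum -/
lemma sum_harm (hd : 1 ≤ d) (hdK : d ≤ K) :
    ∑ j ∈ Ico d K, 1 / ((j : ℝ) + 1) ≤ √(Real.log (K + 1)) ^ 2 := by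
  have hK0 : (0 : ℝ) ≤ K := Nat.cast_nonneg K
  rw [Real.sq_sqrt (Real.log_nonneg (by linarith))]
  have hK1 : (1 : ℝ) ≤ K := by exact_mod_cast hd.trans hdK
  have key : ∑ j ∈ Ico d K, 1 / ((j : ℝ) + 1) ≤ Real.log K := by
    clear hK0 hK1
    induction K, hdK using Nat.le_induction with
    | base =>
      rw [Finset.Ico_self, Finset.sum_empty]
      exact Real.log_nonneg (by exact_mod_cast hd)
    | succ k hk ih =>
      rw [Finset.sum_Ico_succ_top hk]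
      have hk1 : (1 : ℝ) ≤ k := by exact_mod_cast hd.trans hk
      have hk0 : (0 : ℝ) < k := by linarith
      have h2 := Real.one_sub_inv_le_log_of_pos (show (0 : ℝ) < ((k : ℝ) + 1) / k by positivity)
      rw [Real.log_div (by positivity) hk0.ne'] at h2
      have h3 : 1 - (((k : ℝ) + 1) / k)⁻¹ = 1 / ((k : ℝ) + 1) := by
        field_simp
        ring
      rw [h3] at h2
      push_cast
      linarith
  exact key.trans (Real.log_le_log (by linarith) (by linarith))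

/-- **The error of one step.**  The levels are `d ≤ j ≤ K` with the weights `1/(K+1)`:
`V j = E (u_j - R_j)²`, `D j` the difference of the second moments, `f j` the `L²` deviation of the
field `j`, `a j` the `L²` norm of `w_j - w_(j+1)`, `P j` the pair average at level `j`,
`X j = E w_j (u_j - R_j)`, `Y j = E w_(j+1) (u_j - R_j)`, `g j = g_j(w_j)`, `h j = g_j(w_(j+1))`,
`R`, `T` the paths of the two systems. -/
theorem step_err {V D a f P X Y g h R T : ℕ → ℝ} {G σ : ℝ} (hd : 1 ≤ d) (hdK : d ≤ K)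
    (hσ : 0 < σ) (hG : 0 ≤ G)
    (hV : ∀ j ∈ Ico d K, 0 ≤ V j) (hD : ∀ j ∈ Ico d K, 0 ≤ D j)
    (ha : ∑ j ∈ Ico d K, a j ^ 2 ≤ 1)
    (hf : ∑ j ∈ Ico d (K + 2), f j ^ 2 ≤ (σ * G) ^ 2)
    (hR : ∀ j ∈ Ico d K, R j ≤ R (j + 1)) (hT : ∀ j ∈ Ico d K, T j ≤ T (j + 1))
    (hR0 : 0 ≤ R d) (hRK : R K ≤ 1) (hT0 : 0 ≤ T d) (hTK : T K ≤ 1)
    (h1 : ∀ j ∈ Ico d K, 1 / ((K : ℝ) + 1) * Y j = g (j + 1) - h j)
    (hXY : ∀ j ∈ Ico d K, |X j - Y j| ≤ a j * √(V j))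
    (hgh : ∀ j ∈ Ico d K, |g j - h j| ≤ f j * a j / σ)
    (hg : ∀ j ∈ Icc d K, |g j| ≤ f j / σ)
    (hP : ∀ j ∈ Ico d K, |P j - X j| ≤ √(D j))
    (h2 : ∀ j ∈ Ico d K, √(V j) ≤ √(T (j + 1) - T j) + (R (j + 1) - R j) +
      ((K : ℝ) + 1) * (f (j + 1) + f (j + 2)) / σ)
    (h3 : ∀ j ∈ Ico d K, ((j : ℝ) + 1) / ((K : ℝ) + 1) * D j ≤
      V j / ((K : ℝ) + 1) + (f j + f (j + 1)) * √(V j) / σ) :
    |∑ j ∈ Ico d K, 1 / ((K : ℝ) + 1) * P j| ≤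
      13 * (1 + √(Real.log (K + 1))) * (1 / ((K : ℝ) + 1) + G) := by
  have hL : (0 : ℝ) < (K : ℝ) + 1 := by positivity
  have hΛ : 0 ≤ √(Real.log (K + 1)) := Real.sqrt_nonneg _
  have h := total hdK hL hσ hG (by norm_num : (0 : ℝ) ≤ 2) hΛ hV hD ha
    (sum_incr hR hT hR0 hRK hT0 hTK hdK) hf (sum_harm hd hdK) h1 hXY hgh hg hP h2 h3
  refine h.trans ?_
  have h5 : 0 ≤ 1 / ((K : ℝ) + 1) := by positivity
  nlinarith [mul_nonneg hΛ hG, mul_nonneg hΛ h5]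

end Vale.Agent.P146.R3.H49.Sum
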