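import Mathlib
import Vale.Agent.P146.Bd5.B2
import Vale.Agent.P146.R3.H49.Sum

set_option linter.all false

/-!
# P146, R7: the levels of one system with the fields centred along an arbitrary path

For a system with the fields `s_j ∑_i z_{j,i} φ_i` and a path `R` put
`c_j := s_j (1 - ∑_{i ≥ j} p_i R_i)` and `g_j(ψ) := E (h_j - c_j) ψ / s_j`.
-/

open MeasureTheory ProbabilityTheory Filter Topology Finset

namespace Vale.Agent.P146.R3.H49.Lev

set_option linter.unusedSectionVars false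

open Vale.Agent.P157 Vale.Agent.P157.Lv Vale.Agent.P157.Lv.Sy Vale.Agent.P157.Lv.Fld
open Vale.Agent.P146.Ub.Ld

variable {ι X : Type} [Fintype ι] [DecidableEq ι] [Fintype X] [DecidableEq X] [Nonempty X] {N : ℕ}
  {S : Sy ι X} {D : ι → (ι → ℝ) → X → ℝ} {φ : X → Fin N → ℝ} {zc : ℕ → Fin N → ι} {s R : ℕ → ℝ}

/-- the centre of the field `j` for the path `R` -/
noncomputable def cc (S : Sy ι X) (s R : ℕ → ℝ) (j : ℕ) : ℝ :=
  s j * (1 - ∑ i ∈ Finset.Ico j (S.K + 1), S.p i * R i)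

/-- the centred field against an observable, divided by the strength -/
noncomputable def gg (S : Sy ι X) (φ : X → Fin N → ℝ) (zc : ℕ → Fin N → ι) (s R : ℕ → ℝ) (j : ℕ)
    (ψ : (ι → ℝ) → X → ℝ) : ℝ :=
  S.Ex (fun z x => (hz φ zc j z x - cc S s R j) * ψ z x) / s j

/-- the sum over the levels `≥ j` -/
noncomputable def bb (S : Sy ι X) (φ : X → Fin N → ℝ) (R : ℕ → ℝ) (j : ℕ)
    (ψ : (ι → ℝ) → X → ℝ) : ℝ :=
  ∑ i ∈ Finset.Ico j (S.K + 1), S.p i * S.Ex (fun z x => ψ z x * (uu S φ i z x - R i))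

/-- the deviation of the field `j` -/
noncomputable def ff (S : Sy ι X) (φ : X → Fin N → ℝ) (zc : ℕ → Fin N → ι) (s R : ℕ → ℝ)
    (j : ℕ) : ℝ :=
  if j ≤ S.K then √(S.Ex (fun z x => (hz φ zc j z x - cc S s R j) ^ 2)) else 0

/-- the variance of `u_l` around the path -/
noncomputable def vv (S : Sy ι X) (φ : X → Fin N → ℝ) (R : ℕ → ℝ) (l : ℕ) : ℝ :=
  S.Ex (fun z x => (uu S φ l z x - R l) ^ 2)

lemma nh_c (c : ℝ) : Nh (ι := ι) (X := X) (fun _ _ => c) := Nh.fst (EG.const c)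

lemma ff_nonneg (j : ℕ) : 0 ≤ ff S φ zc s R j := by
  unfold ff
  split_ifs
  · exact Real.sqrt_nonneg _
  · exact le_rfl

lemma Ex_sq_nonneg (hS : S.Reg) {f : (ι → ℝ) → X → ℝ} (hf : Nh f) :
    0 ≤ S.Ex (fun z x => f z x ^ 2) := by
  rw [← hS.Ex_const 0]
  exact hS.Ex_mono (nh_c 0) (Nh.pow hf 2) fun z x => sq_nonneg _

lemma vv_nonneg (F : Fld S D φ zc s) {l : ℕ} (hl : l ≤ S.K) : 0 ≤ vv S φ R l :=
  Ex_sq_nonneg F.hreg (Nh.sub (nh_uu F.hreg hl) (nh_c _))

/-- Cauchy-Schwarz -/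
lemma ex_cs (hS : S.Reg) {f g : (ι → ℝ) → X → ℝ} (hf : Nh f) (hg : Nh g) :
    |S.Ex (fun z x => f z x * g z x)| ≤
      √(S.Ex (fun z x => f z x ^ 2)) * √(S.Ex (fun z x => g z x ^ 2)) := by
  rw [← Real.sqrt_mul (Ex_sq_nonneg hS hf)]
  exact Real.abs_le_sqrt (hS.Ex_cs hf hg)

lemma gg_eq (F : Fld S D φ zc s) {j : ℕ} (hj : j ≤ S.K) (hsj : 0 < s j)
    {u : (ι → ℝ) → X → ℝ} {u' : Fin N → (ι → ℝ) → X → ℝ}
    (hd : ∀ i x, PD (zc j i) (fun z => u z x) (fun z => u' i z x)) (hu : Nh u)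
    (hu' : ∀ i, Nh (u' i)) :
    gg S φ zc s R j u = S.Ex (fun z x => 1 / N * ∑ i, φ x i * u' i z x) / s j -
      bb S φ R j u := by
  have hS := F.hreg
  have h := F.Ex_hz_mul hj hd hu hu'
  have nh := F.nh_hz j
  have e1 : S.Ex (fun z x => (hz φ zc j z x - cc S s R j) * u z x) =
      S.Ex (fun z x => hz φ zc j z x * u z x) - cc S s R j * S.Ex u := by
    have e2 : (fun z x => (hz φ zc j z x - cc S s R j) * u z x) =
        fun z x => hz φ zc j z x * u z x - cc S s R j * u z x := by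
      funext z x
      ring
    rw [e2, hS.Ex_sub (Nh.mul nh hu) (Nh.const_mul _ hu), Sy.Ex_const_mul]
  have e3 : bb S φ R j u = ∑ k ∈ Finset.Ico j (S.K + 1), S.p k *
      S.Ex (fun z x => u z x * uu S φ k z x) -
      (∑ k ∈ Finset.Ico j (S.K + 1), S.p k * R k) * S.Ex u := by
    unfold bb
    rw [Finset.sum_mul, ← Finset.sum_sub_distrib]
    refine Finset.sum_congr rfl fun k hk => ?_
    rw [Finset.mem_Ico] at hk
    have nk := nh_uu (φ := φ) hS (show k ≤ S.K by omega)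
    have e4 : (fun z x => u z x * (uu S φ k z x - R k)) =
        fun z x => u z x * uu S φ k z x - R k * u z x := by
      funext z x
      ring
    rw [e4, hS.Ex_sub (Nh.mul hu nk) (Nh.const_mul _ hu), Sy.Ex_const_mul]
    ring
  unfold gg
  rw [e1, h, e3, cc]
  field_simp
  ring

/-- the basic bound of `g_j` -/
lemma gg_le (F : Fld S D φ zc s) {j : ℕ} (hj : j ≤ S.K) {σ : ℝ} (hσ : 0 < σ) (hs : σ ≤ s j)
    {ψ : (ι → ℝ) → X → ℝ} (hψ : Nh ψ) :
    |gg S φ zc s R j ψ| ≤ ff S φ zc s R j * √(S.Ex (fun z x => ψ z x ^ 2)) / σ := by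
  have hS := F.hreg
  have h0 : 0 < s j := hσ.trans_le hs
  unfold gg ff
  rw [if_pos hj, abs_div, abs_of_pos h0]
  exact div_le_div₀ (by positivity) (ex_cs hS (Nh.sub (F.nh_hz j) (nh_c _)) hψ) hσ hs

lemma gg_sub (F : Fld S D φ zc s) (j : ℕ) {ψ χ : (ι → ℝ) → X → ℝ} (hψ : Nh ψ) (hχ : Nh χ) :
    gg S φ zc s R j (fun z x => ψ z x - χ z x) = gg S φ zc s R j ψ - gg S φ zc s R j χ := by
  have hS := F.hreg
  have nh := Nh.sub (F.nh_hz j) (nh_c (ι := ι) (X := X) (cc S s R j))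
  unfold gg
  rw [← sub_div, ← hS.Ex_sub (Nh.mul nh hψ) (Nh.mul nh hχ)]
  congr 2
  funext z x
  ring

lemma bb_succ {j : ℕ} (hj : j ≤ S.K) (ψ : (ι → ℝ) → X → ℝ) :
    bb S φ R j ψ = S.p j * S.Ex (fun z x => ψ z x * (uu S φ j z x - R j)) +
      bb S φ R (j + 1) ψ := by
  unfold bb
  rw [Finset.sum_eq_sum_Ico_succ_bot (by omega : j < S.K + 1)]

/-- (1) -/
theorem one (F : Fld S D φ zc s) (ε : X → ℝ) {j k : ℕ} (h0 : 0 < s j) (h1 : 0 < s (j + 1))
    (hjk : j < k) (hk : k ≤ S.K) :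
    S.p j * S.Ex (fun z x => gw S ε k z x * (uu S φ j z x - R j)) =
      gg S φ zc s R (j + 1) (gw S ε k) - gg S φ zc s R j (gw S ε k) := by
  have hS := F.hreg
  have nw := Vale.Agent.P146.Ub.Ld.nh_gw hS ε hk
  have ng : ∀ i, EG (S.T k (gwi S φ ε k i)) := fun i => hS.eg_T hk (nh_gwi hS ε hk i)
  have key : ∀ i, i ≤ k → 0 < s i → gg S φ zc s R i (gw S ε k) =
      S.Ex (fun z x => 1 / (N : ℝ) * ∑ i, φ x i * (S.T k (gwi S φ ε k i) z * ε x)) -
        bb S φ R i (gw S ε k) := by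
    intro i hik hi
    have hiK : i ≤ S.K := hik.trans hk
    rw [gg_eq F hiK hi (u := gw S ε k) (u' := fun b z x => s i * S.T k (gwi S φ ε k b) z * ε x)
      (fun b x => ((gw1_pd F ε hik hk b).mul (PD.const (ε x))).congr fun y => by
        rw [mul_zero, add_zero]) nw
      (fun b => Nh.mul (Nh.const_mul _ (Nh.fst (ng b))) (Nh.snd ε))]
    congr 1
    rw [div_eq_iff hi.ne', mul_comm _ (s i), ← Sy.Ex_const_mul]
    congr 1
    funext z x
    rw [Finset.mul_sum, Finset.mul_sum, Finset.mul_sum]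
    refine Finset.sum_congr rfl fun b _ => ?_
    ring
  rw [key j hjk.le h0, key (j + 1) hjk h1, bb_succ (j := j) (by omega)]
  ring

/-- the field `j` against `u_l`, `l < j` -/
theorem two_g (F : Fld S D φ zc s) {l j : ℕ} (hlj : l < j) (hj : j ≤ S.K) (h0 : 0 < s j) :
    gg S φ zc s R j (fun z x => uu S φ l z x - R l) =
      - bb S φ R j (fun z x => uu S φ l z x - R l) := by
  have hS := F.hreg
  have hl : l ≤ S.K := hlj.le.trans hj
  have hd : ∀ i x, PD (zc j i) (fun z => uu S φ l z x - R l) (fun _ => 0) := by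
    intro i x
    refine Dep.pd (lev := S.lev) (l := l) ?_ (by rw [F.lev j hj]; exact hlj)
    intro z w
    simp only [uu]
    congr 2
    refine Finset.sum_congr rfl fun a _ => ?_
    congr 1
    exact S.dep_T l (fun _ x => φ x a) z w
  rw [gg_eq F hj h0 (u := fun z x => uu S φ l z x - R l) (u' := fun _ _ _ => 0) hd
    (Nh.sub (nh_uu hS hl) (nh_c _)) (fun i => nh_c 0)]
  simp only [mul_zero, Finset.sum_const_zero, hS.Ex_const, zero_div, zero_sub]

/-- the field `l` against `u_l` -/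
theorem three_g (F : Fld S D φ zc s) {l : ℕ} (hl : l ≤ S.K) (h0 : 0 < s l) :
    gg S φ zc s R l (fun z x => uu S φ l z x - R l) =
      gQ S φ l - ∑ i ∈ Finset.Ico (l + 1) (S.K + 1), S.p i *
        (1 / (N : ℝ) ^ 2 * S.Ex (fun z _ => ∑ a, ∑ b,
          S.T l (fun _ x => φ x a * φ x b) z * S.T l (fun z _ => S.mg φ i a z * S.mg φ i b z) z)) -
      S.m (l + 1) * gW S φ l - bb S φ R l (fun z x => uu S φ l z x - R l) := by
  have hS := F.hreg
  have nh := F.nh_hz l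
  have nu := nh_uu (φ := φ) hS hl
  have h2 := F.ident_B hl
  have h3 := F.Ex_hz hl
  obtain ⟨Z, hZ⟩ : ∃ Z : ℝ, Z = ∑ i ∈ Finset.Ico (l + 1) (S.K + 1), S.p i *
        (1 / (N : ℝ) ^ 2 * S.Ex (fun z _ => ∑ a, ∑ b,
          S.T l (fun _ x => φ x a * φ x b) z * S.T l (fun z _ => S.mg φ i a z * S.mg φ i b z) z)) :=
    ⟨_, rfl⟩
  rw [← hZ] at h2 ⊢
  have eW : gW S φ l = S.Ex (fun z x => (1 / N * ∑ a, S.mg φ l a z * φ x a) ^ 2) := by
    unfold gW
    congr 1
    funext z x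
    rw [sq]
    rfl
  have eQ : gQ S φ l = S.pairEx l (fun x x' => Rov φ x x' ^ 2) := rfl
  rw [← eW, ← eQ] at h2
  have h2' : S.Ex (fun z x => hz φ zc l z x * uu S φ l z x) =
      s l * (gQ S φ l - Z - S.m (l + 1) * gW S φ l + S.Rl φ l -
        ∑ i ∈ Finset.Ico l (S.K + 1), S.p i *
          S.Ex (fun z x => uu S φ l z x * uu S φ i z x)) := h2
  have e1 : S.Ex (fun z x => (hz φ zc l z x - cc S s R l) * (uu S φ l z x - R l)) =
      S.Ex (fun z x => hz φ zc l z x * uu S φ l z x) - R l * S.Ex (hz φ zc l) -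
        cc S s R l * (S.Rl φ l - R l) := by
    have e2 : (fun z x => (hz φ zc l z x - cc S s R l) * (uu S φ l z x - R l)) =
        fun z x => (hz φ zc l z x * uu S φ l z x - R l * hz φ zc l z x) -
          cc S s R l * (uu S φ l z x - R l) := by
      funext z x
      ring
    rw [e2, hS.Ex_sub (Nh.sub (Nh.mul nh nu) (Nh.const_mul _ nh))
      (Nh.const_mul _ (Nh.sub nu (nh_c _))), hS.Ex_sub (Nh.mul nh nu) (Nh.const_mul _ nh),
      Sy.Ex_const_mul, Sy.Ex_const_mul, hS.Ex_sub nu (nh_c _), hS.Ex_const, F.Ex_uu hl]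
  have e3 : bb S φ R l (fun z x => uu S φ l z x - R l) =
      ∑ i ∈ Finset.Ico l (S.K + 1), S.p i * S.Ex (fun z x => uu S φ l z x * uu S φ i z x) -
      R l * ∑ i ∈ Finset.Ico l (S.K + 1), S.p i * S.Rl φ i -
      (S.Rl φ l - R l) * ∑ i ∈ Finset.Ico l (S.K + 1), S.p i * R i := by
    unfold bb
    rw [Finset.mul_sum, Finset.mul_sum, ← Finset.sum_sub_distrib, ← Finset.sum_sub_distrib]
    refine Finset.sum_congr rfl fun i hi => ?_
    rw [Finset.mem_Ico] at hi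
    have hiK : i ≤ S.K := by omega
    have ni := nh_uu (φ := φ) hS hiK
    have e4 : (fun z x => (uu S φ l z x - R l) * (uu S φ i z x - R i)) =
        fun z x => (uu S φ l z x * uu S φ i z x - R l * uu S φ i z x) -
          R i * (uu S φ l z x - R l) := by
      funext z x
      ring
    rw [e4, hS.Ex_sub (Nh.sub (Nh.mul nu ni) (Nh.const_mul _ ni))
      (Nh.const_mul _ (Nh.sub nu (nh_c _))), hS.Ex_sub (Nh.mul nu ni) (Nh.const_mul _ ni),
      Sy.Ex_const_mul, Sy.Ex_const_mul, hS.Ex_sub nu (nh_c _), hS.Ex_const, F.Ex_uu hl,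
      F.Ex_uu hiK]
    ring
  unfold gg
  rw [e1, h2', h3, e3, cc]
  field_simp
  ring

/-- the sum over the levels `≥ j` against `u_l`, `l < j` -/
theorem bb_le (F : Fld S D φ zc s) {l j : ℕ} (hlj : l < j) (hj : j ≤ S.K + 1) {σ : ℝ} (hσ : 0 < σ)
    (hs : j ≤ S.K → σ ≤ s j) :
    |bb S φ R j (fun z x => uu S φ l z x - R l)| ≤
      ff S φ zc s R j * √(vv S φ R l) / σ := by
  have hS := F.hreg
  rcases Nat.lt_or_ge j (S.K + 1) with h | h
  · have hjK : j ≤ S.K := by omega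
    have h1 := two_g (R := R) F hlj hjK (hσ.trans_le (hs hjK))
    have h2 := gg_le (R := R) F hjK hσ (hs hjK)
      (ψ := fun z x => uu S φ l z x - R l) (Nh.sub (nh_uu hS (by omega : l ≤ S.K)) (nh_c _))
    rw [h1, abs_neg] at h2
    exact h2
  · have e : bb S φ R j (fun z x => uu S φ l z x - R l) = 0 := by
      unfold bb
      rw [Finset.Ico_eq_empty (by omega), Finset.sum_empty]
    rw [e, abs_zero]
    exact div_nonneg (mul_nonneg (ff_nonneg _) (Real.sqrt_nonneg _)) hσ.le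

/-- the increments of `u` -/
theorem uu_diff (F : Fld S D φ zc s) {l : ℕ} (hl : l < S.K) :
    S.Ex (fun z x => (uu S φ l z x - uu S φ (l + 1) z x) ^ 2) ≤
      S.Rl φ (l + 1) - S.Rl φ l := by
  have hS := F.hreg
  have hN := F.N_pos
  have nu := nh_uu (φ := φ) hS hl.le
  have nu' := nh_uu (φ := φ) hS (show l + 1 ≤ S.K from hl)
  rw [← F.Rl_sub hl, ← Sy.Ex_const_mul]
  refine hS.Ex_mono (Nh.pow (Nh.sub nu nu') 2) (Nh.fst (EG.const_mul _ (EG.sum _ fun i _ =>
    ((eg_mg hS (show l + 1 ≤ S.K from hl) i).sub (eg_mg hS hl.le i)).pow 2))) fun z x => ?_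
  have e1 : uu S φ l z x - uu S φ (l + 1) z x =
      -(1 / N * ∑ a, (S.mg φ (l + 1) a z - S.mg φ l a z) * φ x a) := by
    simp_rw [uu, sub_mul]
    rw [Finset.sum_sub_distrib]
    ring
  rw [e1, neg_sq, mul_pow]
  have h1 := Finset.sum_mul_sq_le_sq_mul_sq Finset.univ
    (fun a => S.mg φ (l + 1) a z - S.mg φ l a z) (φ x)
  rw [F.norm] at h1
  calc (1 / (N : ℝ)) ^ 2 * (∑ a, (S.mg φ (l + 1) a z - S.mg φ l a z) * φ x a) ^ 2
      ≤ (1 / (N : ℝ)) ^ 2 * ((∑ a, (S.mg φ (l + 1) a z - S.mg φ l a z) ^ 2) * N) :=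
        mul_le_mul_of_nonneg_left h1 (by positivity)
    _ = 1 / N * ∑ i, (S.mg φ (l + 1) i z - S.mg φ l i z) ^ 2 := by
        field_simp

/-- (2) -/
theorem two (F : Fld S D φ zc s) {l : ℕ} (hl : l < S.K) {σ π : ℝ} (hσ : 0 < σ) (hπ : 0 < π)
    (hs : ∀ j, l < j → j ≤ S.K → σ ≤ s j) (hp : π ≤ S.p (l + 1)) (hR : R l ≤ R (l + 1)) :
    √(vv S φ R l) ≤ √(S.Rl φ (l + 1) - S.Rl φ l) + (R (l + 1) - R l) +
      (ff S φ zc s R (l + 1) + ff S φ zc s R (l + 2)) / (σ * π) := by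
  have hS := F.hreg
  have hlK := hl.le
  have nu := nh_uu (φ := φ) hS hlK
  have nu' := nh_uu (φ := φ) hS (show l + 1 ≤ S.K from hl)
  have nx : Nh (fun z x => uu S φ l z x - R l) := Nh.sub nu (nh_c _)
  have ny : Nh (fun z x => uu S φ (l + 1) z x - R (l + 1)) := Nh.sub nu' (nh_c _)
  have nd : Nh (fun z x => uu S φ l z x - uu S φ (l + 1) z x) := Nh.sub nu nu'
  obtain ⟨v, hv⟩ : ∃ v : ℝ, v = √(vv S φ R l) := ⟨_, rfl⟩
  have hv0 : 0 ≤ v := hv ▸ Real.sqrt_nonneg _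
  have hvv : v ^ 2 = vv S φ R l := by rw [hv, Real.sq_sqrt (vv_nonneg F hlK)]
  obtain ⟨f1, hf1⟩ : ∃ f : ℝ, f = ff S φ zc s R (l + 1) := ⟨_, rfl⟩
  obtain ⟨f2, hf2⟩ : ∃ f : ℝ, f = ff S φ zc s R (l + 2) := ⟨_, rfl⟩
  have hf1' : 0 ≤ f1 := hf1 ▸ ff_nonneg _
  have hf2' : 0 ≤ f2 := hf2 ▸ ff_nonneg _
  -- the covariance with the next level
  obtain ⟨Z, hZ⟩ : ∃ Z : ℝ, Z = S.Ex (fun z x => (uu S φ l z x - R l) *
    (uu S φ (l + 1) z x - R (l + 1))) := ⟨_, rfl⟩
  have hZ1 : Z ≤ (f1 + f2) / (σ * π) * v := by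
    have b1 := bb_le (R := R) F (j := l + 1) (Nat.lt_succ_self l) (by omega) hσ
      (fun h => hs (l + 1) (by omega) h)
    have b2 := bb_le (R := R) F (l := l) (j := l + 1 + 1) (by omega) (by omega) hσ
      (fun h => hs (l + 1 + 1) (by omega) h)
    rw [bb_succ (j := l + 1) hl, ← hZ, ← hv, ← hf1] at b1
    have e2 : l + 1 + 1 = l + 2 := rfl
    rw [← hv, e2, ← hf2] at b2
    rw [e2] at b1
    have b3 := (abs_le.1 b1).2
    have b4 := (abs_le.1 b2).1
    have b5 : S.p (l + 1) * Z ≤ (f1 + f2) * v / σ := by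
      have : (f1 + f2) * v / σ = f1 * v / σ + f2 * v / σ := by ring
      rw [this]
      linarith
    by_cases hz : Z ≤ 0
    · exact hz.trans (by positivity)
    · push Not at hz
      have b6 : Z * π ≤ (f1 + f2) * v / σ :=
        (by rw [mul_comm]; exact mul_le_mul_of_nonneg_right hp hz.le : Z * π ≤ S.p (l + 1) * Z).trans b5
      rw [← le_div_iff₀ hπ] at b6
      refine b6.trans (le_of_eq ?_)
      field_simp
  -- the rest
  have e1 : vv S φ R l = Z + S.Ex (fun z x => (uu S φ l z x - R l) *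
      (uu S φ l z x - uu S φ (l + 1) z x)) +
      (R (l + 1) - R l) * S.Ex (fun z x => uu S φ l z x - R l) := by
    rw [hZ, ← Sy.Ex_const_mul, ← hS.Ex_add (Nh.mul nx ny) (Nh.mul nx nd),
      ← hS.Ex_add (Nh.add (Nh.mul nx ny) (Nh.mul nx nd)) (Nh.const_mul _ nx)]
    unfold vv
    congr 1
    funext z x
    ring
  have h1 : S.Ex (fun z x => (uu S φ l z x - R l) * (uu S φ l z x - uu S φ (l + 1) z x)) ≤
      v * √(S.Rl φ (l + 1) - S.Rl φ l) := by
    refine (le_abs_self _).trans ((ex_cs hS nx nd).trans ?_)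
    rw [hv]
    exact mul_le_mul_of_nonneg_left (Real.sqrt_le_sqrt (uu_diff F hl)) (Real.sqrt_nonneg _)
  have h2 : S.Ex (fun z x => uu S φ l z x - R l) ≤ v := by
    have h3 := ex_cs hS nx (nh_c (1 : ℝ))
    simp only [mul_one, one_pow, hS.Ex_const, Real.sqrt_one] at h3
    rw [hv]
    exact (le_abs_self _).trans h3
  have h3 : v * v ≤ v * (√(S.Rl φ (l + 1) - S.Rl φ l) + (R (l + 1) - R l) +
      (f1 + f2) / (σ * π)) := by
    have h4 := mul_le_mul_of_nonneg_left h2 (sub_nonneg.2 hR)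
    rw [← sq, hvv, e1]
    linarith
  rw [← hv, ← hf1, ← hf2]
  rcases hv0.eq_or_lt with h | h
  · rw [← h]
    have : 0 ≤ R (l + 1) - R l := sub_nonneg.2 hR
    positivity
  · exact le_of_mul_le_mul_left h3 h

/-- (3) -/
theorem three (F : Fld S D φ zc s) {l : ℕ} (hl : l ≤ S.K) {σ : ℝ} (hσ : 0 < σ)
    (hs : ∀ j, l ≤ j → j ≤ S.K → σ ≤ s j) :
    S.m (l + 1) * (gQ S φ l - gW S φ l) ≤ S.p l * vv S φ R l +
      (ff S φ zc s R l + ff S φ zc s R (l + 1)) * √(vv S φ R l) / σ := by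
  have hS := F.hreg
  have nu := nh_uu (φ := φ) hS hl
  have nx : Nh (fun z x => uu S φ l z x - R l) := Nh.sub nu (nh_c _)
  set a : ℕ → ℝ := fun i => 1 / (N : ℝ) ^ 2 * S.Ex (fun z _ => ∑ a, ∑ b,
          S.T l (fun _ x => φ x a * φ x b) z * S.T l (fun z _ => S.mg φ i a z * S.mg φ i b z) z)
    with ha
  have hp0 : ∀ i ≤ S.K, 0 ≤ S.p i := fun i hi => by
    rw [Sy.p]
    linarith [hS.mono i hi]
  have hsum : ∑ i ∈ Finset.Ico (l + 1) (S.K + 1), S.p i = 1 - S.m (l + 1) := by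
    have h1 : ∀ n, l + 1 ≤ n → ∑ i ∈ Finset.Ico (l + 1) n, S.p i = S.m n - S.m (l + 1) := by
      intro n hn
      induction n, hn using Nat.le_induction with
      | base => simp
      | succ n hn ih =>
        rw [Finset.sum_Ico_succ_top hn, ih, Sy.p]
        ring
    rw [h1 _ (by omega), hS.mK]
  have ha1 : ∑ i ∈ Finset.Ico (l + 1) (S.K + 1), S.p i * a i ≤
      gQ S φ l * (1 - S.m (l + 1)) := by
    rw [← hsum, Finset.mul_sum]
    refine Finset.sum_le_sum fun i hi => ?_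
    rw [Finset.mem_Ico] at hi
    rw [mul_comm (gQ S φ l)]
    exact mul_le_mul_of_nonneg_left (F.three_le_two (by omega) (by omega)) (hp0 i (by omega))
  have h1 := three_g (R := R) F hl (hσ.trans_le (hs l le_rfl hl))
  have h2 := (abs_le.1 (gg_le (R := R) F hl hσ (hs l le_rfl hl)
    (ψ := fun z x => uu S φ l z x - R l) nx)).2
  have h3 := (abs_le.1 (bb_le (R := R) F (Nat.lt_succ_self l) (by omega) hσ
    (fun h => hs (l + 1) (by omega) h))).2
  have h4 := bb_succ (φ := φ) (R := R) hl (fun z x => uu S φ l z x - R l)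
  have e4 : S.Ex (fun z x => (uu S φ l z x - R l) * (uu S φ l z x - R l)) = vv S φ R l := by
    unfold vv
    congr 1
    funext z x
    ring
  rw [e4] at h4
  have e5 : S.Ex (fun z x => (uu S φ l z x - R l) ^ 2) = vv S φ R l := rfl
  rw [e5] at h2
  have e6 : (ff S φ zc s R l + ff S φ zc s R (l + 1)) * √(vv S φ R l) / σ =
      ff S φ zc s R l * √(vv S φ R l) / σ + ff S φ zc s R (l + 1) * √(vv S φ R l) / σ := by ring
  rw [e6]
  have h5 : gg S φ zc s R l (fun z x => uu S φ l z x - R l) =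
      gQ S φ l - ∑ i ∈ Finset.Ico (l + 1) (S.K + 1), S.p i * a i - S.m (l + 1) * gW S φ l -
        bb S φ R l (fun z x => uu S φ l z x - R l) := h1
  have e7 : gQ S φ l * (1 - S.m (l + 1)) = gQ S φ l - S.m (l + 1) * gQ S φ l := by ring
  have e8 : S.m (l + 1) * (gQ S φ l - gW S φ l) =
      S.m (l + 1) * gQ S φ l - S.m (l + 1) * gW S φ l := by ring
  rw [e7] at ha1
  rw [e8]
  linarith

/-- the pair average against the observable of the level `l` -/
theorem pair_X (F : Fld S D φ zc s) {ε : X → ℝ} (hε : ∀ x, |ε x| ≤ 1) {l : ℕ} (hl : l ≤ S.K) :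
    |S.pairEx l (fun x x' => ε x * ε x' * (Rov φ x x' - R l)) -
      S.Ex (fun z x => gw S ε l z x * (uu S φ l z x - R l))| ≤ √(gQ S φ l - gW S φ l) := by
  have hS := F.hreg
  have nu := nh_uu (φ := φ) hS hl
  have nw := Vale.Agent.P146.Ub.Ld.nh_gw hS ε hl
  have e1 : S.pairEx l (fun x x' => ε x * ε x' * (Rov φ x x' - R l)) =
      S.pairEx l (fun x x' => ε x * ε x' * Rov φ x x') - R l * S.Ex (gw S ε l) := by
    have e2 : (fun x x' => ε x * ε x' * (Rov φ x x' - R l)) =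
        fun x x' => ε x * ε x' * Rov φ x x' + (-R l) * (ε x * ε x') := by
      funext x x'
      ring
    rw [e2, hS.pairEx_add hl, hS.pairEx_const_mul, gw_pair F ε hl]
    ring
  have e3 : S.Ex (fun z x => gw S ε l z x * (uu S φ l z x - R l)) =
      S.Ex (fun z x => gw S ε l z x * uu S φ l z x) - R l * S.Ex (gw S ε l) := by
    have e4 : (fun z x => gw S ε l z x * (uu S φ l z x - R l)) =
        fun z x => gw S ε l z x * uu S φ l z x - R l * gw S ε l z x := by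
      funext z x
      ring
    rw [e4, hS.Ex_sub (Nh.mul nw nu) (Nh.const_mul _ nw), Sy.Ex_const_mul]
  rw [e1, e3, sub_sub_sub_cancel_right]
  exact gw_pairR F hε hl

/-- **The error of one step.** -/
theorem lev_err (F : Fld S D φ zc s) {d K : ℕ} (hSK : S.K = K)
    (hm : ∀ l, S.m l = (l : ℝ) / ((K : ℝ) + 1)) (hd1 : 1 ≤ d) (hd : d ≤ K)
    {σ G : ℝ} (hσ : 0 < σ) (hs : ∀ l, d ≤ l → l ≤ K → σ ≤ s l) (hG : 0 ≤ G)
    (hf : ∑ j ∈ Finset.Icc d K, S.Ex (fun z x => (hz φ zc j z x - cc S s R j) ^ 2) ≤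
      (σ * G) ^ 2)
    (hR : ∀ l, d ≤ l → l < K → R l ≤ R (l + 1)) (hR0 : 0 ≤ R d) (hRK : R K ≤ 1)
    {ε : X → ℝ} (hε : ∀ x, |ε x| ≤ 1) :
    |∑ j ∈ Finset.Ico d K, 1 / ((K : ℝ) + 1) *
      S.pairEx j (fun x x' => ε x * ε x' * (Rov φ x x' - R j))| ≤
      13 * (1 + √(Real.log (K + 1))) * (1 / ((K : ℝ) + 1) + G) := by
  have hS := F.hreg
  have hK1 : (0 : ℝ) < (K : ℝ) + 1 := by positivity
  have hp : ∀ l, S.p l = 1 / ((K : ℝ) + 1) := fun l => by
    rw [Sy.p, hm, hm]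
    push_cast
    ring
  have nw : ∀ l, l ≤ S.K → Nh (gw S ε l) := fun l hl =>
    Vale.Agent.P146.Ub.Ld.nh_gw hS ε hl
  have hK : ∀ {l : ℕ}, l ≤ K → l ≤ S.K := fun h => by omega
  refine Vale.Agent.P146.R3.H49.Sum.step_err (V := vv S φ R)
    (D := fun j => gQ S φ j - gW S φ j)
    (a := fun j => √(S.Ex (fun z x => (gw S ε j z x - gw S ε (j + 1) z x) ^ 2)))
    (f := ff S φ zc s R)
    (X := fun j => S.Ex (fun z x => gw S ε j z x * (uu S φ j z x - R j)))
    (Y := fun j => S.Ex (fun z x => gw S ε (j + 1) z x * (uu S φ j z x - R j)))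
    (g := fun j => gg S φ zc s R j (gw S ε j))
    (h := fun j => gg S φ zc s R j (gw S ε (j + 1)))
    (R := R) (T := S.Rl φ) hd1 hd hσ hG ?_ ?_ ?_ ?_ ?_ ?_ hR0 hRK ?_ ?_ ?_ ?_ ?_ ?_ ?_ ?_ ?_
  · intro j hj
    rw [Finset.mem_Ico] at hj
    exact vv_nonneg F (hK hj.2.le)
  · intro j hj
    rw [Finset.mem_Ico] at hj
    exact gQW_nonneg F (hK hj.2.le)
  · -- the increments of `w`
    have h1 : ∀ j ∈ Finset.Ico d K,
        √(S.Ex (fun z x => (gw S ε j z x - gw S ε (j + 1) z x) ^ 2)) ^ 2 ≤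
          S.Ex (gw S ε (j + 1)) - S.Ex (gw S ε j) := by
      intro j hj
      rw [Finset.mem_Ico] at hj
      rw [Real.sq_sqrt (Ex_sq_nonneg hS (Nh.sub (nw j (hK hj.2.le)) (nw (j + 1) (hK hj.2))))]
      exact gw_diff F hε (by omega)
    refine (Finset.sum_le_sum h1).trans ?_
    rw [Finset.sum_Ico_sub (fun j => S.Ex (gw S ε j)) hd]
    have h2 := (gw_nonneg F hε (l := K) (hK le_rfl)).2
    have h3 := (gw_nonneg F hε (l := d) (hK hd)).1
    linarith
  · -- the fields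
    refine le_trans (le_of_eq ?_) hf
    rw [Finset.sum_Ico_succ_top (by omega : d ≤ K + 1)]
    have e1 : ff S φ zc s R (K + 1) = 0 := by
      unfold ff
      rw [if_neg (by omega)]
    rw [e1]
    have e2 : Finset.Icc d K = Finset.Ico d (K + 1) := by
      ext j
      simp only [Finset.mem_Icc, Finset.mem_Ico]
      omega
    rw [e2, zero_pow two_ne_zero, add_zero]
    refine Finset.sum_congr rfl fun j hj => ?_
    rw [Finset.mem_Ico] at hj
    unfold ff
    rw [if_pos (by omega), Real.sq_sqrt (Ex_sq_nonneg hS (Nh.sub (F.nh_hz j) (nh_c _)))]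
  · intro j hj
    rw [Finset.mem_Ico] at hj
    exact hR j hj.1 hj.2
  · intro j hj
    rw [Finset.mem_Ico] at hj
    have h1 := uu_diff F (l := j) (by omega)
    have h2 := Ex_sq_nonneg hS (Nh.sub (nh_uu (φ := φ) hS (hK hj.2.le))
      (nh_uu (φ := φ) hS (show j + 1 ≤ S.K by omega)))
    linarith
  · exact F.Rl_nonneg (hK hd)
  · exact F.Rl_le_one (hK le_rfl)
  · intro j hj
    rw [Finset.mem_Ico] at hj
    rw [← hp j]
    exact one F ε (hσ.trans_le (hs j hj.1 hj.2.le)) (hσ.trans_le (hs (j + 1) (by omega) hj.2))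
      (Nat.lt_succ_self j) (hK hj.2)
  · intro j hj
    rw [Finset.mem_Ico] at hj
    have nu := nh_uu (φ := φ) hS (hK hj.2.le)
    have n0 := nw j (hK hj.2.le)
    have n1 := nw (j + 1) (hK hj.2)
    have nx : Nh (fun z x => uu S φ j z x - R j) := Nh.sub nu (nh_c _)
    have e1 : S.Ex (fun z x => gw S ε j z x * (uu S φ j z x - R j)) -
        S.Ex (fun z x => gw S ε (j + 1) z x * (uu S φ j z x - R j)) =
        S.Ex (fun z x => (gw S ε j z x - gw S ε (j + 1) z x) * (uu S φ j z x - R j)) := by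
      rw [← hS.Ex_sub (Nh.mul n0 nx) (Nh.mul n1 nx)]
      congr 1
      funext z x
      ring
    simp only [e1]
    exact ex_cs hS (Nh.sub n0 n1) nx
  · intro j hj
    rw [Finset.mem_Ico] at hj
    have n0 := nw j (hK hj.2.le)
    have n1 := nw (j + 1) (hK hj.2)
    have e1 := gg_sub (R := R) F j n0 n1
    simp only [← e1]
    exact gg_le F (hK hj.2.le) hσ (hs j hj.1 hj.2.le) (Nh.sub n0 n1)
  · intro j hj
    rw [Finset.mem_Icc] at hj
    have h1 := gg_le (R := R) F (hK hj.2) hσ (hs j hj.1 hj.2) (nw j (hK hj.2))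
    refine h1.trans ?_
    have h2 : √(S.Ex (fun z x => gw S ε j z x ^ 2)) ≤ 1 := by
      refine Real.sqrt_le_iff.2 ⟨zero_le_one, ?_⟩
      rw [one_pow, ← hS.Ex_const 1]
      refine hS.Ex_mono (Nh.pow (nw j (hK hj.2)) 2) (nh_c 1) fun z x => ?_
      rw [sq_le_one_iff_abs_le_one]
      exact gw1_abs hS hε (hK hj.2) z x
    refine div_le_div_of_nonneg_right ?_ hσ.le
    exact mul_le_of_le_one_right (ff_nonneg _) h2
  · intro j hj
    rw [Finset.mem_Ico] at hj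
    exact pair_X F hε (hK hj.2.le)
  · intro j hj
    rw [Finset.mem_Ico] at hj
    have h1 := two (R := R) F (l := j) (by omega) hσ (π := 1 / ((K : ℝ) + 1)) (by positivity)
      (fun i h1 h2 => hs i (by omega) (by omega)) (hp (j + 1)).ge (hR j hj.1 hj.2)
    refine h1.trans (le_of_eq ?_)
    congr 1
    field_simp
  · intro j hj
    rw [Finset.mem_Ico] at hj
    have h1 := three (R := R) F (l := j) (hK hj.2.le) hσ (fun i h1 h2 => hs i (by omega) (by omega))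
    rw [hm, hp] at h1
    push_cast at h1
    refine h1.trans (le_of_eq ?_)
    congr 1
    ring

end Vale.Agent.P146.R3.H49.Lev
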