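import Mathlib
import Vale.Agent.P146.R3.H49.Lev

set_option linter.all false

/-!
# P146, R7: the signed deviation of the overlaps from the path of the unperturbed system
-/

open MeasureTheory ProbabilityTheory Filter Topology Finset

namespace Vale.Agent.P146.R3.H49.Lev

set_option linter.unusedSectionVars false

open Vale.Agent.P157 Vale.Agent.P157.Lv Vale.Agent.P157.Lv.Sy Vale.Agent.P157.Lv.Fld
open Vale.Agent.P157.Par (Path Exponents incr spinPart)
open Vale.Agent.P146 (Pair freeEnergy disorder)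
open Vale.Agent.P146.Sk (PSK)
open Vale.Agent.P146.Ub Vale.Agent.P146.Ub.Ld

section gen

variable {ι X : Type} [Fintype ι] [DecidableEq ι] [Fintype X] [DecidableEq X] [Nonempty X] {N : ℕ}
  {S S' : Sy ι X} {D D' : ι → (ι → ℝ) → X → ℝ} {φ : X → Fin N → ℝ} {zc : ℕ → Fin N → ι}
  {s : ℕ → ℝ}

/-- the centre for the path of `S'` is the mean in `S'` -/
theorem cc_eq (F' : Fld S' D' φ zc s) (hK : S'.K = S.K) (hm : S'.m = S.m) {j : ℕ}
    (hj : j ≤ S.K) : cc S s (S'.Rl φ) j = S'.Ex (hz φ zc j) := by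
  rw [F'.Ex_hz (l := j) (by omega), hK]
  unfold cc
  congr 2
  refine Finset.sum_congr rfl fun i _ => ?_
  rw [Sy.p, Sy.p, hm]

/-- the path of a system increases -/
theorem Rl_mono (F' : Fld S' D' φ zc s) {l : ℕ} (hl : l < S'.K) :
    S'.Rl φ l ≤ S'.Rl φ (l + 1) := by
  have h1 := uu_diff F' hl
  have h2 := Ex_sq_nonneg F'.hreg (Nh.sub (nh_uu (φ := φ) F'.hreg hl.le)
    (nh_uu (φ := φ) F'.hreg (show l + 1 ≤ S'.K by omega)))
  linarith

/-- **The error of one step**, two systems with the same fields. -/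
theorem lev_err2 (F : Fld S D φ zc s) (F' : Fld S' D' φ zc s) (hK : S'.K = S.K)
    (hm' : S'.m = S.m) {d K : ℕ} (hSK : S.K = K)
    (hm : ∀ l, S.m l = (l : ℝ) / ((K : ℝ) + 1)) (hd1 : 1 ≤ d) (hd : d ≤ K)
    {σ : ℝ} (hσ : 0 < σ) (hs : ∀ l, d ≤ l → l ≤ K → σ ≤ s l)
    {ε : X → ℝ} (hε : ∀ x, |ε x| ≤ 1) :
    |∑ j ∈ Finset.Ico d K, 1 / ((K : ℝ) + 1) *
      S.pairEx j (fun x x' => ε x * ε x' * (Rov φ x x' - S'.Rl φ j))| ≤
      13 * (1 + √(Real.log (K + 1))) * (1 / ((K : ℝ) + 1) +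
        √(∑ j ∈ Finset.Ico d (K + 1),
          S.Ex (fun z x => (hz φ zc j z x - S'.Ex (hz φ zc j)) ^ 2)) / σ) := by
  have hS := F.hreg
  have hs0 : 0 ≤ ∑ j ∈ Finset.Ico d (K + 1),
      S.Ex (fun z x => (hz φ zc j z x - S'.Ex (hz φ zc j)) ^ 2) :=
    Finset.sum_nonneg fun j _ => Ex_sq_nonneg hS (Nh.sub (F.nh_hz j) (nh_c _))
  refine lev_err (R := S'.Rl φ) F hSK hm hd1 hd hσ hs (by positivity) ?_ ?_ ?_ ?_ hε
  · rw [mul_div_cancel₀ _ hσ.ne', Real.sq_sqrt hs0]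
    have e2 : Finset.Icc d K = Finset.Ico d (K + 1) := by
      ext j
      simp only [Finset.mem_Icc, Finset.mem_Ico]
      omega
    rw [e2]
    refine le_of_eq (Finset.sum_congr rfl fun j hj => ?_)
    rw [Finset.mem_Ico] at hj
    rw [cc_eq F' hK hm' (by omega)]
  · intro l _ h2
    exact Rl_mono F' (by omega)
  · exact F'.Rl_nonneg (by omega)
  · exact F'.Rl_le_one (by omega)

end gen

/-! ### the SK systems -/

variable {n K N d : ℕ} {m s R : ℕ → ℝ} {β θ : ℝ}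

/-- (A-v1) the signed deviation of the overlaps -/
theorem gdev2 (hd1 : 1 ≤ d) (hd : d ≤ K) (hN : N ≤ n) (h0 : 0 < N) {c : ℝ}
    {a : (Fin n → Bool) → RI n K → ℝ} {D : RI n K → (RI n K → ℝ) → (Fin n → Bool) → ℝ}
    (F : Fld (ls (rlv d) K (me K) c a) D (ph hN) (zc hN) s) {σ : ℝ} (hσ : 0 < σ)
    (hs : ∀ l, d ≤ l → l ≤ K → σ ≤ s l)
    {ε : (Fin n → Bool) → ℝ} (hε : ∀ x, |ε x| ≤ 1) :
    |∑ l ∈ Finset.Ico d (K + 1), (me K (l + 1) - me K l) *
      (ls (rlv d) K (me K) c a).pairEx l (fun x x' => ε x * ε x' *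
        (Rov (ph hN) x x' - stR (SN n K d (me K) β N s) (ph hN) l))| ≤
      √(1 + Real.log ((K : ℝ) + 1)) * (21 / ((K : ℝ) + 1) +
        19 * √(∑ j ∈ Finset.Ico d (K + 1), (ls (rlv d) K (me K) c a).Ex (fun z x =>
          (hz (ph hN) (zc hN) j z x - (SN n K d (me K) β N s).Ex (hz (ph hN) (zc hN) j)) ^ 2)) /
            σ) := by
  set S := ls (rlv d) K (me K) c a with hSdef
  have hm := me_exp K
  have hS := F.hreg
  have hSK : S.K = K := rfl
  have hs0 : ∀ l ≤ K, 0 ≤ s l := fun l hl => F.pos l hl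
  have F0 := SN_fld (β := β) hd hN h0 hm hs0
  have hL0 : (0 : ℝ) < (K : ℝ) + 1 := by positivity
  set π : ℝ := 1 / ((K : ℝ) + 1) with hπ
  have hπ0 : 0 < π := by positivity
  have hmp : ∀ l, me K (l + 1) - me K l = π := fun l => by
    rw [rs_me_p, hπ]; push_cast; rfl
  -- the level `K`
  have hK : |(me K (K + 1) - me K K) *
      S.pairEx K (fun x x' => ε x * ε x' *
        (Rov (ph hN) x x' - stR (SN n K d (me K) β N s) (ph hN) K))| ≤ 2 / ((K : ℝ) + 1) := by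
    rw [hmp, abs_mul, abs_of_pos hπ0]
    have b1 : |S.pairEx K (fun x x' => ε x * ε x' *
        (Rov (ph hN) x x' - stR (SN n K d (me K) β N s) (ph hN) K))| ≤ 2 := by
      have b2 : ∀ x x', |ε x * ε x' *
          (Rov (ph hN) x x' - stR (SN n K d (me K) β N s) (ph hN) K)| ≤ 2 := by
        intro x x'
        have c5 : stR (SN n K d (me K) β N s) (ph hN) K = 1 := stR_last _ _
        rw [c5, abs_mul, abs_mul]
        have b3 : |ε x| * |ε x'| ≤ 1 := mul_le_one₀ (hε x) (abs_nonneg _) (hε x')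
        have b4 : |Rov (ph hN) x x' - 1| ≤ 2 := by
          have b5 := abs_le.1 (F.abs_Rov_le x x')
          rw [abs_le]
          constructor <;> linarith
        have b6 : 0 ≤ |ε x| * |ε x'| := by positivity
        nlinarith [abs_nonneg (Rov (ph hN) x x' - 1)]
      have b8 := hS.pairEx_const (l := K) (show K ≤ S.K from le_rfl) 2
      have b9 := hS.pairEx_const (l := K) (show K ≤ S.K from le_rfl) (-2)
      rw [abs_le]
      constructor
      · rw [← b9]
        exact hS.pairEx_mono (show K ≤ S.K from le_rfl) fun x x' => (abs_le.1 (b2 x x')).1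
      · rw [← b8]
        exact hS.pairEx_mono (show K ≤ S.K from le_rfl) fun x x' => (abs_le.1 (b2 x x')).2
    have b7 := mul_le_mul_of_nonneg_left b1 hπ0.le
    refine b7.trans (le_of_eq ?_)
    rw [hπ]; ring
  rw [Finset.sum_Ico_succ_top hd]
  have hlow := lev_err2 F F0 rfl rfl hSK (fun l => by
    show me K l = _
    unfold me
    push_cast
    rfl) hd1 hd hσ hs hε
  have hcongr : ∑ l ∈ Finset.Ico d K, (me K (l + 1) - me K l) *
      S.pairEx l (fun x x' => ε x * ε x' *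
        (Rov (ph hN) x x' - stR (SN n K d (me K) β N s) (ph hN) l)) =
      ∑ j ∈ Finset.Ico d K, 1 / ((K : ℝ) + 1) *
        S.pairEx j (fun x x' => ε x * ε x' *
          (Rov (ph hN) x x' - (SN n K d (me K) β N s).Rl (ph hN) j)) := by
    refine Finset.sum_congr rfl fun l hl => ?_
    rw [Finset.mem_Ico] at hl
    have c4 : stR (SN n K d (me K) β N s) (ph hN) l =
        (SN n K d (me K) β N s).Rl (ph hN) l := by
      unfold stR
      rw [if_pos]
      exact hl.2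
    rw [hmp, c4]
  rw [hcongr]
  refine (abs_add_le _ _).trans ((add_le_add hlow hK).trans ?_)
  obtain ⟨G, hG⟩ : ∃ G : ℝ, G = √(∑ j ∈ Finset.Ico d (K + 1), S.Ex (fun z x =>
    (hz (ph hN) (zc hN) j z x - (SN n K d (me K) β N s).Ex (hz (ph hN) (zc hN) j)) ^ 2)) / σ :=
    ⟨_, rfl⟩
  have hG0 : 0 ≤ G := by rw [hG]; positivity
  obtain ⟨L, hL⟩ : ∃ L : ℝ, L = √(1 + Real.log ((K : ℝ) + 1)) := ⟨_, rfl⟩
  have hlog : 0 ≤ Real.log ((K : ℝ) + 1) := Real.log_nonneg (by linarith [(Nat.cast_nonneg K : (0 : ℝ) ≤ K)])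
  have hL1 : 1 ≤ L := by
    rw [hL]
    exact Real.one_le_sqrt.2 (by linarith)
  have hL2 : 1 + √(Real.log ((K : ℝ) + 1)) ≤ 142 / 100 * L := by
    have h1 : (1 + √(Real.log ((K : ℝ) + 1))) ^ 2 ≤ (142 / 100 * L) ^ 2 := by
      rw [mul_pow, hL, Real.sq_sqrt (by positivity)]
      nlinarith [Real.sq_sqrt hlog, sq_nonneg (√(Real.log ((K : ℝ) + 1)) - 1)]
    have h2 : 0 ≤ 142 / 100 * L := by positivity
    exact (pow_le_pow_iff_left₀ (by positivity) h2 two_ne_zero).1 h1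
  rw [mul_div_assoc 19, ← hG, ← hL]
  have hπ' : 2 / ((K : ℝ) + 1) = 2 * π := by rw [hπ]; ring
  have hπ'' : 21 / ((K : ℝ) + 1) = 21 * π := by rw [hπ]; ring
  rw [hπ', hπ'']
  have h3 : 13 * (1 + √(Real.log ((K : ℝ) + 1))) * (π + G) ≤ 13 * (142 / 100 * L) * (π + G) :=
    mul_le_mul_of_nonneg_right (by linarith) (by positivity)
  nlinarith [mul_nonneg (show 0 ≤ L - 1 by linarith) hπ0.le, mul_nonneg (by linarith : 0 ≤ L) hG0,
    mul_nonneg (by linarith : 0 ≤ L) hπ0.le]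

end Vale.Agent.P146.R3.H49.Lev
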