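import Mathlib
import Vale.Agent.P146.R3.H49.Gdev

set_option linter.all false

/-!
# P146, R7: the step, from the signed deviation of the overlaps
-/

open MeasureTheory ProbabilityTheory Filter Topology

namespace Vale.Agent.P146.R3.H49.Stp

set_option linter.unusedSectionVars false

open Vale.Agent.P157 Vale.Agent.P157.Lv Vale.Agent.P157.Lv.Sy Vale.Agent.P157.Lv.Fld
open Vale.Agent.P157.Par (Path Exponents incr spinPart)
open Vale.Agent.P146 (Pair)
open Vale.Agent.P146.Sk (PSK)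
open Vale.Agent.P146.Ub Vale.Agent.P146.Ub.Ld

variable {n K N d : ℕ} {m s R : ℕ → ℝ} {β θ : ℝ}

/-- **The step**, from the signed deviation of the overlaps. -/
theorem gstep_of (hd1 : 1 ≤ d) (hd : d ≤ K) (hN : N + 1 ≤ n) (h0 : 0 < N) (hβ : 0 ≤ β)
    {σ : ℝ} (hσ : 0 < σ) (hs : ∀ l, d ≤ l → l ≤ K → σ ≤ s l) (hs0 : ∀ l, l < d → s l = 0)
    {W : ℝ} (hdev : ∀ θ, |∑ l ∈ Finset.Ico d (K + 1), (me K (l + 1) - me K l) *
      (ST n K d (me K) β N s
        (ct d (stR (SN n K d (me K) β N s) (ph (Nat.le_of_succ_le hN)))) θ).pairEx l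
          (fun x x' => Ub.sp N x * Ub.sp N x' * (Rov (ph (Nat.le_of_succ_le hN)) x x' -
            stR (SN n K d (me K) β N s) (ph (Nat.le_of_succ_le hN)) l))| ≤ W) :
    PSK β K (me K) (ct d (stR (SN n K d (me K) β N s) (ph (Nat.le_of_succ_le hN)))) ≤
      AN n K d (me K) β (N + 1) s - AN n K d (me K) β N s + β ^ 2 / (N + 1 : ℕ) +
        β ^ 2 * (W / 2 + 1 / 4 * (1 / ((K : ℝ) + 1))) := by
  have hsp : ∀ l ≤ K, 0 ≤ s l := fun l hl => by
    rcases lt_or_ge l d with h | h
    · rw [hs0 l h]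
    · exact hσ.le.trans (hs l h hl)
  have hN' : N ≤ n := Nat.le_of_succ_le hN
  have hNn : N < n := hN
  have hm := me_exp K
  have hb2 : 0 ≤ β ^ 2 := sq_nonneg β
  have hN1 : (0 : ℝ) < ((N + 1 : ℕ) : ℝ) := by positivity
  have hK1 : (0 : ℝ) < (K : ℝ) + 1 := by positivity
  have F0 := SN_fld (β := β) hd hN' h0 hm hsp
  obtain ⟨R₀, hRdef⟩ : ∃ R, R = stR (SN n K d (me K) β N s) (ph hN') := ⟨_, rfl⟩
  obtain ⟨R, hRc⟩ : ∃ R, R = ct d R₀ := ⟨_, rfl⟩
  have hR₀ : Path K R₀ := by rw [hRdef]; exact st_path F0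
  have hRK₀ : R₀ K = 1 := by rw [hRdef]; exact stR_last (SN n K d (me K) β N s) (ph hN')
  have hR : Path K R := by rw [hRc]; exact ct_path hR₀
  have hRK : R K = 1 := by rw [hRc, ct_ge hd, hRK₀]
  have hRlt : ∀ l, l < d → R l = 0 := fun l hl => by rw [hRc, ct_lt hl]
  have hRge : ∀ l, d ≤ l → R l = R₀ l := fun l hl => by rw [hRc, ct_ge hl]
  have hR1 : R K ≤ 1 := hRK.le
  have hRm : ∀ l ≤ K, 0 ≤ R l ∧ R l ≤ 1 := by
    have mono : ∀ i j, i ≤ j → j ≤ K → R i ≤ R j := by
      intro i j hij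
      induction j, hij using Nat.le_induction with
      | base => intro _; exact le_rfl
      | succ j _ ih => intro hj; exact (ih (by omega)).trans (hR.2 j (by omega))
    intro l hl
    exact ⟨hR.1.trans (mono 0 l (Nat.zero_le _) hl), (mono l K hl le_rfl).trans hR1⟩
  have hspN : ∀ x : Fin n → Bool, |Ub.sp N x| ≤ 1 := by
    intro x
    have h1 := Ub.sp_sq hNn x
    rw [← sq_abs] at h1
    exact ((pow_eq_one_iff_of_nonneg (abs_nonneg _) two_ne_zero).1 h1).le
  rw [← hRdef, ← hRc] at hdev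
  rw [← hRdef, ← hRc]
  obtain ⟨γ, hγ⟩ : ∃ γ, γ = β / √((N + 1 : ℕ) : ℝ) := ⟨_, rfl⟩
  have hγ2 : γ ^ 2 = β ^ 2 / ((N + 1 : ℕ) : ℝ) := by
    rw [hγ, div_pow, Real.sq_sqrt hN1.le]
  have hγN : β ^ 2 - γ ^ 2 * N = β ^ 2 / ((N + 1 : ℕ) : ℝ) := by
    rw [hγ2]
    field_simp
    push_cast
    ring
  have hsum := rs_sum_p hm
  -- (1)
  have h1 := AN_succ_ge hd hN hm β s
  -- (2)
  have h2 := ls_interp (X := Fin n → Bool) (a := sc (n := n) (K := K) β N s) (α := tre N β R)
    (β := cav N γ) hm (rlv_le hd) (lc n) (B := 2 * (β ^ 2 / ((N + 1 : ℕ) : ℝ)) + β ^ 2 * W)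
    (dj_tre_cav β γ) (dj_tre_sc β) (dj_cav_sc γ) (by
      intro θ _ _
      have eS : ls (rlv d) K (me K) (lc n) (ith (sc (n := n) (K := K) β N s) (tre N β R) (cav N γ) θ) =
          ST n K d (me K) β N s R θ := by
        rw [hγ]; rfl
      rw [eS]
      have hReg : (ST n K d (me K) β N s R θ).Reg := rs_reg hd hm _ _
      have e1 : (fun (_ : RI n K → ℝ) (x : Fin n → Bool) =>
          ∑ e, (tre (K := K) N β R x e ^ 2 - cav (K := K) N γ x e ^ 2)) =
          fun _ _ => β ^ 2 / ((N + 1 : ℕ) : ℝ) := by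
        funext _ x
        rw [Finset.sum_sub_distrib, sum_tre hNn β hR, sum_cav hNn, hRK, mul_one, hγN]
      rw [e1, hReg.Ex_const]
      have e2 : ∀ l ∈ Finset.range (K + 1),
          -(β ^ 2 * (if d ≤ l then (me K (l + 1) - me K l) *
            (ST n K d (me K) β N s R θ).pairEx l (fun x x' => Ub.sp N x * Ub.sp N x' *
              (Rov (ph hN') x x' - R₀ l)) else 0) +
            β ^ 2 / ((N + 1 : ℕ) : ℝ) * (me K (l + 1) - me K l)) ≤ (me K (l + 1) - me K l) *
          (ST n K d (me K) β N s R θ).pairEx l (fun x x' =>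
            cv (rlv d) l (tre (K := K) N β R) (tre N β R) x x' -
              cv (rlv d) l (cav (K := K) N γ) (cav N γ) x x') := by
        intro l hl
        have hl' : l ≤ K := by have := Finset.mem_range.1 hl; omega
        have hl'' : l ≤ (ST n K d (me K) β N s R θ).K := hl'
        have hp := rs_p_nonneg hm hl
        have e6 : 0 ≤ β ^ 2 / ((N + 1 : ℕ) : ℝ) := div_nonneg hb2 hN1.le
        rcases lt_or_ge l d with hld | hld
        · have e3 : (fun x x' => cv (rlv d) l (tre (n := n) (K := K) N β R) (tre N β R) x x' -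
              cv (rlv d) l (cav (n := n) (K := K) N γ) (cav N γ) x x') = fun _ _ => 0 := by
            funext x x'
            rw [cv_tre' hNn hl' β hR, cv_cav_lt hld, hRlt l hld, mul_zero, sub_zero]
          rw [e3, hReg.pairEx_const hl'', if_neg (not_le.2 hld)]
          have e7 := mul_nonneg e6 hp
          linarith
        rw [if_pos hld, ← hRge l hld]
        obtain ⟨J, hJ⟩ : ∃ J, J = (ST n K d (me K) β N s R θ).pairEx l
          (fun x x' => Ub.sp N x * Ub.sp N x' * (Rov (ph hN') x x' - R l)) := ⟨_, rfl⟩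
        obtain ⟨J', hJ'⟩ : ∃ J', J' = (ST n K d (me K) β N s R θ).pairEx l
          (fun x x' => Ub.sp N x * Ub.sp N x' * Rov (ph hN') x x') := ⟨_, rfl⟩
        have e3 : (ST n K d (me K) β N s R θ).pairEx l (fun x x' =>
            cv (rlv d) l (tre (K := K) N β R) (tre N β R) x x' -
              cv (rlv d) l (cav (K := K) N γ) (cav N γ) x x') =
            (-β ^ 2) * J + β ^ 2 / ((N + 1 : ℕ) : ℝ) * J' := by
          have e4 : (fun x x' => cv (rlv d) l (tre (n := n) (K := K) N β R) (tre N β R) x x' -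
              cv (rlv d) l (cav (n := n) (K := K) N γ) (cav N γ) x x') =
              fun x x' => (-β ^ 2) * (Ub.sp N x * Ub.sp N x' * (Rov (ph hN') x x' - R l)) +
                β ^ 2 / ((N + 1 : ℕ) : ℝ) * (Ub.sp N x * Ub.sp N x' * Rov (ph hN') x x') := by
            funext x x'
            rw [cv_tre' hNn hl' β hR, cv_cav_ge hNn hld, ← hγN]
            ring
          rw [e4, hReg.pairEx_add hl''
            (fun x x' => (-β ^ 2) * (Ub.sp N x * Ub.sp N x' * (Rov (ph hN') x x' - R l)))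
            (fun x x' => β ^ 2 / ((N + 1 : ℕ) : ℝ) * (Ub.sp N x * Ub.sp N x' * Rov (ph hN') x x')),
            hReg.pairEx_const_mul, hReg.pairEx_const_mul, hJ, hJ']
        have hJ1 : -1 ≤ J' := by
          rw [hJ', ← hReg.pairEx_const hl'' (-1)]
          refine hReg.pairEx_mono hl'' fun x x' => ?_
          have a1 := hspN x
          have a2 := hspN x'
          have a3 := rs_abs_Rov hN' h0 x x'
          have a4 : |Ub.sp N x * Ub.sp N x' * Rov (ph hN') x x'| ≤ 1 := by
            rw [abs_mul, abs_mul]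
            exact mul_le_one₀ (mul_le_one₀ a1 (abs_nonneg _) a2) (abs_nonneg _) a3
          exact (abs_le.1 a4).1
        rw [e3, ← hJ]
        have e9 : -(β ^ 2 * J) + β ^ 2 / ((N + 1 : ℕ) : ℝ) * (-1) ≤
            (-β ^ 2) * J + β ^ 2 / ((N + 1 : ℕ) : ℝ) * J' := by
          have f2 := mul_le_mul_of_nonneg_left hJ1 e6
          linarith
        have e10 := mul_le_mul_of_nonneg_left e9 hp
        linarith
      have e7 := Finset.sum_le_sum e2
      have e8 : ∑ l ∈ Finset.range (K + 1),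
          -(β ^ 2 * (if d ≤ l then (me K (l + 1) - me K l) *
            (ST n K d (me K) β N s R θ).pairEx l (fun x x' => Ub.sp N x * Ub.sp N x' *
              (Rov (ph hN') x x' - R₀ l)) else 0) +
            β ^ 2 / ((N + 1 : ℕ) : ℝ) * (me K (l + 1) - me K l)) =
          -(β ^ 2 * ∑ l ∈ Finset.Ico d (K + 1), (me K (l + 1) - me K l) *
            (ST n K d (me K) β N s R θ).pairEx l (fun x x' => Ub.sp N x * Ub.sp N x' *
              (Rov (ph hN') x x' - R₀ l)) +
            β ^ 2 / ((N + 1 : ℕ) : ℝ) * ∑ l ∈ Finset.range (K + 1), (me K (l + 1) - me K l)) := by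
        have f1 : (Finset.range (K + 1)).filter (fun l => d ≤ l) = Finset.Ico d (K + 1) := by
          ext l
          simp only [Finset.mem_filter, Finset.mem_range, Finset.mem_Ico]
          omega
        rw [Finset.sum_neg_distrib, Finset.sum_add_distrib, ← Finset.mul_sum, ← Finset.mul_sum,
          ← f1, Finset.sum_filter]
      rw [e8, hsum, mul_one] at e7
      have e9 := mul_le_mul_of_nonneg_left ((le_abs_self _).trans (hdev θ)) hb2
      linarith)
  -- (3)
  have h3 := fe_tre (R := R) hd hNn hm hβ hR s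
  -- (4)
  have h4 := SC_ge (β := β) hd hN' h0 hm s
  have h5 : ∑ l ∈ Finset.range (K + 1), (me K (l + 1) - me K l) * R l ^ 2 - 1 / ((K : ℝ) + 1) ≤
      ∑ l ∈ Finset.range (K + 1), (me K (l + 1) - me K l) *
        (if d ≤ l then (SN n K d (me K) β N s).pairEx l (fun x x' => Rov (ph hN') x x' ^ 2)
          else 0) := by
    have hReg : (SN n K d (me K) β N s).Reg := rs_reg hd hm _ _
    have a1 : ∀ l ∈ Finset.range (K + 1), (me K (l + 1) - me K l) * R l ^ 2 -
        (if l = K then 1 / ((K : ℝ) + 1) else 0) ≤ (me K (l + 1) - me K l) *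
        (if d ≤ l then (SN n K d (me K) β N s).pairEx l (fun x x' => Rov (ph hN') x x' ^ 2)
          else 0) := by
      intro l hl
      have hl' : l ≤ K := by have := Finset.mem_range.1 hl; omega
      have hl'' : l ≤ (SN n K d (me K) β N s).K := hl'
      have hp := rs_p_nonneg hm hl
      have hnn : 0 ≤ (if l = K then 1 / ((K : ℝ) + 1) else 0) := by
        split_ifs
        · positivity
        · exact le_rfl
      rcases lt_or_ge l d with hld | hld
      · rw [if_neg (not_le.2 hld), hRlt l hld]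
        linarith
      rw [if_pos hld]
      rcases Nat.lt_or_eq_of_le hl' with hlK | hlK
      · have a2 : R l = (SN n K d (me K) β N s).Rl (ph hN') l := by
          rw [hRge l hld, hRdef]
          unfold stR
          rw [if_pos]
          exact hlK
        have a3 := gs_jensen (β := β) hd hN' h0 hm hsp hl'
        rw [← a2] at a3
        have a4 := mul_le_mul_of_nonneg_left a3 hp
        linarith
      · have a2 : 0 ≤ (SN n K d (me K) β N s).pairEx l (fun x x' => Rov (ph hN') x x' ^ 2) :=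
          hReg.pairEx_nonneg hl'' fun x x' => sq_nonneg _
        have a3 := mul_nonneg hp a2
        rw [if_pos hlK, hlK, hRK, rs_me_p]
        rw [hlK] at a3
        push_cast at a3 ⊢
        rw [rs_me_p] at a3
        push_cast at a3
        linarith
    refine le_trans (le_of_eq ?_) (Finset.sum_le_sum a1)
    rw [Finset.sum_sub_distrib, Finset.sum_ite_eq' (Finset.range (K + 1)) K,
      if_pos (Finset.mem_range.2 (Nat.lt_succ_self K))]
  have h6 := mul_le_mul_of_nonneg_left h5 (show 0 ≤ β ^ 2 / 4 by positivity)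
  rw [← hγ] at h1
  rw [h3, hRK] at h2
  unfold PSK
  have h7 : β ^ 2 / 4 * (1 - ∑ l ∈ Finset.range (K + 1), (me K (l + 1) - me K l) *
        (if d ≤ l then (SN n K d (me K) β N s).pairEx l (fun x x' => Rov (ph hN') x x' ^ 2)
          else 0)) =
      β ^ 2 / 4 - β ^ 2 / 4 * ∑ l ∈ Finset.range (K + 1), (me K (l + 1) - me K l) *
        (if d ≤ l then (SN n K d (me K) β N s).pairEx l (fun x x' => Rov (ph hN') x x' ^ 2)
          else 0) := by ring
  rw [h7] at h4
  have h8 : β ^ 2 / 4 * (∑ l ∈ Finset.range (K + 1), (me K (l + 1) - me K l) * R l ^ 2 -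
      1 / ((K : ℝ) + 1)) =
      β ^ 2 / 4 * ∑ l ∈ Finset.range (K + 1), (me K (l + 1) - me K l) * R l ^ 2 -
        β ^ 2 / 4 * (1 / ((K : ℝ) + 1)) := by ring
  rw [h8] at h6
  have h9 : β ^ 2 / 4 * (1 + ∑ i ∈ Finset.range (K + 1), (me K (i + 1) - me K i) * R i ^ 2) =
      β ^ 2 / 4 + β ^ 2 / 4 * ∑ i ∈ Finset.range (K + 1), (me K (i + 1) - me K i) * R i ^ 2 := by
    ring
  rw [h9]
  have h12 : β ^ 2 * (W / 2 + 1 / 4 * (1 / ((K : ℝ) + 1))) =
      β ^ 2 * W / 2 + β ^ 2 / 4 * (1 / ((K : ℝ) + 1)) := by ring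
  rw [h12]
  linarith

/-- The sum of the (squared) errors. -/
noncomputable def gE2 (n K d : ℕ) (β : ℝ) (N : ℕ) (s : ℕ → ℝ) (t : ℝ) : ℝ :=
  (∑ j ∈ Finset.Ico d (K + 1), me K d * dl n K d (me K) β N s t j) / (me K d * t * N) ^ 2

/-- the trivial bound of the signed deviation -/
theorem dev_triv (hd : d ≤ K) (hN : N ≤ n) (h0 : 0 < N) {c : ℝ}
    {a : (Fin n → Bool) → RI n K → ℝ} {D : RI n K → (RI n K → ℝ) → (Fin n → Bool) → ℝ}
    (F : Fld (ls (rlv d) K (me K) c a) D (ph hN) (zc hN) s) {R : ℕ → ℝ}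
    (hR : ∀ l ≤ K, |R l| ≤ 1) {ε : (Fin n → Bool) → ℝ} (hε : ∀ x, |ε x| ≤ 1) :
    |∑ l ∈ Finset.Ico d (K + 1), (me K (l + 1) - me K l) *
      (ls (rlv d) K (me K) c a).pairEx l (fun x x' => ε x * ε x' *
        (Rov (ph hN) x x' - R l))| ≤ 2 := by
  set S := ls (rlv d) K (me K) c a with hSdef
  have hm := me_exp K
  have hS := F.hreg
  have hsum := rs_sum_p hm
  have hp : ∀ l ≤ K, 0 ≤ me K (l + 1) - me K l := fun l hl =>
    rs_p_nonneg hm (Finset.mem_range.2 (by omega))
  have hb : ∀ l ≤ K, |S.pairEx l (fun x x' => ε x * ε x' * (Rov (ph hN) x x' - R l))| ≤ 2 := by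
    intro l hl
    have b2 : ∀ x x', |ε x * ε x' * (Rov (ph hN) x x' - R l)| ≤ 2 := by
      intro x x'
      rw [abs_mul, abs_mul]
      have b3 : |ε x| * |ε x'| ≤ 1 := mul_le_one₀ (hε x) (abs_nonneg _) (hε x')
      have b4 : |Rov (ph hN) x x' - R l| ≤ 2 := by
        refine (abs_sub _ _).trans ?_
        have := F.abs_Rov_le x x'
        have := hR l hl
        linarith
      have b6 : 0 ≤ |ε x| * |ε x'| := by positivity
      nlinarith [abs_nonneg (Rov (ph hN) x x' - R l)]
    have hlS : l ≤ S.K := hl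
    have b8 := hS.pairEx_const (l := l) hlS 2
    have b9 := hS.pairEx_const (l := l) hlS (-2)
    rw [abs_le]
    constructor
    · rw [← b9]
      exact hS.pairEx_mono hlS fun x x' => (abs_le.1 (b2 x x')).1
    · rw [← b8]
      exact hS.pairEx_mono hlS fun x x' => (abs_le.1 (b2 x x')).2
  refine (Finset.abs_sum_le_sum_abs _ _).trans ?_
  have h1 : ∀ l ∈ Finset.Ico d (K + 1), |(me K (l + 1) - me K l) *
      S.pairEx l (fun x x' => ε x * ε x' * (Rov (ph hN) x x' - R l))| ≤
      (me K (l + 1) - me K l) * 2 := by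
    intro l hl
    rw [Finset.mem_Ico] at hl
    rw [abs_mul, abs_of_nonneg (hp l (by omega))]
    exact mul_le_mul_of_nonneg_left (hb l (by omega)) (hp l (by omega))
  refine (Finset.sum_le_sum h1).trans ?_
  rw [← Finset.sum_mul]
  have h2 : ∑ l ∈ Finset.Ico d (K + 1), (me K (l + 1) - me K l) ≤ 1 := by
    rw [← hsum, Finset.range_eq_Ico]
    refine Finset.sum_le_sum_of_subset_of_nonneg (Finset.Ico_subset_Ico_left (Nat.zero_le _))
      fun l hl _ => hp l ?_
    have := Finset.mem_Ico.1 hl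
    omega
  linarith

/-- (A-v2) **the step**, from the transfer and the concentration in `SN`. -/
theorem gstep2_of (hd1 : 1 ≤ d) (hd : d ≤ K) (hN : N + 1 ≤ n) (h0 : 0 < N) (hβ : 0 ≤ β)
    {σ : ℝ} (hσ : 0 < σ) (hσ1 : σ ≤ 1) (hs : ∀ l, d ≤ l → l ≤ K → σ ≤ s l)
    (hs0 : ∀ l, l < d → s l = 0) {t : ℝ} (ht : 0 < t) (htN : me K d * t * N ≤ 1)
    (hIII : ∀ θ j, d ≤ j → j ≤ K → (ST n K d (me K) β N s
      (ct d (stR (SN n K d (me K) β N s) (ph (Nat.le_of_succ_le hN)))) θ).Ex (fun z x =>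
        (hz (ph (Nat.le_of_succ_le hN)) (zc (Nat.le_of_succ_le hN)) j z x -
          (SN n K d (me K) β N s).Ex (hz (ph (Nat.le_of_succ_le hN))
            (zc (Nat.le_of_succ_le hN)) j)) ^ 2) ≤
      Real.exp (β ^ 2) * (SN n K d (me K) β N s).Ex (fun z x =>
        (hz (ph (Nat.le_of_succ_le hN)) (zc (Nat.le_of_succ_le hN)) j z x -
          (SN n K d (me K) β N s).Ex (hz (ph (Nat.le_of_succ_le hN))
            (zc (Nat.le_of_succ_le hN)) j)) ^ 2))
    (hIV : ∀ j, d ≤ j → j ≤ K → me K d * dl n K d (me K) β N s t j ≤ 1 →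
      (SN n K d (me K) β N s).Ex (fun z x =>
        (hz (ph (Nat.le_of_succ_le hN)) (zc (Nat.le_of_succ_le hN)) j z x -
          (SN n K d (me K) β N s).Ex (hz (ph (Nat.le_of_succ_le hN))
            (zc (Nat.le_of_succ_le hN)) j)) ^ 2) ≤
      4 * (me K d * dl n K d (me K) β N s t j) / (me K d * t * N) ^ 2) :
    PSK β K (me K) (ct d (stR (SN n K d (me K) β N s) (ph (Nat.le_of_succ_le hN)))) ≤
      AN n K d (me K) β (N + 1) s - AN n K d (me K) β N s + β ^ 2 / (N + 1 : ℕ) +
        β ^ 2 * (√(1 + Real.log ((K : ℝ) + 1)) *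
          (11 / ((K : ℝ) + 1) + 19 * Real.exp (β ^ 2 / 2) * √(gE2 n K d β N s t) / σ)) := by
  have hsp : ∀ l ≤ K, 0 ≤ s l := fun l hl => by
    rcases lt_or_ge l d with h | h
    · rw [hs0 l h]
    · exact hσ.le.trans (hs l h hl)
  have hN' : N ≤ n := Nat.le_of_succ_le hN
  have hm := me_exp K
  have hK1 : (0 : ℝ) < (K : ℝ) + 1 := by positivity
  have hN0 : (0 : ℝ) < N := by exact_mod_cast h0
  have hmd : 0 < me K d := by
    unfold me
    have : (0 : ℝ) < d := by exact_mod_cast hd1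
    positivity
  have hdl : ∀ j, j ≤ K → 0 ≤ dl n K d (me K) β N s t j := fun j hj =>
    rr_dl_nonneg (β := β) hd hN' hm s t hj
  have hlog : 0 ≤ Real.log ((K : ℝ) + 1) :=
    Real.log_nonneg (by linarith [(Nat.cast_nonneg K : (0 : ℝ) ≤ K)])
  obtain ⟨L, hL⟩ : ∃ L : ℝ, L = √(1 + Real.log ((K : ℝ) + 1)) := ⟨_, rfl⟩
  have hL1 : 1 ≤ L := by
    rw [hL]
    exact Real.one_le_sqrt.2 (by linarith)
  obtain ⟨Q, hQ⟩ : ∃ Q : ℝ, Q = Real.exp (β ^ 2 / 2) * √(gE2 n K d β N s t) / σ := ⟨_, rfl⟩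
  have hQ0 : 0 ≤ Q := by rw [hQ]; positivity
  obtain ⟨π, hπ⟩ : ∃ π : ℝ, π = 1 / ((K : ℝ) + 1) := ⟨_, rfl⟩
  have hπ0 : 0 < π := by rw [hπ]; positivity
  have hspN : ∀ x : Fin n → Bool, |Ub.sp N x| ≤ 1 := by
    intro x
    have h1 := Ub.sp_sq (show N < n from hN) x
    rw [← sq_abs] at h1
    exact ((pow_eq_one_iff_of_nonneg (abs_nonneg _) two_ne_zero).1 h1).le
  have eQ : 19 * Real.exp (β ^ 2 / 2) * √(gE2 n K d β N s t) / σ = 19 * Q := by
    rw [hQ]; ring
  have eπ : 11 / ((K : ℝ) + 1) = 11 * π := by rw [hπ]; ring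
  rw [eQ, eπ, ← hL]
  -- it is enough to bound the deviation
  have main : ∀ W : ℝ, (∀ θ, |∑ l ∈ Finset.Ico d (K + 1), (me K (l + 1) - me K l) *
      (ST n K d (me K) β N s
        (ct d (stR (SN n K d (me K) β N s) (ph (Nat.le_of_succ_le hN)))) θ).pairEx l
          (fun x x' => Ub.sp N x * Ub.sp N x' * (Rov (ph (Nat.le_of_succ_le hN)) x x' -
            stR (SN n K d (me K) β N s) (ph (Nat.le_of_succ_le hN)) l))| ≤ W) →
      W / 2 + 1 / 4 * π ≤ L * (11 * π + 19 * Q) →
      PSK β K (me K) (ct d (stR (SN n K d (me K) β N s) (ph (Nat.le_of_succ_le hN)))) ≤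
      AN n K d (me K) β (N + 1) s - AN n K d (me K) β N s + β ^ 2 / (N + 1 : ℕ) +
        β ^ 2 * (L * (11 * π + 19 * Q)) := by
    intro W hW1 hW2
    have h1 := gstep_of hd1 hd hN h0 hβ hσ hs hs0 hW1
    rw [← hπ] at h1
    have h2 := mul_le_mul_of_nonneg_left hW2 (sq_nonneg β)
    linarith
  by_cases hsmall : ∑ j ∈ Finset.Ico d (K + 1), me K d * dl n K d (me K) β N s t j ≤ 1
  · -- the errors are small
    have hj : ∀ j, d ≤ j → j ≤ K → me K d * dl n K d (me K) β N s t j ≤ 1 := by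
      intro j h1 h2
      refine (Finset.single_le_sum (f := fun j => me K d * dl n K d (me K) β N s t j)
        (fun i hi => ?_) (Finset.mem_Ico.2 ⟨h1, by omega⟩)).trans hsmall
      have := Finset.mem_Ico.1 hi
      exact mul_nonneg hmd.le (hdl i (by omega))
    refine main (L * (21 * π + 19 * (2 * Q))) (fun θ => ?_) ?_
    · have h1 := Vale.Agent.P146.R3.H49.Lev.gdev2 (β := β) (s := s) hd1 hd hN' h0
        (ST_fld (β := β) (R := ct d (stR (SN n K d (me K) β N s) (ph (Nat.le_of_succ_le hN))))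
          (θ := θ) hd hN' h0 hm hsp) hσ hs (ε := Ub.sp N) hspN
      refine h1.trans ?_
      rw [← hL]
      have e1 : 21 / ((K : ℝ) + 1) = 21 * π := by rw [hπ]; ring
      rw [e1]
      refine mul_le_mul_of_nonneg_left ?_ (by linarith)
      refine add_le_add_right ?_ _
      rw [mul_div_assoc]
      refine mul_le_mul_of_nonneg_left ?_ (by norm_num)
      rw [hQ, ← mul_div_assoc]
      refine div_le_div_of_nonneg_right ?_ hσ.le
      have h2 : ∑ j ∈ Finset.Ico d (K + 1), (ST n K d (me K) β N s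
          (ct d (stR (SN n K d (me K) β N s) (ph (Nat.le_of_succ_le hN)))) θ).Ex (fun z x =>
          (hz (ph (Nat.le_of_succ_le hN)) (zc (Nat.le_of_succ_le hN)) j z x -
          (SN n K d (me K) β N s).Ex (hz (ph (Nat.le_of_succ_le hN))
            (zc (Nat.le_of_succ_le hN)) j)) ^ 2) ≤
          (2 * Real.exp (β ^ 2 / 2)) ^ 2 * gE2 n K d β N s t := by
        have e2 : (2 * Real.exp (β ^ 2 / 2)) ^ 2 = 4 * Real.exp (β ^ 2) := by
          rw [mul_pow, ← Real.exp_nat_mul]
          norm_num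
          ring_nf
        rw [e2]
        unfold gE2
        rw [Finset.sum_div, Finset.mul_sum]
        refine Finset.sum_le_sum fun j hj' => ?_
        have hj2 := Finset.mem_Ico.1 hj'
        refine (hIII θ j hj2.1 (by omega)).trans ?_
        have h3 := hIV j hj2.1 (by omega) (hj j hj2.1 (by omega))
        refine (mul_le_mul_of_nonneg_left h3 (Real.exp_pos _).le).trans (le_of_eq ?_)
        ring
      have h4 := Real.sqrt_le_sqrt h2
      rw [Real.sqrt_mul (sq_nonneg _), Real.sqrt_sq (by positivity)] at h4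
      refine h4.trans (le_of_eq ?_)
      ring
    · nlinarith [mul_nonneg (by linarith : 0 ≤ L) hQ0, mul_nonneg (by linarith : 0 ≤ L - 1) hπ0.le,
        mul_nonneg (by linarith : 0 ≤ L) hπ0.le]
  · -- the trivial bound
    push Not at hsmall
    have F0 := SN_fld (β := β) hd hN' h0 hm hsp
    have hR₀ : Path K (stR (SN n K d (me K) β N s) (ph hN')) := st_path F0
    have hRK₀ : stR (SN n K d (me K) β N s) (ph hN') K = 1 :=
      stR_last (SN n K d (me K) β N s) (ph hN')
    have hRm : ∀ l ≤ K, |stR (SN n K d (me K) β N s) (ph hN') l| ≤ 1 := by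
      have mono : ∀ i j, i ≤ j → j ≤ K → stR (SN n K d (me K) β N s) (ph hN') i ≤
          stR (SN n K d (me K) β N s) (ph hN') j := by
        intro i j hij
        induction j, hij using Nat.le_induction with
        | base => intro _; exact le_rfl
        | succ j _ ih => intro hj; exact (ih (by omega)).trans (hR₀.2 j (by omega))
      intro l hl
      have h1 := hR₀.1.trans (mono 0 l (Nat.zero_le _) hl)
      have h2 := (mono l K hl le_rfl).trans hRK₀.le
      rw [abs_of_nonneg h1]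
      exact h2
    refine main 2 (fun θ => ?_) ?_
    · exact dev_triv hd hN' h0
        (ST_fld (β := β) (R := ct d (stR (SN n K d (me K) β N s) (ph (Nat.le_of_succ_le hN))))
          (θ := θ) hd hN' h0 hm hsp) hRm hspN
    · have h1 : 1 ≤ gE2 n K d β N s t := by
        unfold gE2
        have h2 : 0 < me K d * t * N := by positivity
        rw [le_div_iff₀ (by positivity), one_mul]
        exact (pow_le_one₀ h2.le htN).trans hsmall.le
      have h2 : 1 ≤ √(gE2 n K d β N s t) := Real.one_le_sqrt.2 h1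
      have h3 : 1 ≤ Real.exp (β ^ 2 / 2) := Real.one_le_exp (by positivity)
      have h4 : 1 ≤ Q := by
        rw [hQ, le_div_iff₀ hσ]
        nlinarith
      have h5 : π ≤ 1 := by
        rw [hπ, div_le_one hK1]
        linarith [(Nat.cast_nonneg K : (0 : ℝ) ≤ K)]
      nlinarith [mul_nonneg (by linarith : 0 ≤ L - 1) (by linarith : 0 ≤ Q),
        mul_nonneg (by linarith : 0 ≤ L) hπ0.le]

end Vale.Agent.P146.R3.H49.Stp
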