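import Mathlib
import Vale.Agent.P146.R3.H49.Stp
import Vale.Agent.P146.R3.H43.Aiv

set_option linter.all false

/-!
# P146, R7: the step, from the transfer alone
-/

open MeasureTheory ProbabilityTheory Filter Topology

namespace Vale.Agent.P146.R3.H49.Stp

set_option linter.unusedSectionVars false

open Vale.Agent.P157 Vale.Agent.P157.Lv Vale.Agent.P157.Lv.Sy Vale.Agent.P157.Lv.Fld
open Vale.Agent.P157.Par (Path Exponents incr spinPart)
open Vale.Agent.P146 (Pair)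
open Vale.Agent.P146.Sk (PSK)
open Vale.Agent.P146.Ub Vale.Agent.P146.Ub.Ld

variable {n K N d : ℕ} {m s R : ℕ → ℝ} {β θ : ℝ}

/-- (A-v2) **the step**, from the transfer. -/
theorem gstep2_tr (hd1 : 1 ≤ d) (hd : d ≤ K) (hN : N + 1 ≤ n) (h0 : 0 < N) (hβ : 0 ≤ β)
    {σ : ℝ} (hσ : 0 < σ) (hσ1 : σ ≤ 1) (hs : ∀ l, d ≤ l → l ≤ K → σ ≤ s l)
    (hs0 : ∀ l, l < d → s l = 0) {t : ℝ} (ht : 0 < t) (htN : me K d * t * N ≤ 1)
    (hIII : ∀ θ j, d ≤ j → j ≤ K → (ST n K d (me K) β N s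
      (ct d (stR (SN n K d (me K) β N s) (ph (Nat.le_of_succ_le hN)))) θ).Ex (fun z x =>
        (hz (ph (Nat.le_of_succ_le hN)) (zc (Nat.le_of_succ_le hN)) j z x -
          (SN n K d (me K) β N s).Ex (hz (ph (Nat.le_of_succ_le hN))
            (zc (Nat.le_of_succ_le hN)) j)) ^ 2) ≤
      Real.exp (β ^ 2) * (SN n K d (me K) β N s).Ex (fun z x =>
        (hz (ph (Nat.le_of_succ_le hN)) (zc (Nat.le_of_succ_le hN)) j z x -
          (SN n K d (me K) β N s).Ex (hz (ph (Nat.le_of_succ_le hN))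
            (zc (Nat.le_of_succ_le hN)) j)) ^ 2)) :
    PSK β K (me K) (ct d (stR (SN n K d (me K) β N s) (ph (Nat.le_of_succ_le hN)))) ≤
      AN n K d (me K) β (N + 1) s - AN n K d (me K) β N s + β ^ 2 / (N + 1 : ℕ) +
        β ^ 2 * (√(1 + Real.log ((K : ℝ) + 1)) *
          (11 / ((K : ℝ) + 1) + 19 * Real.exp (β ^ 2 / 2) * √(gE2 n K d β N s t) / σ)) := by
  have hsp : ∀ l ≤ K, 0 ≤ s l := fun l hl => by
    rcases lt_or_ge l d with h | h
    · rw [hs0 l h]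
    · exact hσ.le.trans (hs l h hl)
  exact gstep2_of hd1 hd hN h0 hβ hσ hσ1 hs hs0 ht htN hIII fun j h1 h2 h3 =>
    Vale.Agent.P146.R3.A.Aiv hd1 hd (Nat.le_of_succ_le hN) h0 (me_exp K) hsp hs0 ht h1 h2 h3

end Vale.Agent.P146.R3.H49.Stp
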