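import Mathlib
import Vale.Agent.P146.R3.H49.Stp2
import Vale.Agent.P146.R3.H501.Trf
import Vale.Agent.P146.R3.H749.Rate2

set_option linter.all false

/-!
# P146, R7 (A): the rate, without hypotheses
-/

open MeasureTheory ProbabilityTheory Filter Topology

namespace Vale.Agent.P146.R3.A

set_option linter.unusedSectionVars false

open Vale.Agent.P157 Vale.Agent.P157.Lv Vale.Agent.P157.Lv.Sy Vale.Agent.P157.Lv.Fld
open Vale.Agent.P157.Par (Path Exponents incr spinPart)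
open Vale.Agent.P146 (Pair freeEnergy disorder)
open Vale.Agent.P146.Sk (PSK)
open Vale.Agent.P146.Ub Vale.Agent.P146.Ub.Ld Vale.Agent.P146.Sx

/-- **The step.** -/
theorem gstep2_all {β : ℝ} (hβ : 0 ≤ β) (K d : ℕ) (hd1 : 1 ≤ d) (hd : d ≤ K) :
    GStep2 K d β := by
  intro n N s hN h0 σ hσ hσ1 hs hs0 t ht htN
  have hsp : ∀ l ≤ K, 0 ≤ s l := fun l hl => by
    rcases lt_or_ge l d with h | h
    · rw [hs0 l h]
    · exact hσ.le.trans (hs l h hl)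
  have F0 := SN_fld (β := β) hd (Nat.le_of_succ_le hN) h0 (me_exp K) hsp
  have hR : Path K (ct d (stR (SN n K d (me K) β N s) (ph (Nat.le_of_succ_le hN)))) :=
    ct_path (st_path F0)
  have hR1 : ct d (stR (SN n K d (me K) β N s) (ph (Nat.le_of_succ_le hN))) K ≤ 1 := by
    rw [ct_ge hd]
    exact (stR_last (SN n K d (me K) β N s) (ph (Nat.le_of_succ_le hN))).le
  exact Vale.Agent.P146.R3.H49.Stp.gstep2_tr hd1 hd hN h0 hβ hσ hσ1 hs hs0 ht htN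
    fun θ j _ _ => H501.trf_hz hd hN h0 (me_exp K) hR hR1 θ j _

/-- **The rate on the grid of exponents.** -/
theorem grate2 {β : ℝ} (hβ : 0 ≤ β) :
    ∃ C : ℝ, 0 ≤ C ∧ ∀ (K d : ℕ) (Lb : ℝ),
    1 ≤ d → d ≤ K →
    (∀ q : ℕ → ℝ, Path K q → q K ≤ 1 → (∀ l < d, q l = 0) → Lb ≤ PSK β K (me K) q) →
    ∀ n : ℕ, 1 ≤ n → ∀ σ : ℝ, 0 < σ → σ ≤ 1 → 1 ≤ σ * me K d * n →
      n * (Real.log 2 + Lb) ≤
        1 / me K d * Real.log (∫ g, Real.exp (me K d * freeEnergy n β g) ∂(disorder n)) +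
          C * (1 + Real.log ((K : ℝ) + 1)) *
            (n / ((K : ℝ) + 1) + √(((K : ℝ) + 1) * n / me K d) / σ + n * ((K : ℝ) + 1) * σ ^ 2) +
          C * (1 + Real.log n) :=
  grate2_of (gstep2_all hβ)

/-- **The rate for every exponent.** -/
theorem rate {β : ℝ} (hβ : 1 ≤ β) :
    ∃ C : ℝ, 0 ≤ C ∧ ∀ n : ℕ, 1 ≤ n → ∀ r : ℝ, 0 < r → r ≤ 1 → 1 ≤ r ^ 6 * n →
      n * pv β ≤ 1 / r * Real.log (∫ g, Real.exp (r * freeEnergy n β g) ∂(disorder n)) +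
        C * (1 + Real.log n) * ((n : ℝ) ^ (4 / 5 : ℝ) * r ^ (-(1 / 5) : ℝ)) :=
  rate_r hβ (gstep2_all (by linarith))

end Vale.Agent.P146.R3.A
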