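import Vale.Agent.P146.R2.H749.LevDefs
import Mathlib.RingTheory.Polynomial.Chebyshev

/-!
# P146: linear eigenvalue statistics of the disorder and the Hermite levels of the free energy
-/

open MeasureTheory ProbabilityTheory

namespace Vale.Agent.P146.R3

open Vale.Agent.P146.R2

/-- The symmetric matrix `W = g / √n` with zero diagonal. -/
noncomputable def Wg (n : ℕ) (g : Pair n → ℝ) : Matrix (Fin n) (Fin n) ℝ := fun i j =>
  (if h : i < j then g ⟨(i, j), h⟩ else if h : j < i then g ⟨(j, i), h⟩ else 0) / Real.sqrt n

/-- The linear statistic `tr C_k(W)` of the eigenvalues of `W`, where `C_k` is the rescaled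
Chebyshev polynomial of the first kind, `C_k(2 cos θ) = 2 cos(k θ)`. -/
noncomputable def trC (n k : ℕ) (g : Pair n → ℝ) : ℝ :=
  Matrix.trace (Polynomial.aeval (Wg n g) (Polynomial.Chebyshev.C ℝ k))

/-- The projection of the free energy onto the Hermite level `k`, the span of the products of
Hermite polynomials of total degree `k`. -/
noncomputable def levProj (n : ℕ) (β : ℝ) (k : ℕ) (g : Pair n → ℝ) : ℝ :=
  ∑ α ∈ (levs n k).filter (fun α => ∑ e, α e = k), hcoef n β α *
    ((∏ e, (Polynomial.hermite (α e)).aeval (g e)) / Real.sqrt (∏ e, ((α e).factorial : ℝ)))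

end Vale.Agent.P146.R3
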