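import Vale.Agent.P146.R3.H49.LinStat
import Vale.Agent.P146.R3.H49.LinDefs

/-!
# P146: the linear statistics in terms of the Chebyshev polynomials of the first kind
-/

open Matrix Finset MeasureTheory ProbabilityTheory Filter Topology

namespace Vale.Agent.P146.R3.H49

open Vale.Agent.P146 Vale.Agent.P146.Ub.Cv Vale.Agent.P146.H605 Vale.Agent.P146.H453
  Vale.Agent.P146.R2 Vale.Agent.P146.R3.H732
open Vale.Agent.P146.R2.H432 (cheb WW dom_cheb dom_WW WW_symm)

variable {n : ℕ}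

lemma WW_eq (g : Pair n → ℝ) : Wg n g = WW g := rfl

lemma aeval_C (A : Matrix (Fin n) (Fin n) ℝ) (k : ℕ) :
    Polynomial.aeval A (Polynomial.Chebyshev.C ℝ ((k + 2 : ℕ) : ℤ)) = cheb (k + 2) A - cheb k A := by
  have hrec : ∀ k : ℕ, Polynomial.aeval A (Polynomial.Chebyshev.C ℝ ((k + 2 : ℕ) : ℤ)) =
      A * Polynomial.aeval A (Polynomial.Chebyshev.C ℝ ((k + 1 : ℕ) : ℤ)) -
        Polynomial.aeval A (Polynomial.Chebyshev.C ℝ (k : ℤ)) := by
    intro k
    have h := Polynomial.Chebyshev.C_add_two ℝ (k : ℤ)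
    have e1 : ((k + 2 : ℕ) : ℤ) = (k : ℤ) + 2 := by push_cast; ring
    have e2 : ((k + 1 : ℕ) : ℤ) = (k : ℤ) + 1 := by push_cast; ring
    rw [e1, e2, h, map_sub, map_mul, Polynomial.aeval_X]
  have h0 : Polynomial.aeval A (Polynomial.Chebyshev.C ℝ ((0 : ℕ) : ℤ)) = 1 + 1 := by
    rw [Nat.cast_zero, Polynomial.Chebyshev.C_zero, map_ofNat]
    norm_num
  have h1 : Polynomial.aeval A (Polynomial.Chebyshev.C ℝ ((1 : ℕ) : ℤ)) = A := by
    rw [Nat.cast_one, Polynomial.Chebyshev.C_one, Polynomial.aeval_X]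
  have key : (Polynomial.aeval A (Polynomial.Chebyshev.C ℝ ((k + 2 : ℕ) : ℤ)) =
      cheb (k + 2) A - cheb k A) ∧
      (Polynomial.aeval A (Polynomial.Chebyshev.C ℝ ((k + 3 : ℕ) : ℤ)) =
        cheb (k + 3) A - cheb (k + 1) A) := by
    induction k with
    | zero =>
      have h2 : Polynomial.aeval A (Polynomial.Chebyshev.C ℝ ((0 + 2 : ℕ) : ℤ)) =
          cheb (0 + 2) A - cheb 0 A := by
        rw [hrec 0, h0, zero_add, h1, cheb_succ, cheb_zero]
        rw [zero_add, cheb_one]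
        noncomm_ring
      refine ⟨h2, ?_⟩
      have h3 := hrec 1
      rw [show (1 + 2 : ℕ) = 0 + 3 from rfl, show (1 + 1 : ℕ) = 0 + 2 from rfl, h2, h1] at h3
      rw [h3]
      rw [show (0 + 3 : ℕ) = 1 + 2 from rfl, cheb_succ 1]
      simp only [zero_add]
      rw [cheb_one, cheb_zero]
      noncomm_ring
    | succ k ih =>
      refine ⟨ih.2, ?_⟩
      rw [show (k + 1 + 3 : ℕ) = (k + 2) + 2 from rfl, hrec (k + 2),
        show (k + 2 + 1 : ℕ) = k + 3 from rfl, ih.2, ih.1, cheb_succ (k + 2),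
        show (k + 1 + 1 : ℕ) = k + 2 from rfl, cheb_succ k,
        show (k + 2 + 1 : ℕ) = k + 3 from rfl]
      noncomm_ring
  exact key.1

lemma trC_eq (k : ℕ) (g : Pair n → ℝ) : trC n (k + 2) g = ls k g := by
  unfold trC ls
  rw [WW_eq, aeval_C, Matrix.trace_sub]

lemma filter_eq (k : ℕ) (hk : 1 ≤ k) : (ML n k).filter (fun α => H453.tot α = k) =
    (levs n k).filter (fun α => ∑ e, α e = k) := by
  ext α
  rw [Finset.mem_filter, Finset.mem_filter, mem_ML, mem_levs]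
  have h : H453.tot α = ∑ e, α e := rfl
  rw [h]
  omega

lemma levProj_eq (β : ℝ) (k : ℕ) (hk : 1 ≤ k) (g : Pair n → ℝ) :
    levProj n β k g = proj n β k g := by
  unfold levProj proj
  rw [filter_eq k hk]
  refine Finset.sum_congr rfl fun α _ => ?_
  unfold hcoef
  have h1 : ∀ g : Pair n → ℝ, heM α g = ∏ e, (Polynomial.hermite (α e)).aeval (g e) :=
    fun g => heM_eq α g
  simp_rw [h1]
  have h2 : Real.sqrt (∏ e, ((α e).factorial : ℝ)) ^ 2 = ∏ e, ((α e).factorial : ℝ) :=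
    Real.sq_sqrt (by positivity)
  have h3 : Real.sqrt (∏ e, ((α e).factorial : ℝ)) ≠ 0 :=
    (Real.sqrt_pos.2 (by positivity)).ne'
  have h4 : (∏ e, ((α e).factorial : ℝ)) ≠ 0 := by positivity
  rw [div_mul_div_comm, ← sq, h2, div_mul_eq_mul_div]
  rfl

end Vale.Agent.P146.R3.H49
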