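import Vale.Agent.P146.R3.H49.Brid
import Vale.Agent.P146.R3.H597.Exact
import Vale.Agent.P146.R3.H43.Tr

/-!
# P146: the Hermite levels of the free energy and the smoothed free energy are asymptotically
linear statistics of the eigenvalues: final form
-/

open Finset MeasureTheory ProbabilityTheory Filter Topology

namespace Vale.Agent.P146.R3.H49

open Vale.Agent.P146 Vale.Agent.P146.Ub.Cv Vale.Agent.P146.H605 Vale.Agent.P146.H453
  Vale.Agent.P146.R2 Vale.Agent.P146.R3.H732 Vale.Agent.P146.R3.H952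

lemma abs_mk_le {β : ℝ} (hβ : 0 < β) {x : ℝ → ℝ} (hx : MinProf β x) (k : ℕ) :
    |mk β x k| ≤ (k : ℝ) + 1 := by
  obtain ⟨h1, h2⟩ := mk_mem hβ hx k
  rw [abs_of_nonneg h1]
  exact h2

lemma sum_Icc_one (f : ℕ → ℝ) (L : ℕ) :
    ∑ k ∈ Finset.Icc 1 L, f k = ∑ k ∈ range L, f (k + 1) := by
  induction L with
  | zero => simp
  | succ L ih => rw [Finset.sum_Icc_succ_top (by omega), ih, Finset.sum_range_succ]

/-- **The Hermite levels of the free energy and the smoothed free energy are asymptotically linear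
statistics of the eigenvalues of `W = g / √n`.** -/
theorem lin_plug {β : ℝ} (hβ : 1 < β) {x : ℝ → ℝ} (hx : MinProf β x) :
    (∀ k : ℕ, 1 ≤ k → Tendsto (fun n : ℕ => ∫ g, (levProj n β (k + 1) g -
      β * mk β x k / (2 * (k + 1)) *
        (trC n (k + 1) g - ∫ h, trC n (k + 1) h ∂(disorder n))) ^ 2 ∂(disorder n))
      atTop (𝓝 0)) ∧
    (∀ t : ℝ, 0 ≤ t → t < 1 → ∀ ε : ℝ, 0 < ε → ∃ L₀ : ℕ, ∀ L : ℕ, L₀ ≤ L →
      ∀ᶠ n : ℕ in atTop, ∫ z, (∫ y, freeEnergy n β (mixed n t z y) ∂(disorder n) -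
        ∫ g, freeEnergy n β g ∂(disorder n) -
        ∑ k ∈ Finset.Icc 1 L, β * mk β x k * Real.sqrt t ^ (k + 1) / (2 * (k + 1)) *
          (trC n (k + 1) z - ∫ h, trC n (k + 1) h ∂(disorder n))) ^ 2 ∂(disorder n) ≤ ε) := by
  have hT : ChebLim := fun k l => H43.cheb_sum_conv k l
  have hm := abs_mk_le (by linarith) hx
  have hP : ∀ k, Tendsto (fun n => pn' β n k) atTop (𝓝 (mk β x k)) := fun k => pn_lim hβ hx k
  have hX : ∀ t : ℝ, 0 ≤ t → t < 1 → Tendsto (fun n : ℕ => n * crossOverlap n β t) atTop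
      (𝓝 (∑' k : ℕ, t ^ k * mk β x k ^ 2)) := fun t h0 h1 => (exact_chaos hβ hx h0 h1).1
  refine ⟨fun k hk => ?_, fun t h0 h1 ε hε => ?_⟩
  · obtain ⟨k, rfl⟩ : ∃ j, k = j + 1 := ⟨k - 1, by omega⟩
    have h := lin_level hm hT hP hX k
    refine h.congr fun n => ?_
    refine integral_congr_ae (Eventually.of_forall fun g => ?_)
    have e1 : levProj n β (k + 1 + 1) g = proj n β (k + 2) g := levProj_eq β (k + 2) (by omega) g
    have e2 : trC n (k + 1 + 1) g = ls k g := trC_eq k g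
    have e3 : ∫ h, trC n (k + 1 + 1) h ∂(disorder n) = ∫ y, ls (n := n) k y ∂(gpi (Pair n)) :=
      integral_congr_ae (Eventually.of_forall fun h => trC_eq k h)
    beta_reduce
    rw [e1, e2, e3]
    push_cast
    ring
  · obtain ⟨L₀, h⟩ := lin_stat hm hT hP hX h0 h1 hε
    refine ⟨L₀, fun L hL => ?_⟩
    filter_upwards [h L hL] with n hn
    refine le_trans (le_of_eq ?_) hn
    refine integral_congr_ae (Eventually.of_forall fun z => ?_)
    have e0 : ∫ y, freeEnergy n β (mixed n t z y) ∂(disorder n) = TT (freeEnergy n β) t z := rfl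
    have e1 : ∑ k ∈ Finset.Icc 1 L, β * mk β x k * Real.sqrt t ^ (k + 1) / (2 * ((k : ℝ) + 1)) *
          (trC n (k + 1) z - ∫ h, trC n (k + 1) h ∂(disorder n)) =
        Lam β (mk β x) t L n z - ∫ y, Lam β (mk β x) t L n y ∂(gpi (Pair n)) := by
      unfold Lam
      rw [int_sum _ fun k _ => (dom_ls k).const_mul _, ← Finset.sum_sub_distrib, sum_Icc_one]
      refine Finset.sum_congr rfl fun k _ => ?_
      have e2 : trC n (k + 1 + 1) z = ls k z := trC_eq k z
      have e3 : ∫ h, trC n (k + 1 + 1) h ∂(disorder n) = ∫ y, ls (n := n) k y ∂(gpi (Pair n)) :=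
        integral_congr_ae (Eventually.of_forall fun h => trC_eq k h)
      rw [e2, e3, integral_const_mul]
      push_cast
      ring
    beta_reduce
    rw [e0, e1]
    rfl

end Vale.Agent.P146.R3.H49
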