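import Vale.Agent.P146.R3.H49.St

/-!
# P146, N5a: the inverse Stieltjes transform of the law of `β x + 2 s U_k(x)`
-/

open MeasureTheory Set Filter Topology Vale.Agent.P166

namespace Vale.Agent.P146.R3.H49

variable {b s : ℝ} {k : ℕ}

lemma continuous_hs (b : ℝ) (k : ℕ) (s : ℝ) : Continuous (hs b k s) := by
  have : hs b k s = fun x => b * x + 2 * s * chR k x := by ext x; rw [hs]
  rw [this]
  exact (continuous_const.mul continuous_id).add (continuous_const.mul (continuous_chR k))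

instance isProb_muS (b : ℝ) (k : ℕ) (s : ℝ) : IsProbabilityMeasure (muS b k s) :=
  Measure.isProbabilityMeasure_map (continuous_hs b k s).measurable.aemeasurable

lemma support_subset {T : Set ℝ} (hT : IsClosed T) (h : ∀ x ∈ Icc (-2 : ℝ) 2, hs b k s x ∈ T) :
    (muS b k s).support ⊆ T := by
  refine Measure.support_subset_of_isClosed hT ?_
  show ∀ᵐ x ∂muS b k s, x ∈ T
  unfold muS
  refine (ae_map_iff (continuous_hs b k s).measurable.aemeasurable (p := fun x => x ∈ T)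
    hT.measurableSet).2 ?_
  filter_upwards [sc_ae] with x hx using h x hx

theorem isCompact_support (b : ℝ) (k : ℕ) (s : ℝ) : IsCompact (muS b k s).support := by
  have hc : IsCompact (hs b k s '' Icc (-2 : ℝ) 2) := isCompact_Icc.image (continuous_hs b k s)
  exact hc.of_isClosed_subset Measure.isClosed_support
    (support_subset hc.isClosed fun x hx => mem_image_of_mem _ hx)

lemma support_nonempty (b : ℝ) (k : ℕ) (s : ℝ) : (muS b k s).support.Nonempty :=
  Measure.nonempty_support (IsProbabilityMeasure.ne_zero _)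

lemma edge_mem_support (b : ℝ) (k : ℕ) (s : ℝ) : hs b k s 2 ∈ (muS b k s).support := by
  rw [Measure.mem_support_iff_forall]
  intro U hU
  obtain ⟨V, hVU, hV, h2V⟩ := mem_nhds_iff.1 hU
  have h1 : (hs b k s) ⁻¹' V ∈ 𝓝 (2 : ℝ) := (continuous_hs b k s).continuousAt (hV.mem_nhds h2V)
  obtain ⟨r, hr, hball⟩ := Metric.mem_nhds_iff.1 h1
  have h2 : 0 < sc (Ioi (2 - r)) := sc_edge (by linarith)
  have h3 : sc (Ioi (2 - r)) ≤ sc ((hs b k s) ⁻¹' V) := by
    apply measure_mono_ae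
    filter_upwards [sc_ae] with x hx
    intro hx2
    apply hball
    rw [Metric.mem_ball, Real.dist_eq, abs_lt]
    have hx3 : 2 - r < x := hx2
    constructor <;> linarith [hx.2]
  calc 0 < sc ((hs b k s) ⁻¹' V) := h2.trans_le h3
    _ = muS b k s V := by
      unfold muS
      rw [Measure.map_apply (continuous_hs b k s).measurable hV.measurableSet]
    _ ≤ muS b k s U := measure_mono hVU

lemma sSup_support (h : ∀ x ∈ Icc (-2 : ℝ) 2, hs b k s x ≤ hs b k s 2) :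
    sSup (muS b k s).support = hs b k s 2 := by
  apply IsGreatest.csSup_eq
  exact ⟨edge_mem_support b k s, fun x hx => support_subset (T := Iic (hs b k s 2)) isClosed_Iic h hx⟩

lemma le_sSup_support (b : ℝ) (k : ℕ) (s : ℝ) : hs b k s 2 ≤ sSup (muS b k s).support :=
  le_csSup (isCompact_support b k s).bddAbove (edge_mem_support b k s)

/-- a bound of `hs` on `[-2,2]` -/
noncomputable def Kb (b : ℝ) (k : ℕ) (s : ℝ) : ℝ := 2 * |b| + 2 * |s| * (k + 1)

lemma abs_hs_le {x : ℝ} (hx : x ∈ Icc (-2 : ℝ) 2) : |hs b k s x| ≤ Kb b k s := by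
  unfold hs Kb
  have h1 := abs_chR_le k hx
  have h2 : |x| ≤ 2 := abs_le.2 ⟨hx.1, hx.2⟩
  calc |b * x + 2 * s * chR k x| ≤ |b * x| + |2 * s * chR k x| := abs_add_le _ _
    _ = |x| * |b| + 2 * |s| * |chR k x| := by
      rw [abs_mul, abs_mul, abs_mul, abs_of_pos (by norm_num : (0 : ℝ) < 2)]; ring
    _ ≤ 2 * |b| + 2 * |s| * (k + 1) := by gcongr

lemma sSup_le_Kb (b : ℝ) (k : ℕ) (s : ℝ) : sSup (muS b k s).support ≤ Kb b k s :=
  csSup_le (support_nonempty b k s) fun _ hx =>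
    support_subset (T := Iic (Kb b k s)) isClosed_Iic (fun _ hy => (abs_le.1 (abs_hs_le hy)).2) hx

lemma integral_muS (b : ℝ) (k : ℕ) (s z : ℝ) :
    ∫ x, (z - x)⁻¹ ∂(muS b k s) = ∫ x, (z - hs b k s x)⁻¹ ∂sc := by
  unfold muS
  rw [integral_map (continuous_hs b k s).measurable.aemeasurable]
  exact ((measurable_const.sub measurable_id).inv).aestronglyMeasurable

/-- the set in the definition of `stInv` -/
def SS (b : ℝ) (k : ℕ) (s y : ℝ) : Set ℝ :=
  {z : ℝ | sSup (muS b k s).support < z ∧ ∫ x, (z - x)⁻¹ ∂(muS b k s) ≤ y}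

lemma stInv_eq (b : ℝ) (k : ℕ) (s y : ℝ) : stInv (muS b k s) y = sInf (SS b k s y) := rfl

lemma SS_bddBelow (b : ℝ) (k : ℕ) (s y : ℝ) : BddBelow (SS b k s y) :=
  ⟨_, fun _ hz => hz.1.le⟩

lemma SS_mem {z y : ℝ} (h1 : sSup (muS b k s).support < z)
    (h2 : ∫ x, (z - hs b k s x)⁻¹ ∂sc ≤ y) : z ∈ SS b k s y :=
  ⟨h1, by rw [integral_muS]; exact h2⟩

lemma SS_nonempty (b : ℝ) (k : ℕ) (s : ℝ) {y : ℝ} (hy : 0 < y) : (SS b k s y).Nonempty := by
  refine ⟨Kb b k s + y⁻¹, SS_mem ?_ ?_⟩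
  · have := sSup_le_Kb b k s
    have : 0 < y⁻¹ := inv_pos.2 hy
    linarith [sSup_le_Kb b k s]
  · have h1 : ∀ x ∈ Icc (-2 : ℝ) 2, |(Kb b k s + y⁻¹ - hs b k s x)⁻¹| ≤ y := by
      intro x hx
      have h2 := (abs_le.1 (abs_hs_le (b := b) (k := k) (s := s) hx)).2
      have h3 : 0 < y⁻¹ := inv_pos.2 hy
      have h4 : y⁻¹ ≤ Kb b k s + y⁻¹ - hs b k s x := by linarith
      rw [abs_of_pos (inv_pos.2 (h3.trans_le h4))]
      calc (Kb b k s + y⁻¹ - hs b k s x)⁻¹ ≤ (y⁻¹)⁻¹ := inv_anti₀ h3 h4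
        _ = y := inv_inv y
    exact (le_abs_self _).trans (abs_integral_sc_le h1)

lemma stInv_le {z y : ℝ} (hz : z ∈ SS b k s y) : stInv (muS b k s) y ≤ z := by
  rw [stInv_eq]
  exact csInf_le (SS_bddBelow b k s y) hz

lemma le_stInv {c y : ℝ} (hy : 0 < y) (h : ∀ z ∈ SS b k s y, c ≤ z) :
    c ≤ stInv (muS b k s) y := by
  rw [stInv_eq]
  exact le_csInf (SS_nonempty b k s hy) h

lemma stInv_anti {y y' : ℝ} (hy : 0 < y) (hyy : y ≤ y') :
    stInv (muS b k s) y' ≤ stInv (muS b k s) y := by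
  rw [stInv_eq, stInv_eq]
  exact csInf_le_csInf (SS_bddBelow b k s y') (SS_nonempty b k s hy)
    fun z hz => ⟨hz.1, hz.2.trans hyy⟩

end Vale.Agent.P146.R3.H49
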