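import Vale.Agent.P146.Bdl.B36
import Vale.Agent.P150.Bdl.B3

/-! P146-S R10f, row T3 (helper49): the largest eigenvalue of `Wm N g`.
`P(∃ v, (2 + s) |v|² < v · W v) ≤ 8 / (N s²)` by the Sudakov-Fernique comparison of free energies,
the Poincaré inequality for the log-sum-exp and a countable dense set of unit vectors. -/

set_option linter.all false

open MeasureTheory ProbabilityTheory Finset Matrix Filter Topology

namespace Vale.Agent.P146.R3.H49.Lam

open Vale.Agent.P157.Lv Vale.Agent.P146.Sk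
open Vale.Agent.P367.GT (zf part free_le integrable_log_part)

/-- restriction of a standard Gaussian vector to a subset of coordinates -/
lemma gauss_comp {ι κ : Type*} [Fintype ι] [Fintype κ] (f : κ → ι) (hf : Function.Injective f) :
    (Measure.pi fun _ : ι => gaussianReal 0 1).map (fun J => J ∘ f)
      = Measure.pi fun _ : κ => gaussianReal 0 1 := by
  classical
  have hm : Measurable (fun J : ι → ℝ => J ∘ f) :=
    measurable_pi_iff.mpr fun k => measurable_pi_apply (f k)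
  symm
  apply Measure.pi_eq
  intro s hs
  rw [Measure.map_apply hm (MeasurableSet.univ_pi hs)]
  set t : ι → Set ℝ := fun i => if h : ∃ k, f k = i then s h.choose else Set.univ with ht
  have htf : ∀ k, t (f k) = s k := by
    intro k
    have h : ∃ k', f k' = f k := ⟨k, rfl⟩
    simp only [ht, dif_pos h]
    rw [hf h.choose_spec]
  have h1 : (fun J : ι → ℝ => J ∘ f) ⁻¹' (Set.univ.pi s) = Set.univ.pi t := by
    ext J
    simp only [Set.mem_preimage, Set.mem_pi, Set.mem_univ, forall_true_left, Function.comp]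
    constructor
    · intro h i
      by_cases hi : ∃ k, f k = i
      · obtain ⟨k, rfl⟩ := hi
        rw [htf]; exact h k
      · simp only [ht, dif_neg hi, Set.mem_univ]
    · intro h k
      have := h (f k)
      rwa [htf] at this
  rw [h1, Measure.pi_pi]
  have h2 : ∏ i, (gaussianReal 0 1) (t i) = ∏ i ∈ Finset.univ.image f, (gaussianReal 0 1) (t i) := by
    symm
    apply Finset.prod_subset (Finset.subset_univ _)
    intro i _ hi
    have h3 : ¬ ∃ k, f k = i := by
      rintro ⟨k, rfl⟩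
      exact hi (Finset.mem_image_of_mem f (Finset.mem_univ k))
    simp only [ht, dif_neg h3, measure_univ]
  rw [h2, Finset.prod_image (fun a _ b _ h => hf h)]
  simp only [htf]

lemma int_gauss_comp {ι κ : Type*} [Fintype ι] [Fintype κ] (f : κ → ι) (hf : Function.Injective f)
    (F : (κ → ℝ) → ℝ) (hF : AEStronglyMeasurable F (Measure.pi fun _ : κ => gaussianReal 0 1)) :
    ∫ J : ι → ℝ, F (J ∘ f) ∂(Measure.pi fun _ : ι => gaussianReal 0 1)
      = ∫ J, F J ∂(Measure.pi fun _ : κ => gaussianReal 0 1) := by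
  have hm : Measurable (fun J : ι → ℝ => J ∘ f) :=
    measurable_pi_iff.mpr fun k => measurable_pi_apply (f k)
  rw [← gauss_comp f hf, integral_map hm.aemeasurable]
  rw [gauss_comp f hf]
  exact hF

/-- comparison of the free energies of two families on different Gaussian spaces -/
theorem free_le2 {S ι κ : Type} [Fintype S] [Nonempty S] [Fintype ι] [Fintype κ]
    (a : S → ι → ℝ) (b : S → κ → ℝ)
    (hinc : ∀ s t, ∑ e, (a s e - a t e) ^ 2 ≤ ∑ e, (b s e - b t e) ^ 2) :
    ∫ J, Real.log (∑ s, Real.exp (∑ e, a s e * J e)) ∂(gI ι) ≤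
      ∫ J, Real.log (∑ s, Real.exp (∑ e, b s e * J e)) ∂(gI κ) := by
  have key := free_le (S := S) (ι := ι ⊕ κ) (fun s => Sum.elim (a s) (fun _ => 0))
    (fun s => Sum.elim (fun _ => 0) (b s))
    (by
      intro s t
      rw [Fintype.sum_sum_type]
      simp)
    (by
      intro s t
      rw [Fintype.sum_sum_type, Fintype.sum_sum_type]
      simpa using hinc s t)
  have h1 : ∀ J : ι ⊕ κ → ℝ, part (fun s => Sum.elim (a s) (fun _ => (0 : ℝ))) J =
      ∑ s, Real.exp (∑ e, a s e * (J ∘ Sum.inl) e) := by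
    intro J
    unfold part zf
    refine Finset.sum_congr rfl fun s _ => ?_
    rw [Fintype.sum_sum_type]
    simp
  have h2 : ∀ J : ι ⊕ κ → ℝ, part (fun s => Sum.elim (fun _ => (0 : ℝ)) (b s)) J =
      ∑ s, Real.exp (∑ e, b s e * (J ∘ Sum.inr) e) := by
    intro J
    unfold part zf
    refine Finset.sum_congr rfl fun s _ => ?_
    rw [Fintype.sum_sum_type]
    simp
  simp only [h1, h2] at key
  rw [int_gauss_comp (F := fun J : ι → ℝ => Real.log (∑ s, Real.exp (∑ e, a s e * J e)))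
    Sum.inl Sum.inl_injective (integrable_log_part a).aestronglyMeasurable,
    int_gauss_comp (F := fun J : κ → ℝ => Real.log (∑ s, Real.exp (∑ e, b s e * J e)))
    Sum.inr Sum.inr_injective (integrable_log_part b).aestronglyMeasurable] at key
  exact key

variable {N : ℕ}

/-- coefficients of `v ⬝ W v` -/
noncomputable def ca (N : ℕ) (v : Fin N → ℝ) (e : Ix N) : ℝ := √(2 / N) * (v e.1 * v e.2)

lemma quad_eq (hN : 0 < N) (v : Fin N → ℝ) (g : Ix N → ℝ) :
    v ⬝ᵥ (Wm N g *ᵥ v) = ∑ e, ca N v e * g e := by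
  have hN' : (0 : ℝ) < N := by exact_mod_cast hN
  have h2 : √(2 / (N : ℝ)) = 2 / √(2 * (N : ℝ)) := by
    rw [Real.sqrt_eq_iff_mul_self_eq (by positivity) (by positivity), div_mul_div_comm,
      Real.mul_self_sqrt (by positivity)]
    field_simp
  have h1 : v ⬝ᵥ (Wm N g *ᵥ v) = ∑ i, ∑ j, v i * v j * ((g (i, j) + g (j, i)) / √(2 * (N : ℝ))) := by
    simp only [dotProduct, mulVec, Wm, Matrix.of_apply, mul_sum]
    refine sum_congr rfl fun i _ => sum_congr rfl fun j _ => ?_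
    ring
  have h3 : ∑ i, ∑ j, v i * v j * (g (j, i) / √(2 * (N : ℝ))) =
      ∑ i, ∑ j, v i * v j * (g (i, j) / √(2 * (N : ℝ))) := by
    rw [sum_comm]
    refine sum_congr rfl fun i _ => sum_congr rfl fun j _ => ?_
    ring
  rw [h1]
  simp only [add_div, mul_add, sum_add_distrib]
  rw [h3, Fintype.sum_prod_type]
  simp only [ca, h2]
  rw [← sum_add_distrib]
  refine sum_congr rfl fun i _ => ?_
  rw [← sum_add_distrib]
  refine sum_congr rfl fun j _ => ?_
  ring

/-- the increments -/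
lemma inc_le (hN : 0 < N) {v u : Fin N → ℝ} (hv : v ⬝ᵥ v = 1) (hu : u ⬝ᵥ u = 1) :
    ∑ e, (ca N v e - ca N u e) ^ 2 ≤ ∑ i, (2 / √N * v i - 2 / √N * u i) ^ 2 := by
  have hN' : (0 : ℝ) < N := by exact_mod_cast hN
  set c := v ⬝ᵥ u with hc
  have e1 : ∑ e, (ca N v e - ca N u e) ^ 2 = 2 / N * (2 - 2 * c ^ 2) := by
    have h1 : ∀ e : Ix N, (ca N v e - ca N u e) ^ 2 = 2 / N * ((v e.1 * v e.1) * (v e.2 * v e.2) +
        (u e.1 * u e.1) * (u e.2 * u e.2) - 2 * ((v e.1 * u e.1) * (v e.2 * u e.2))) := by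
      intro e
      unfold ca
      rw [← mul_sub, mul_pow, Real.sq_sqrt (by positivity)]
      ring
    simp only [h1]
    rw [← mul_sum, Fintype.sum_prod_type]
    simp only [sum_sub_distrib, sum_add_distrib, ← mul_sum, ← sum_mul]
    have h2 : ∑ i, v i * v i = 1 := hv
    have h3 : ∑ i, u i * u i = 1 := hu
    have h4 : ∑ i, v i * u i = c := rfl
    rw [h2, h3, h4]
    ring
  have e2 : ∑ i, (2 / √N * v i - 2 / √N * u i) ^ 2 = 4 / N * (2 - 2 * c) := by
    have h1 : ∀ i, (2 / √(N : ℝ) * v i - 2 / √N * u i) ^ 2 =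
        4 / N * (v i * v i + u i * u i - 2 * (v i * u i)) := by
      intro i
      rw [← mul_sub, mul_pow, div_pow, Real.sq_sqrt hN'.le]
      ring
    simp only [h1]
    rw [← mul_sum, sum_sub_distrib, sum_add_distrib, ← mul_sum]
    have h2 : ∑ i, v i * v i = 1 := hv
    have h3 : ∑ i, u i * u i = 1 := hu
    have h4 : ∑ i, v i * u i = c := rfl
    rw [h2, h3, h4]
    ring
  rw [e1, e2]
  have h5 : 4 / (N : ℝ) * (2 - 2 * c) - 2 / N * (2 - 2 * c ^ 2) = 4 / N * (1 - c) ^ 2 := by ring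
  have h6 : 0 ≤ 4 / (N : ℝ) * (1 - c) ^ 2 := by positivity
  linarith

lemma int_sq_coord {ι : Type} [Fintype ι] [DecidableEq ι] (e : ι) :
    ∫ z : ι → ℝ, z e ^ 2 ∂(gI ι) = 1 := by
  have h := PD.stein (e := e) (PD.coord e) (EG.coord e) (EG.const _)
  simp only [if_true, integral_const, probReal_univ, smul_eq_mul, mul_one] at h
  rw [← h]
  exact integral_congr_ae (Eventually.of_forall fun z => by simp only; ring)

section fam

variable {S : Type} [Fintype S] [Nonempty S]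

/-- the energy -/
noncomputable def En (N : ℕ) (r : ℝ) (V : S → Fin N → ℝ) (g : Ix N → ℝ) (x : S) : ℝ :=
  ∑ e, r * ca N (V x) e * g e

lemma eg_En (r : ℝ) (V : S → Fin N → ℝ) (x : S) : EG fun g => En N r V g x :=
  EG.sum _ fun e _ => (EG.coord e).const_mul _

lemma pd_En (r : ℝ) (V : S → Fin N → ℝ) (e : Ix N) (x : S) :
    PD e (fun g => En N r V g x) (fun _ => r * ca N (V x) e) := by
  have h := PD.sum (e := e) Finset.univ (H := fun e' (g : Ix N → ℝ) => r * ca N (V x) e' * g e')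
    (H' := fun e' _ => r * ca N (V x) e' * if e' = e then 1 else 0)
    fun e' _ => (PD.coord e').const_mul _
  refine h.congr fun y => ?_
  simp

lemma mean_le (hN : 0 < N) (r : ℝ) (hr : 0 < r) (V : S → Fin N → ℝ) (hV : ∀ x, V x ⬝ᵥ V x = 1) :
    ∫ g, Pw.lse (En N r V) g ∂(gI (Ix N)) ≤ Real.log (Fintype.card S) + 2 * r := by
  classical
  have hN' : (0 : ℝ) < N := by exact_mod_cast hN
  have hc : (1 : ℝ) ≤ Fintype.card S := by exact_mod_cast Fintype.card_pos
  have key := free_le2 (fun x e => r * ca N (V x) e) (fun x i => r * (2 / √N * V x i)) (by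
    intro s t
    have h1 := inc_le hN (hV s) (hV t)
    have e1 : ∑ e, (r * ca N (V s) e - r * ca N (V t) e) ^ 2 =
        r ^ 2 * ∑ e, (ca N (V s) e - ca N (V t) e) ^ 2 := by
      rw [mul_sum]
      exact sum_congr rfl fun e _ => by ring
    have e2 : ∑ i, (r * (2 / √N * V s i) - r * (2 / √N * V t i)) ^ 2 =
        r ^ 2 * ∑ i, (2 / √N * V s i - 2 / √N * V t i) ^ 2 := by
      rw [mul_sum]
      exact sum_congr rfl fun e _ => by ring
    rw [e1, e2]
    exact mul_le_mul_of_nonneg_left h1 (sq_nonneg r))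
  have h2 : ∀ h : Fin N → ℝ, Real.log (∑ x, Real.exp (∑ i, r * (2 / √N * V x i) * h i)) ≤
      Real.log (Fintype.card S) + r * (1 + 1 / N * ∑ i, h i ^ 2) := by
    intro h
    have h3 : ∀ x, ∑ i, r * (2 / √N * V x i) * h i ≤ r * (1 + 1 / N * ∑ i, h i ^ 2) := by
      intro x
      have h4 : 0 ≤ ∑ i, (V x i - 1 / √N * h i) ^ 2 := sum_nonneg fun i _ => sq_nonneg _
      have h5 : ∑ i, (V x i - 1 / √N * h i) ^ 2 =
          (1 + 1 / N * ∑ i, h i ^ 2) - ∑ i, 2 / √N * V x i * h i := by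
        have h6 : ∀ i, (V x i - 1 / √N * h i) ^ 2 =
            V x i * V x i + 1 / N * h i ^ 2 - 2 / √N * V x i * h i := by
          intro i
          rw [sub_sq, mul_pow, div_pow, Real.sq_sqrt hN'.le]
          ring
        simp only [h6]
        rw [sum_sub_distrib, sum_add_distrib, ← mul_sum]
        have h7 : ∑ i, V x i * V x i = 1 := hV x
        rw [h7]
      rw [h5] at h4
      have h8 : ∑ i, r * (2 / √N * V x i) * h i = r * ∑ i, 2 / √N * V x i * h i := by
        rw [mul_sum]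
        exact sum_congr rfl fun i _ => by ring
      rw [h8]
      exact mul_le_mul_of_nonneg_left (by linarith) hr.le
    have h9 : ∑ x, Real.exp (∑ i, r * (2 / √N * V x i) * h i) ≤
        Fintype.card S * Real.exp (r * (1 + 1 / N * ∑ i, h i ^ 2)) := by
      refine (sum_le_sum fun x _ => Real.exp_le_exp.2 (h3 x)).trans ?_
      rw [sum_const, nsmul_eq_mul, Finset.card_univ]
    have h10 := Real.log_le_log (sum_pos (fun _ _ => Real.exp_pos _) univ_nonempty) h9
    rwa [Real.log_mul (by positivity) (Real.exp_pos _).ne', Real.log_exp] at h10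
  have hi : Integrable (fun h : Fin N → ℝ => Real.log (Fintype.card S) +
      r * (1 + 1 / N * ∑ i, h i ^ 2)) (gI (Fin N)) :=
    ((EG.const _).add (((EG.const 1).add ((EG.sum _ fun i _ =>
      (EG.coord i).pow 2).const_mul _)).const_mul r)).integrable
  have h11 : ∫ h : Fin N → ℝ, (Real.log (Fintype.card S) +
      r * (1 + 1 / N * ∑ i, h i ^ 2)) ∂(gI (Fin N)) = Real.log (Fintype.card S) + 2 * r := by
    have i1 : Integrable (fun h : Fin N → ℝ => ∑ i, h i ^ 2) (gI (Fin N)) :=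
      (EG.sum _ fun i _ => (EG.coord i).pow 2).integrable
    have i2 : Integrable (fun h : Fin N → ℝ => 1 / (N : ℝ) * ∑ i, h i ^ 2) (gI (Fin N)) :=
      i1.const_mul _
    have i3 : Integrable (fun h : Fin N → ℝ => 1 + 1 / (N : ℝ) * ∑ i, h i ^ 2) (gI (Fin N)) :=
      (integrable_const (1 : ℝ)).add i2
    rw [integral_add (integrable_const _) (i3.const_mul r),
      integral_const_mul, integral_add (integrable_const _) i2, integral_const_mul,
      integral_finsetSum _ fun i _ => ((EG.coord i).pow 2).integrable]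
    simp only [int_sq_coord, integral_const, probReal_univ, smul_eq_mul, one_mul, sum_const,
      Finset.card_univ, Fintype.card_fin, nsmul_eq_mul, mul_one]
    rw [one_div, inv_mul_cancel₀ hN'.ne']
    ring
  have h12 : ∫ h : Fin N → ℝ, Real.log (∑ x, Real.exp (∑ i, r * (2 / √N * V x i) * h i))
      ∂(gI (Fin N)) ≤ Real.log (Fintype.card S) + 2 * r := by
    rw [← h11]
    exact integral_mono (integrable_log_part (fun x i => r * (2 / √N * V x i))) hi h2
  exact key.trans h12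

lemma var_le (hN : 0 < N) (r : ℝ) (V : S → Fin N → ℝ) (hV : ∀ x, V x ⬝ᵥ V x = 1) :
    ∫ g, (Pw.lse (En N r V) g - ∫ g', Pw.lse (En N r V) g' ∂(gI (Ix N))) ^ 2 ∂(gI (Ix N)) ≤
      2 * r ^ 2 / N := by
  classical
  have hN' : (0 : ℝ) < N := by exact_mod_cast hN
  have h := Pw.var_lse (E := En N r V) (D := fun e _ x => r * ca N (V x) e)
    (C := ∑ x, ∑ e, |r * ca N (V x) e|) (w := fun _ => 2 * r ^ 2 / N) (eg_En r V)
    (pd_En r V) (fun e x => measurable_const)
    (fun e g x => (single_le_sum (f := fun e => |r * ca N (V x) e|) (fun _ _ => abs_nonneg _)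
      (mem_univ e)).trans (single_le_sum (f := fun x => ∑ e, |r * ca N (V x) e|)
        (fun _ _ => sum_nonneg fun _ _ => abs_nonneg _) (mem_univ x)))
    (EG.const _) (by
      intro g x
      have h1 : ∑ e, (r * ca N (V x) e) ^ 2 = 2 * r ^ 2 / N * ((∑ i, V x i * V x i) *
          ∑ j, V x j * V x j) := by
        rw [sum_mul_sum, Fintype.sum_prod_type, mul_sum]
        refine sum_congr rfl fun i _ => ?_
        rw [mul_sum]
        refine sum_congr rfl fun j _ => ?_
        unfold ca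
        rw [mul_pow, mul_pow, Real.sq_sqrt (by positivity)]
        ring
      have h2 : ∑ i, V x i * V x i = 1 := hV x
      rw [h1, h2, mul_one, mul_one])
  refine h.trans (le_of_eq ?_)
  simp

/-- the maximum over a finite family of unit vectors -/
theorem fin_max (hN : 0 < N) {s : ℝ} (hs : 0 < s) (V : S → Fin N → ℝ)
    (hV : ∀ x, V x ⬝ᵥ V x = 1) :
    (gI (Ix N)).real {g | ∃ x, 2 + s < V x ⬝ᵥ (Wm N g *ᵥ V x)} ≤ 8 / (N * s ^ 2) := by
  classical
  have hN' : (0 : ℝ) < N := by exact_mod_cast hN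
  have hc : (1 : ℝ) ≤ Fintype.card S := by exact_mod_cast Fintype.card_pos
  have hlc : 0 ≤ Real.log (Fintype.card S) := Real.log_nonneg hc
  obtain ⟨r, hr, hr2⟩ : ∃ r : ℝ, 0 < r ∧ Real.log (Fintype.card S) ≤ r * (s / 2) := by
    refine ⟨2 * Real.log (Fintype.card S) / s + 1, by positivity, ?_⟩
    rw [add_mul, div_mul_div_comm, mul_comm s 2, mul_assoc, mul_div_mul_left _ _ two_ne_zero,
      mul_div_assoc, div_self hs.ne']
    linarith
  set L := Pw.lse (En N r V) with hL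
  set M := ∫ g', L g' ∂(gI (Ix N)) with hM
  have hEG : EG L := Pw.eg_lse (eg_En r V)
  have h1 : ∀ g ∈ {g : Ix N → ℝ | ∃ x, 2 + s < V x ⬝ᵥ (Wm N g *ᵥ V x)},
      (r * (s / 2)) ^ 2 ≤ (L g - M) ^ 2 := by
    rintro g ⟨x, hx⟩
    have h2 : r * (2 + s) ≤ L g := by
      have h3 : En N r V g x ≤ L g := by
        rw [hL]
        unfold Pw.lse
        rw [Real.le_log_iff_exp_le (Pw.sum_exp_pos g)]
        exact single_le_sum (f := fun x => Real.exp (En N r V g x))
          (fun _ _ => (Real.exp_pos _).le) (mem_univ x)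
      have h4 : En N r V g x = r * (V x ⬝ᵥ (Wm N g *ᵥ V x)) := by
        rw [quad_eq hN, mul_sum]
        unfold En
        exact sum_congr rfl fun e _ => by ring
      rw [h4] at h3
      exact (mul_le_mul_of_nonneg_left hx.le hr.le).trans h3
    have h5 : M ≤ Real.log (Fintype.card S) + 2 * r := mean_le hN r hr V hV
    refine pow_le_pow_left₀ (by positivity) ?_ 2
    linarith
  have hi : Integrable (fun g => (L g - M) ^ 2) (gI (Ix N)) :=
    ((hEG.sub (EG.const M)).pow 2).integrable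
  have h6 := mul_meas_ge_le_integral_of_nonneg (μ := gI (Ix N))
    (Eventually.of_forall fun g => sq_nonneg (L g - M)) hi ((r * (s / 2)) ^ 2)
  have h7 : (gI (Ix N)).real {g | ∃ x, 2 + s < V x ⬝ᵥ (Wm N g *ᵥ V x)} ≤
      (gI (Ix N)).real {g | (r * (s / 2)) ^ 2 ≤ (L g - M) ^ 2} :=
    measureReal_mono fun g hg => h1 g hg
  have h8 := var_le hN r V hV
  have h9 : 0 < (r * (s / 2)) ^ 2 := by positivity
  have h10 : (gI (Ix N)).real {g | (r * (s / 2)) ^ 2 ≤ (L g - M) ^ 2} ≤
      (2 * r ^ 2 / N) / (r * (s / 2)) ^ 2 := by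
    rw [le_div_iff₀ h9, mul_comm]
    exact h6.trans h8
  refine h7.trans (h10.trans (le_of_eq ?_))
  field_simp
  ring

end fam

/-- **The largest eigenvalue.** -/
theorem lam_max8 (hN : 0 < N) {s : ℝ} (hs : 0 < s) :
    (gI (Ix N)).real {g | ∃ v : Fin N → ℝ, (2 + s) * (v ⬝ᵥ v) < v ⬝ᵥ (Wm N g *ᵥ v)} ≤
      8 / (N * s ^ 2) := by
  classical
  have hne : Nonempty {v : Fin N → ℝ // v ⬝ᵥ v = 1} :=
    ⟨⟨Pi.single ⟨0, hN⟩ 1, by simp⟩⟩
  set d : ℕ → {v : Fin N → ℝ // v ⬝ᵥ v = 1} := TopologicalSpace.denseSeq _ with hd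
  set A : ℕ → Set (Ix N → ℝ) := fun n =>
    {g | ∃ k : Fin (n + 1), 2 + s < (d k).1 ⬝ᵥ (Wm N g *ᵥ (d k).1)} with hA
  have hmono : Monotone A := by
    intro n m hnm g hg
    obtain ⟨k, hk⟩ := hg
    exact ⟨⟨k, by omega⟩, hk⟩
  have hsub : {g | ∃ v : Fin N → ℝ, (2 + s) * (v ⬝ᵥ v) < v ⬝ᵥ (Wm N g *ᵥ v)} ⊆ ⋃ n, A n := by
    rintro g ⟨v, hv⟩
    have hv0 : v ≠ 0 := by
      rintro rfl
      simp at hv
    have hp : 0 < v ⬝ᵥ v := by
      rcases lt_or_eq_of_le (Finset.sum_nonneg fun i _ => mul_self_nonneg (v i) :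
        0 ≤ v ⬝ᵥ v) with h | h
      · exact h
      · exact absurd (dotProduct_self_eq_zero.1 h.symm) hv0
    set u : Fin N → ℝ := (1 / √(v ⬝ᵥ v)) • v with hu
    have hsq : √(v ⬝ᵥ v) * √(v ⬝ᵥ v) = v ⬝ᵥ v := Real.mul_self_sqrt hp.le
    have hs0 : 0 < √(v ⬝ᵥ v) := Real.sqrt_pos.2 hp
    have hu1 : u ⬝ᵥ u = 1 := by
      rw [hu, smul_dotProduct, dotProduct_smul, smul_eq_mul, smul_eq_mul]
      field_simp
      rw [sq, hsq]
    have hu2 : 2 + s < u ⬝ᵥ (Wm N g *ᵥ u) := by
      have e1 : u ⬝ᵥ (Wm N g *ᵥ u) = (v ⬝ᵥ (Wm N g *ᵥ v)) / (v ⬝ᵥ v) := by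
        rw [hu, mulVec_smul, smul_dotProduct, dotProduct_smul, smul_eq_mul, smul_eq_mul]
        rw [← mul_assoc, div_mul_div_comm, hsq]
        ring
      rw [e1, lt_div_iff₀ hp]
      exact hv
    have hcont : Continuous fun w : {v : Fin N → ℝ // v ⬝ᵥ v = 1} =>
        w.1 ⬝ᵥ (Wm N g *ᵥ w.1) := by
      have h1 : Continuous fun w : Fin N → ℝ => w ⬝ᵥ (Wm N g *ᵥ w) := by
        simp only [dotProduct, mulVec]
        fun_prop
      exact h1.comp continuous_subtype_val
    have hopen : IsOpen {w : {v : Fin N → ℝ // v ⬝ᵥ v = 1} | 2 + s < w.1 ⬝ᵥ (Wm N g *ᵥ w.1)} :=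
      isOpen_lt continuous_const hcont
    obtain ⟨k, hk⟩ := (TopologicalSpace.denseRange_denseSeq
      {v : Fin N → ℝ // v ⬝ᵥ v = 1}).exists_mem_open hopen ⟨⟨u, hu1⟩, hu2⟩
    exact Set.mem_iUnion.2 ⟨k, ⟨⟨k, by omega⟩, hk⟩⟩
  have hb : ∀ n, (gI (Ix N)) (A n) ≤ ENNReal.ofReal (8 / (N * s ^ 2)) := by
    intro n
    have h := fin_max (S := Fin (n + 1)) hN hs (fun k => (d k).1) fun k => (d k).2
    rw [← ENNReal.ofReal_toReal (measure_ne_top (gI (Ix N)) (A n))]
    exact ENNReal.ofReal_le_ofReal h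
  have hU : (gI (Ix N)) (⋃ n, A n) ≤ ENNReal.ofReal (8 / (N * s ^ 2)) := by
    rw [hmono.measure_iUnion]
    exact iSup_le hb
  calc (gI (Ix N)).real {g | ∃ v : Fin N → ℝ, (2 + s) * (v ⬝ᵥ v) < v ⬝ᵥ (Wm N g *ᵥ v)} ≤
      (gI (Ix N)).real (⋃ n, A n) := measureReal_mono hsub
    _ ≤ (ENNReal.ofReal (8 / (N * s ^ 2))).toReal :=
        ENNReal.toReal_mono ENNReal.ofReal_ne_top hU
    _ = 8 / (N * s ^ 2) := ENNReal.toReal_ofReal (by positivity)

/-- Row T3 in the requested form. -/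
theorem lam_max : ∃ C : ℝ, ∀ N : ℕ, 0 < N → ∀ s : ℝ, 0 < s →
    (gI (Ix N)).real {g | ∃ v : Fin N → ℝ, (2 + s) * (v ⬝ᵥ v) < v ⬝ᵥ (Wm N g *ᵥ v)} ≤
      C / (N * s ^ 2) :=
  ⟨8, fun _ hN _ hs => lam_max8 hN hs⟩

end Vale.Agent.P146.R3.H49.Lam
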