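import Vale.Agent.P146.R3.H49.Pnc
import Vale.Agent.P146.R3.H732.Clt2

/-!
# P146: the smoothed free energy is asymptotically a linear statistic of the eigenvalues
-/

open Matrix Finset MeasureTheory ProbabilityTheory Filter Topology

namespace Vale.Agent.P146.R3.H49

open Vale.Agent.P146 Vale.Agent.P146.Ub.Cv Vale.Agent.P146.H605 Vale.Agent.P146.H453
  Vale.Agent.P146.R2 Vale.Agent.P146.R3.H732

section fin

variable {n : ℕ} {β : ℝ} {w : ℕ → ℝ} {C t : ℝ}

/-- the distance of the kernels -/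
theorem err_le (hn : 1 ≤ n) (hC : 0 ≤ C) (h0 : 0 ≤ t) (h1 : t ≤ 1)
    (hw : ∀ k, w (k + 1) ^ 2 ≤ C * t ^ k) (m : ℕ → ℝ) {L M : ℕ} (hL : L ≤ M + 1) :
    nn (fun j v z => GG' (n := n) β w M j v z - Bk m w L j v z) ≤
      2 * (C * (n * crossOverlap n β t - RP n β t L)) +
      4 * (2 ^ L * ∑ k ∈ range L, (w (k + 1) * (pp n β k - m k)) ^ 2 *
        ((n.descFactorial (k + 1) : ℝ) / n ^ (k + 1))) +
      4 * (2 ^ L * ∑ k ∈ range L, (w (k + 1) * m k) ^ 2 *
        nn (fun (j v : Fin n) z => saw k j v z - ch k j v z)) := by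
  have e1 : ∀ (j v : Fin n) (z : Pair n → ℝ), GG' (n := n) β w M j v z - Bk m w L j v z =
      (GG' β w M j v z - AA β w L j v z) +
        ((∑ k ∈ range L, (w (k + 1) * (pp n β k - m k)) * saw k j v z) +
          ∑ k ∈ range L, (w (k + 1) * m k) * (saw k j v z - ch k j v z)) := by
    intro j v z
    rw [AA_eq hn]
    unfold Bk
    rw [← Finset.sum_add_distrib, sub_add, ← Finset.sum_sub_distrib]
    congr 1
    refine Finset.sum_congr rfl fun k _ => ?_
    ring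
  simp_rw [e1]
  have dG : ∀ j v : Fin n, Dom (fun z => GG' β w M j v z - AA β w L j v z) := fun j v =>
    (dom_GG' β w M j v).sub (dom_AA β w L j v)
  have dS : ∀ j v : Fin n, Dom (fun z =>
      ∑ k ∈ range L, (w (k + 1) * (pp n β k - m k)) * saw k j v z) := fun j v =>
    Dom.sum _ fun k _ => (dom_saw k j v).const_mul _
  have dD : ∀ j v : Fin n, Dom (fun z =>
      ∑ k ∈ range L, (w (k + 1) * m k) * (saw k j v z - ch k j v z)) := fun j v =>
    Dom.sum _ fun k _ => ((dom_saw k j v).sub (dom_ch k j v)).const_mul _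
  have h2 := nn_add_le dG (fun j v => (dS j v).add (dD j v))
  have h3 := nn_add_le dS dD
  have h4 := nn_diff_le (n := n) (β := β) hn hC h0 h1 hw hL
  have h5 := nn_sum_le (n := n) (fun k => w (k + 1) * (pp n β k - m k))
    (f := fun k j v => saw k j v) (fun k j v => dom_saw k j v) L
  have h6 := nn_sum_le (n := n) (fun k => w (k + 1) * m k)
    (f := fun k j v z => saw k j v z - ch k j v z)
    (fun k j v => (dom_saw k j v).sub (dom_ch k j v)) L
  simp_rw [nn_saw] at h5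
  linarith

end fin

section lim

variable {β : ℝ} {m : ℕ → ℝ}

/-- **A weighted free energy is asymptotically a linear statistic.** -/
theorem lin_gen (hT : ChebLim) (hP : ∀ k, Tendsto (fun n => pn' β n k) atTop (𝓝 (m k)))
    {t : ℝ} (h0 : 0 ≤ t) (h1 : t ≤ 1)
    (hs : Summable fun k : ℕ => t ^ k * m k ^ 2)
    (hX : Tendsto (fun n : ℕ => n * crossOverlap n β t) atTop (𝓝 (∑' k : ℕ, t ^ k * m k ^ 2)))
    {w : ℕ → ℝ} {C : ℝ} (hC : 0 ≤ C) (hw : ∀ k, w (k + 1) ^ 2 ≤ C * t ^ k)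
    {ε : ℝ} (hε : 0 < ε) : ∃ L₀ : ℕ, ∀ L : ℕ, L₀ ≤ L → ∀ᶠ n : ℕ in atTop, ∀ M : ℕ, L ≤ M →
      ∫ z, (hp ((ML n (M + 1)).erase 0) (cw n β w) z -
        (LS β m w L z - ∫ y, LS β m w L y ∂(gpi (Pair n)))) ^ 2 ∂(gpi (Pair n)) ≤ ε := by
  obtain ⟨X, hXd⟩ : ∃ X, X = ∑' k : ℕ, t ^ k * m k ^ 2 := ⟨_, rfl⟩
  rw [← hXd] at hX
  have tl1 : Tendsto (fun L : ℕ => ∑ k ∈ range L, t ^ k * m k ^ 2) atTop (𝓝 X) := by
    rw [hXd]
    exact hs.hasSum.tendsto_sum_nat
  have tl2 : Tendsto (fun L : ℕ => β ^ 2 * (2 * (C * (X - ∑ k ∈ range L, t ^ k * m k ^ 2))))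
      atTop (𝓝 (β ^ 2 * (2 * (C * (X - X))))) :=
    (((tendsto_const_nhds.sub tl1).const_mul _).const_mul _).const_mul _
  rw [sub_self, mul_zero, mul_zero, mul_zero] at tl2
  obtain ⟨L₀, hL₀⟩ := eventually_atTop.1 (tl2.eventually (gt_mem_nhds hε))
  refine ⟨L₀, fun L hL => ?_⟩
  have hL1 := hL₀ (L + 1) (by omega)
  have t1 : Tendsto (fun n : ℕ => ∑ k ∈ range (L + 1), (w (k + 1) * (pp n β k - m k)) ^ 2 *
        ((n.descFactorial (k + 1) : ℝ) / n ^ (k + 1))) atTop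
      (𝓝 (∑ k ∈ range (L + 1), (w (k + 1) * (m k - m k)) ^ 2 * 1)) :=
    tendsto_finsetSum _ fun k _ =>
      ((((tendsto_pp (hP k)).sub_const _).const_mul _).pow 2).mul (tendsto_desc k)
  have t2 : Tendsto (fun n : ℕ => ∑ k ∈ range (L + 1), (w (k + 1) * m k) ^ 2 *
        nn (fun (j v : Fin n) z => saw k j v z - ch k j v z)) atTop
      (𝓝 (∑ k ∈ range (L + 1), (w (k + 1) * m k) ^ 2 * 0)) :=
    tendsto_finsetSum _ fun k _ => (tendsto_nn_diff hT k).const_mul _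
  simp only [sub_self, mul_zero, ne_eq, OfNat.ofNat_ne_zero, not_false_eq_true, zero_pow,
    zero_mul, Finset.sum_const_zero] at t1 t2
  have t3 : Tendsto (fun n : ℕ => 2 * (C * (n * crossOverlap n β t - RP n β t (L + 1)))) atTop
      (𝓝 (2 * (C * (X - ∑ k ∈ range (L + 1), t ^ k * m k ^ 2)))) :=
    ((hX.sub (tendsto_RP hP t (L + 1))).const_mul _).const_mul _
  have t4 := (((t3.add ((t1.const_mul (2 ^ (L + 1))).const_mul 4)).add
    ((t2.const_mul (2 ^ (L + 1))).const_mul 4)).const_mul (β ^ 2))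
  simp only [mul_zero, add_zero] at t4
  filter_upwards [t4.eventually (gt_mem_nhds hL1), eventually_ge_atTop 1] with n hn1 hn M hM
  refine (dist_le hn β m w L M).trans (le_trans ?_ hn1.le)
  refine mul_le_mul_of_nonneg_left ?_ (sq_nonneg _)
  exact err_le hn hC h0 h1 hw m (by omega)

lemma tendsto_err2 (β : ℝ) (L : ℕ) : Tendsto (fun n : ℕ =>
    β ^ 2 * n / (2 * (((L + n ^ 2 : ℕ) : ℝ) + 2))) atTop (𝓝 0) := by
  have h2 : Tendsto (fun n : ℕ => β ^ 2 / 2 / (n : ℝ)) atTop (𝓝 0) :=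
    tendsto_const_nhds.div_atTop tendsto_natCast_atTop_atTop
  refine squeeze_zero' (Eventually.of_forall fun n => by positivity) ?_ h2
  filter_upwards [eventually_ge_atTop 1] with n hn
  have hn0 : (0 : ℝ) < n := by exact_mod_cast hn
  rw [div_le_div_iff₀ (by positivity) hn0]
  push_cast
  have hL : (0 : ℝ) ≤ L := Nat.cast_nonneg L
  have hb : 0 ≤ β ^ 2 := sq_nonneg β
  nlinarith [mul_nonneg hb hL]

/-- the linear statistic for the correlation `t` -/
noncomputable def Lam (β : ℝ) (m : ℕ → ℝ) (t : ℝ) (L n : ℕ) (z : Pair n → ℝ) : ℝ :=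
  ∑ k ∈ range L, β * m (k + 1) * Real.sqrt t ^ (k + 2) / (2 * ((k : ℝ) + 2)) * ls k z

lemma dom_Lam (β : ℝ) (m : ℕ → ℝ) (t : ℝ) (L n : ℕ) : Dom (Lam β m t L n) :=
  Dom.sum _ fun k _ => (dom_ls k).const_mul _

/-- **The smoothed free energy is asymptotically a linear statistic of the eigenvalues.** -/
theorem lin_stat (hm : ∀ k, |m k| ≤ k + 1)
    (hT : ChebLim) (hP : ∀ k, Tendsto (fun n => pn' β n k) atTop (𝓝 (m k)))
    (hX : ∀ t : ℝ, 0 ≤ t → t < 1 →
      Tendsto (fun n : ℕ => n * crossOverlap n β t) atTop (𝓝 (∑' k : ℕ, t ^ k * m k ^ 2)))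
    {t : ℝ} (h0 : 0 ≤ t) (h1 : t < 1) {ε : ℝ} (hε : 0 < ε) :
    ∃ L₀ : ℕ, ∀ L : ℕ, L₀ ≤ L → ∀ᶠ n : ℕ in atTop,
      ∫ z, (TT (freeEnergy n β) t z - ∫ g, freeEnergy n β g ∂(gpi (Pair n)) -
        (Lam β m t L n z - ∫ y, Lam β m t L n y ∂(gpi (Pair n)))) ^ 2 ∂(gpi (Pair n)) ≤ ε := by
  have hw : ∀ k : ℕ, (fun k => Real.sqrt t ^ k) (k + 1) ^ 2 ≤ 1 * t ^ k := by
    intro k
    simp only
    rw [← pow_mul, mul_comm, pow_mul, Real.sq_sqrt h0, one_mul, pow_succ]
    have : 0 ≤ t ^ k := by positivity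
    nlinarith
  obtain ⟨L₀, hL₀⟩ := lin_gen hT hP h0 h1.le (summable_m hm h0 h1) (hX t h0 h1) zero_le_one hw
    (ε := ε / 4) (by positivity)
  refine ⟨L₀, fun L hL => ?_⟩
  filter_upwards [hL₀ L hL, (tendsto_err2 β L).eventually (gt_mem_nhds
    (show (0 : ℝ) < ε / 4 by positivity)), eventually_ge_atTop 1] with n h2 h3 hn
  have h4 := h2 (L + n ^ 2) (by omega)
  have h5 := (smooth_approx (β := β) hn h0 h1.le (L + n ^ 2)).trans h3.le
  have dF := freeEnergy_dom n β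
  have dP : Dom (hp ((ML n (L + n ^ 2 + 1)).erase 0) (cw n β fun k => Real.sqrt t ^ k)) :=
    dom_hp _ _
  have dL := dom_Lam β m t L n
  have eL : ∀ z, LS (n := n) β m (fun k => Real.sqrt t ^ k) L z = Lam β m t L n z := fun z => rfl
  simp_rw [eL] at h4
  obtain ⟨E, hE⟩ : ∃ E, E = ∫ g, freeEnergy n β g ∂(gpi (Pair n)) := ⟨_, rfl⟩
  obtain ⟨E', hE'⟩ : ∃ E', E' = ∫ y, Lam β m t L n y ∂(gpi (Pair n)) := ⟨_, rfl⟩
  rw [← hE] at h5 ⊢
  rw [← hE'] at h4 ⊢
  have iT := TT_int dF h0 h1.le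
  have iT2 := TT_sq_int dF h0 h1.le
  have i1 : Integrable (fun z => (TT (freeEnergy n β) t z - E -
      hp ((ML n (L + n ^ 2 + 1)).erase 0) (cw n β fun k => Real.sqrt t ^ k) z) ^ 2)
      (gpi (Pair n)) := by
    have hM : MemLp (fun z => TT (freeEnergy n β) t z) 2 (gpi (Pair n)) :=
      (memLp_two_iff_integrable_sq iT.1).2 iT2
    have hP' : MemLp (fun z => E + hp ((ML n (L + n ^ 2 + 1)).erase 0)
        (cw n β fun k => Real.sqrt t ^ k) z) 2 (gpi (Pair n)) :=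
      (memLp_two_iff_integrable_sq ((Dom.const E).add dP).integrable.1).2
        (((Dom.const E).add dP).pow 2).integrable
    have h6 := (hM.sub hP').integrable_sq
    refine h6.congr (Eventually.of_forall fun z => ?_)
    simp only [Pi.sub_apply]
    ring
  have i2 : Integrable (fun z => (hp ((ML n (L + n ^ 2 + 1)).erase 0)
      (cw n β fun k => Real.sqrt t ^ k) z - (Lam β m t L n z - E')) ^ 2) (gpi (Pair n)) :=
    ((dP.sub (dL.sub (Dom.const E'))).pow 2).integrable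
  have h6 : ∫ z, (TT (freeEnergy n β) t z - E - (Lam β m t L n z - E')) ^ 2 ∂(gpi (Pair n)) ≤
      ∫ z, (2 * (TT (freeEnergy n β) t z - E -
        hp ((ML n (L + n ^ 2 + 1)).erase 0) (cw n β fun k => Real.sqrt t ^ k) z) ^ 2 +
        2 * (hp ((ML n (L + n ^ 2 + 1)).erase 0)
      (cw n β fun k => Real.sqrt t ^ k) z - (Lam β m t L n z - E')) ^ 2) ∂(gpi (Pair n)) := by
    refine integral_mono_of_nonneg (Eventually.of_forall fun z => sq_nonneg _)
      ((i1.const_mul 2).add (i2.const_mul 2)) (Eventually.of_forall fun z => ?_)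
    simp only
    nlinarith [sq_nonneg ((TT (freeEnergy n β) t z - E -
      hp ((ML n (L + n ^ 2 + 1)).erase 0) (cw n β fun k => Real.sqrt t ^ k) z) -
      (hp ((ML n (L + n ^ 2 + 1)).erase 0)
      (cw n β fun k => Real.sqrt t ^ k) z - (Lam β m t L n z - E')))]
  rw [integral_add (i1.const_mul 2) (i2.const_mul 2), integral_const_mul, integral_const_mul] at h6
  linarith

/-- the projection of the free energy onto the Hermite level `k` -/
noncomputable def proj (n : ℕ) (β : ℝ) (k : ℕ) (z : Pair n → ℝ) : ℝ :=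
  ∑ α ∈ (ML n k).filter (fun α => H453.tot α = k),
    (∫ g, freeEnergy n β g * heM α g ∂(gpi (Pair n))) / (∏ e, ((α e).factorial : ℝ)) * heM α z

lemma proj_eq (n : ℕ) (β : ℝ) (k M : ℕ) (hk : k + 1 ≤ M) (z : Pair n → ℝ) :
    hp ((ML n (M + 1)).erase 0) (cw n β fun i => if i = k + 2 then 1 else 0) z =
      proj n β (k + 2) z := by
  unfold hp proj
  have hsub : (ML n (k + 2)).filter (fun α => H453.tot α = k + 2) ⊆ (ML n (M + 1)).erase 0 := by
    intro α hα
    rw [Finset.mem_filter, mem_ML] at hα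
    rw [Finset.mem_erase, mem_ML]
    refine ⟨?_, by omega⟩
    rintro rfl
    have := hα.2
    rw [tot_zero'] at this
    omega
  rw [← Finset.sum_subset hsub]
  · refine Finset.sum_congr rfl fun α hα => ?_
    rw [Finset.mem_filter] at hα
    unfold cw
    beta_reduce
    rw [if_pos hα.2, one_mul]
    rfl
  · intro α hα hα2
    unfold cw
    beta_reduce
    rw [if_neg, zero_mul, zero_div, zero_mul]
    intro h
    apply hα2
    rw [Finset.mem_filter, mem_ML]
    exact ⟨h.le, h⟩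

/-- **Every Hermite level of the free energy is asymptotically a linear statistic.** -/
theorem lin_level (hm : ∀ k, |m k| ≤ k + 1)
    (hT : ChebLim) (hP : ∀ k, Tendsto (fun n => pn' β n k) atTop (𝓝 (m k)))
    (hX : ∀ t : ℝ, 0 ≤ t → t < 1 →
      Tendsto (fun n : ℕ => n * crossOverlap n β t) atTop (𝓝 (∑' k : ℕ, t ^ k * m k ^ 2)))
    (k : ℕ) : Tendsto (fun n : ℕ =>
      ∫ z, (proj n β (k + 2) z - β * m (k + 1) / (2 * ((k : ℝ) + 2)) *
        (ls k z - ∫ y, ls k y ∂(gpi (Pair n)))) ^ 2 ∂(gpi (Pair n))) atTop (𝓝 0) := by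
  obtain ⟨w, hw⟩ : ∃ w : ℕ → ℝ, w = fun i => if i = k + 2 then 1 else 0 := ⟨_, rfl⟩
  have hw1 : ∀ i : ℕ, w (i + 1) ^ 2 ≤ 2 ^ (k + 1) * (1 / 2 : ℝ) ^ i := by
    intro i
    rw [hw]
    simp only
    split_ifs with h
    · have : i = k + 1 := by omega
      rw [this, ← mul_pow]
      norm_num
    · rw [zero_pow two_ne_zero]
      positivity
  rw [Metric.tendsto_atTop]
  intro ε hε
  obtain ⟨L₀, hL₀⟩ := lin_gen hT hP (t := 1 / 2) (by norm_num) (by norm_num)
    (summable_m hm (by norm_num) (by norm_num)) (hX (1 / 2) (by norm_num) (by norm_num))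
    (by positivity) hw1 (half_pos hε)
  obtain ⟨N, hN⟩ := eventually_atTop.1 (hL₀ (max L₀ (k + 1)) (le_max_left _ _))
  refine ⟨N, fun n hn => ?_⟩
  have h1 := hN n hn (max L₀ (k + 1)) le_rfl
  have e1 : ∀ z : Pair n → ℝ, LS β m w (max L₀ (k + 1)) z =
      β * m (k + 1) / (2 * ((k : ℝ) + 2)) * ls k z := by
    intro z
    unfold LS
    rw [Finset.sum_eq_single k]
    · rw [hw]
      simp
    · intro i _ hi
      rw [hw]
      simp only
      rw [if_neg (by omega)]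
      simp
    · intro h
      exfalso
      apply h
      rw [Finset.mem_range]
      have := le_max_right L₀ (k + 1)
      omega
  have e2 : ∀ z : Pair n → ℝ, hp ((ML n (max L₀ (k + 1) + 1)).erase 0) (cw n β w) z =
      proj n β (k + 2) z := by
    intro z
    rw [hw]
    exact proj_eq n β k _ (le_max_right _ _) z
  simp_rw [e1, e2, integral_const_mul, ← mul_sub] at h1
  have h2 : 0 ≤ ∫ z, (proj n β (k + 2) z - β * m (k + 1) / (2 * ((k : ℝ) + 2)) *
        (ls k z - ∫ y, ls k y ∂(gpi (Pair n)))) ^ 2 ∂(gpi (Pair n)) :=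
    integral_nonneg fun z => sq_nonneg _
  rw [Real.dist_eq, sub_zero, abs_of_nonneg h2]
  linarith

end lim

end Vale.Agent.P146.R3.H49
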