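import Vale.Agent.P146.R3.H49.Inv

/-!
# P146, N5a: the derivative of the R-transform of the law of `β x + 2 s U_k(x)` at `s = 0`,
uniformly in the argument
-/

open MeasureTheory Set Filter Topology Vale.Agent.P166

namespace Vale.Agent.P146.R3.H49

variable {b s : ℝ} {k : ℕ}

lemma ae_le_sSup (b : ℝ) (k : ℕ) (s : ℝ) :
    ∀ᵐ x ∂sc, hs b k s x ≤ sSup (muS b k s).support := by
  have h : ∀ᵐ x ∂(muS b k s), x ≤ sSup (muS b k s).support := by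
    filter_upwards [Measure.support_mem_ae (μ := muS b k s)] with x hx
    exact le_csSup (isCompact_support b k s).bddAbove hx
  exact ae_of_ae_map (continuous_hs b k s).measurable.aemeasurable h

lemma measurable_inv_hs (b : ℝ) (k : ℕ) (s z : ℝ) : Measurable fun x => (z - hs b k s x)⁻¹ :=
  (measurable_const.sub (continuous_hs b k s).measurable).inv

lemma integrable_inv_hs {z : ℝ} (hz : sSup (muS b k s).support < z) :
    Integrable (fun x => (z - hs b k s x)⁻¹) sc := by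
  refine Integrable.of_bound (measurable_inv_hs b k s z).aestronglyMeasurable
    (z - sSup (muS b k s).support)⁻¹ ?_
  filter_upwards [ae_le_sSup b k s] with x hx
  have h1 : 0 < z - sSup (muS b k s).support := by linarith
  have h2 : z - sSup (muS b k s).support ≤ z - hs b k s x := by linarith
  rw [Real.norm_eq_abs, abs_of_pos (inv_pos.2 (h1.trans_le h2))]
  exact inv_anti₀ h1 h2

/-- the three integrals against `1/(ζ-x)` and `1/(ζ-x)²` -/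
lemma integral_comb {w : ℝ} (hw : 0 < w) (hw1 : w < 1) (k : ℕ) (α γ δ : ℝ) :
    Integrable (fun x => α * (chR 0 x * (w + w⁻¹ - x)⁻¹) +
      γ * (chR 0 x * ((w + w⁻¹ - x)⁻¹) ^ 2) + δ * (chR k x * ((w + w⁻¹ - x)⁻¹) ^ 2)) sc ∧
    ∫ x, (α * (chR 0 x * (w + w⁻¹ - x)⁻¹) +
      γ * (chR 0 x * ((w + w⁻¹ - x)⁻¹) ^ 2) + δ * (chR k x * ((w + w⁻¹ - x)⁻¹) ^ 2)) ∂sc =
      α * w + (γ + δ * ((k + 1) * w ^ k)) * (w ^ 2 / (1 - w ^ 2)) := by
  have hz := zeta_gt hw hw1 rfl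
  have i1 := (integrable_A 0 hz).const_mul α
  have i2 := (integrable_B 0 hz).const_mul γ
  have i3 := (integrable_B k hz).const_mul δ
  have i12 : Integrable (fun x => α * (chR 0 x * (w + w⁻¹ - x)⁻¹) +
      γ * (chR 0 x * ((w + w⁻¹ - x)⁻¹) ^ 2)) sc := i1.add i2
  refine ⟨i12.add i3, ?_⟩
  rw [integral_add i12 i3, integral_add i1 i2, integral_const_mul, integral_const_mul,
    integral_const_mul, integral_A hw hw1 rfl, integral_B hw hw1 rfl, integral_B hw hw1 rfl]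
  push_cast
  ring

/-- lower bound: convexity of `u ↦ 1/u` -/
lemma lower_int (hb : 0 < b) {w : ℝ} (hw : 0 < w) (hw1 : w < 1) {z : ℝ}
    (hz : z ∈ SS b k s (w / b)) : b * (w + w⁻¹) + 2 * s * ((k + 1) * w ^ k) ≤ z := by
  obtain ⟨hz1, hz2⟩ := hz
  rw [integral_muS] at hz2
  have h2 := zeta_gt hw hw1 rfl
  obtain ⟨hi, hI⟩ := integral_comb hw hw1 k b⁻¹ (-((z - b * (w + w⁻¹)) * (b⁻¹) ^ 2))
    (2 * s * (b⁻¹) ^ 2)
  have h3 : ∫ x, (b⁻¹ * (chR 0 x * (w + w⁻¹ - x)⁻¹) +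
      -((z - b * (w + w⁻¹)) * (b⁻¹) ^ 2) * (chR 0 x * ((w + w⁻¹ - x)⁻¹) ^ 2) +
      2 * s * (b⁻¹) ^ 2 * (chR k x * ((w + w⁻¹ - x)⁻¹) ^ 2)) ∂sc ≤
      ∫ x, (z - hs b k s x)⁻¹ ∂sc := by
    apply integral_mono_ae hi (integrable_inv_hs hz1)
    filter_upwards [sc_ae, ae_le_sSup b k s] with x hx hx2
    have hu : 0 < z - hs b k s x := by linarith
    have hD : 0 < b * (w + w⁻¹ - x) := mul_pos hb (by linarith [hx.2])
    set D := b * (w + w⁻¹ - x) with hDdef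
    set u := z - hs b k s x with hudef
    have e1 : b⁻¹ * (chR 0 x * (w + w⁻¹ - x)⁻¹) +
      -((z - b * (w + w⁻¹)) * (b⁻¹) ^ 2) * (chR 0 x * ((w + w⁻¹ - x)⁻¹) ^ 2) +
      2 * s * (b⁻¹) ^ 2 * (chR k x * ((w + w⁻¹ - x)⁻¹) ^ 2) = D⁻¹ - (u - D) * (D⁻¹) ^ 2 := by
      rw [hDdef, hudef, mul_inv, chR_zero]
      unfold hs
      ring
    show b⁻¹ * (chR 0 x * (w + w⁻¹ - x)⁻¹) +
      -((z - b * (w + w⁻¹)) * (b⁻¹) ^ 2) * (chR 0 x * ((w + w⁻¹ - x)⁻¹) ^ 2) +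
      2 * s * (b⁻¹) ^ 2 * (chR k x * ((w + w⁻¹ - x)⁻¹) ^ 2) ≤ u⁻¹
    rw [e1]
    have e2 : u⁻¹ - (D⁻¹ - (u - D) * (D⁻¹) ^ 2) = (u - D) ^ 2 / (u * D ^ 2) := by
      field_simp
      ring
    have e3 : 0 ≤ (u - D) ^ 2 / (u * D ^ 2) := by positivity
    linarith
  rw [hI] at h3
  have h4 := h3.trans hz2
  have hP : 0 < w ^ 2 / (1 - w ^ 2) := by
    apply div_pos (by positivity)
    nlinarith
  have h5 : (-((z - b * (w + w⁻¹)) * (b⁻¹) ^ 2) + 2 * s * (b⁻¹) ^ 2 * ((k + 1) * w ^ k)) *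
      (w ^ 2 / (1 - w ^ 2)) ≤ 0 := by
    have : b⁻¹ * w = w / b := by rw [div_eq_mul_inv]; ring
    linarith
  have h6 : -((z - b * (w + w⁻¹)) * (b⁻¹) ^ 2) + 2 * s * (b⁻¹) ^ 2 * ((k + 1) * w ^ k) ≤ 0 := by
    by_contra hc
    rw [not_le] at hc
    exact absurd h5 (not_le.2 (mul_pos hc hP))
  have h7 : (b * (w + w⁻¹) + 2 * s * ((k + 1) * w ^ k) - z) * (b⁻¹) ^ 2 ≤ 0 := by
    calc _ = -((z - b * (w + w⁻¹)) * (b⁻¹) ^ 2) + 2 * s * (b⁻¹) ^ 2 * ((k + 1) * w ^ k) := by ring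
      _ ≤ 0 := h6
  have h8 : 0 < (b⁻¹) ^ 2 := by positivity
  by_contra hc
  rw [not_le] at hc
  exact absurd h7 (not_le.2 (mul_pos (by linarith) h8))

/-- upper bound -/
lemma upper_int (hb : 0 < b) {w : ℝ} (hw : 0 < w) (hw1 : w < 1) {e : ℝ} (he : 0 < e)
    (h1 : ∀ x ∈ Icc (-2 : ℝ) 2, |2 * s * ((k + 1) * w ^ k - chR k x)| ≤
      b * (w + w⁻¹ - x) / 4)
    (h2 : ∀ x ∈ Icc (-2 : ℝ) 2, (2 * s * ((k + 1) * w ^ k - chR k x)) ^ 2 ≤
      e / 4 * (b * (w + w⁻¹ - x)))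
    (h3 : ∀ x ∈ Icc (-2 : ℝ) 2, hs b k s x ≤ hs b k s 2) :
    stInv (muS b k s) (w / b) ≤ b * (w + w⁻¹) + 2 * s * ((k + 1) * w ^ k) + e := by
  have hzeta := zeta_gt hw hw1 rfl
  apply stInv_le
  have hu : ∀ x ∈ Icc (-2 : ℝ) 2, 3 / 4 * (b * (w + w⁻¹ - x)) + e ≤
      b * (w + w⁻¹) + 2 * s * ((k + 1) * w ^ k) + e - hs b k s x := by
    intro x hx
    have h4 := (abs_le.1 (h1 x hx)).1
    have e1 : b * (w + w⁻¹) + 2 * s * ((k + 1) * w ^ k) + e - hs b k s x =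
        b * (w + w⁻¹ - x) + 2 * s * ((k + 1) * w ^ k - chR k x) + e := by
      unfold hs; ring
    rw [e1]; linarith
  apply SS_mem
  · rw [sSup_support h3]
    have h5 := hu 2 ⟨by norm_num, le_rfl⟩
    have h6 : 0 < b * (w + w⁻¹ - 2) := mul_pos hb (by linarith)
    linarith
  · obtain ⟨hi, hI⟩ := integral_comb hw hw1 k b⁻¹ (-(2 * s * ((k + 1) * w ^ k) * (b⁻¹) ^ 2))
      (2 * s * (b⁻¹) ^ 2)
    have h4 : ∫ x, (b * (w + w⁻¹) + 2 * s * ((k + 1) * w ^ k) + e - hs b k s x)⁻¹ ∂sc ≤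
        ∫ x, (b⁻¹ * (chR 0 x * (w + w⁻¹ - x)⁻¹) +
          -(2 * s * ((k + 1) * w ^ k) * (b⁻¹) ^ 2) * (chR 0 x * ((w + w⁻¹ - x)⁻¹) ^ 2) +
          2 * s * (b⁻¹) ^ 2 * (chR k x * ((w + w⁻¹ - x)⁻¹) ^ 2)) ∂sc := by
      refine integral_mono_ae ?_ hi ?_
      · refine integrable_sc (measurable_inv_hs b k s _) (C := e⁻¹) fun x hx => ?_
        have h5 := hu x hx
        have hD : 0 < b * (w + w⁻¹ - x) := mul_pos hb (by linarith [hx.2])
        have h6 : e ≤ b * (w + w⁻¹) + 2 * s * ((k + 1) * w ^ k) + e - hs b k s x := by linarith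
        rw [abs_of_pos (inv_pos.2 (he.trans_le h6))]
        exact inv_anti₀ he h6
      · filter_upwards [sc_ae] with x hx
        have h5 := hu x hx
        have hD : 0 < b * (w + w⁻¹ - x) := mul_pos hb (by linarith [hx.2])
        have g1 := h1 x hx
        have g2 := h2 x hx
        have e0 : b * (w + w⁻¹) + 2 * s * ((k + 1) * w ^ k) + e - hs b k s x =
          b * (w + w⁻¹ - x) + 2 * s * ((k + 1) * w ^ k - chR k x) + e := by
          unfold hs; ring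
        set D := b * (w + w⁻¹ - x) with hDdef
        set a := 2 * s * ((k + 1) * w ^ k - chR k x) with hadef
        have e1 : b⁻¹ * (chR 0 x * (w + w⁻¹ - x)⁻¹) +
          -(2 * s * ((k + 1) * w ^ k) * (b⁻¹) ^ 2) * (chR 0 x * ((w + w⁻¹ - x)⁻¹) ^ 2) +
          2 * s * (b⁻¹) ^ 2 * (chR k x * ((w + w⁻¹ - x)⁻¹) ^ 2) = D⁻¹ - a * (D⁻¹) ^ 2 := by
          rw [hDdef, hadef, mul_inv, chR_zero]
          ring
        show (b * (w + w⁻¹) + 2 * s * ((k + 1) * w ^ k) + e - hs b k s x)⁻¹ ≤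
          b⁻¹ * (chR 0 x * (w + w⁻¹ - x)⁻¹) +
          -(2 * s * ((k + 1) * w ^ k) * (b⁻¹) ^ 2) * (chR 0 x * ((w + w⁻¹ - x)⁻¹) ^ 2) +
          2 * s * (b⁻¹) ^ 2 * (chR k x * ((w + w⁻¹ - x)⁻¹) ^ 2)
        rw [e1, e0]
        have hu' : 0 < D + a + e := by
          rw [e0] at h5; linarith
        have e2 : D⁻¹ - a * (D⁻¹) ^ 2 - (D + a + e)⁻¹ =
            (D * e - a ^ 2 - a * e) / ((D + a + e) * D ^ 2) := by
          field_simp
          ring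
        have e3 : 0 ≤ D * e - a ^ 2 - a * e := by
          have : a * e ≤ D / 4 * e := mul_le_mul_of_nonneg_right ((le_abs_self a).trans g1) he.le
          nlinarith
        have e4 : 0 ≤ (D * e - a ^ 2 - a * e) / ((D + a + e) * D ^ 2) := by positivity
        linarith
    refine h4.trans (le_of_eq ?_)
    rw [hI, div_eq_mul_inv]
    ring

end Vale.Agent.P146.R3.H49
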