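import Vale.Agent.P146.R3.H49.TrW
import Vale.Agent.P146.R3.H732.Appr
import Vale.Agent.P146.Bdl.B2

/-!
# P146: the distance of a level of the free energy to a linear statistic
-/

open Matrix Finset MeasureTheory ProbabilityTheory

namespace Vale.Agent.P146.R3.H49

open Vale.Agent.P146 Vale.Agent.P146.Ub.Cv Vale.Agent.P146.H605 Vale.Agent.P146.H453
  Vale.Agent.P146.R2 Vale.Agent.P146.R3.H732
open Vale.Agent.P146.R2.H432 (cheb WW dom_cheb dom_WW WW_symm)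

section gen

variable {ι : Type} [Fintype ι] [DecidableEq ι]

omit [DecidableEq ι] in
lemma dom_EG {f : (ι → ℝ) → ℝ} (hf : Dom f) : Vale.Agent.P157.Lv.EG f := by
  obtain ⟨C, c, hC, hc, hb⟩ := hf.bound
  refine ⟨hf.cont.measurable, C, c * Fintype.card ι, hC, by positivity, fun g =>
    (hb g).trans ?_⟩
  refine mul_le_mul_of_nonneg_left (Real.exp_le_exp.2 ?_) hC
  rw [mul_assoc]
  refine mul_le_mul_of_nonneg_left ?_ hc
  calc ∑ i, |g i| ≤ ∑ _i : ι, ‖g‖ := Finset.sum_le_sum fun i _ => norm_le_pi_norm g i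
    _ = (Fintype.card ι : ℝ) * ‖g‖ := by simp

/-- the Gaussian Poincaré inequality -/
theorem poincare {f : (ι → ℝ) → ℝ} {f' : ι → (ι → ℝ) → ℝ} (hf : Dom f)
    (hf' : ∀ e, Dom (f' e)) (hd : ∀ (e : ι) (g : ι → ℝ) (t : ℝ),
      HasDerivAt (fun t => f (Function.update g e t)) (f' e (Function.update g e t)) t) :
    ∫ z, (f z - ∫ w, f w ∂(gpi ι)) ^ 2 ∂(gpi ι) ≤ ∑ e, ∫ z, f' e z ^ 2 ∂(gpi ι) :=
  Vale.Agent.P157.Lv.cc_var_le_one (dom_EG hf) (fun e y x => hd e y x) fun e => dom_EG (hf' e)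

end gen

variable {n : ℕ}

lemma ch_eq (k : ℕ) (e : Pair n) (z : Pair n → ℝ) :
    ch k e.1.2 e.1.1 z = cheb k (WW z) e.1.1 e.1.2 := rfl

lemma ch_zero_off (e : Pair n) (z : Pair n → ℝ) : ch 0 e.1.2 e.1.1 z = 0 := by
  rw [ch_eq, cheb_zero, Matrix.one_apply_ne]
  exact (e.2 : e.1.1 < e.1.2).ne

/-- the linear statistic -/
noncomputable def LS (β : ℝ) (m w : ℕ → ℝ) (L : ℕ) (z : Pair n → ℝ) : ℝ :=
  ∑ k ∈ range L, β * m (k + 1) * w (k + 2) / (2 * ((k : ℝ) + 2)) * ls k z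

lemma dom_LS (β : ℝ) (m w : ℕ → ℝ) (L : ℕ) : Dom (LS (n := n) β m w L) :=
  Dom.sum _ fun k _ => (dom_ls k).const_mul _

/-- the kernel of the linear statistic -/
noncomputable def Bk (m w : ℕ → ℝ) (L : ℕ) (j v : Fin n) (z : Pair n → ℝ) : ℝ :=
  ∑ k ∈ range L, w (k + 1) * m k * ch k j v z

lemma dom_Bk (m w : ℕ → ℝ) (L : ℕ) (j v : Fin n) : Dom (Bk m w L j v) :=
  Dom.sum _ fun k _ => (dom_ch k j v).const_mul _

lemma LS_deriv (β : ℝ) (m w : ℕ → ℝ) (L : ℕ) (e : Pair n) (g : Pair n → ℝ) (t : ℝ) :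
    HasDerivAt (fun t => LS β m w L (Function.update g e t))
      (β / Real.sqrt n * Bk m w (L + 1) e.1.2 e.1.1 (Function.update g e t)) t := by
  have h1 := HasDerivAt.fun_sum (u := range L) (A := fun k t =>
      β * m (k + 1) * w (k + 2) / (2 * ((k : ℝ) + 2)) * ls k (Function.update g e t))
    (x := t) fun k _ => (ls_deriv k g e t).const_mul
      (β * m (k + 1) * w (k + 2) / (2 * ((k : ℝ) + 2)))
  refine h1.congr_deriv ?_
  unfold Bk
  rw [Finset.sum_range_succ', ch_zero_off, mul_zero, add_zero, Finset.mul_sum]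
  refine Finset.sum_congr rfl fun k _ => ?_
  rw [ch_eq]
  have h2 : ((k : ℝ) + 2) ≠ 0 := by positivity
  field_simp

/-- the sum over the pairs -/
lemma sum_pair_le (a : Fin n → Fin n → ℝ) (ha : ∀ j v, 0 ≤ a j v) :
    ∑ e : Pair n, a e.1.2 e.1.1 ≤ ∑ j, ∑ v, a j v := by
  have h := Vale.Agent.P150.sum_pairs a
  rw [h, Finset.sum_add_distrib]
  have h1 : 0 ≤ ∑ p : Vale.Agent.P150.Pairs n, a p.1.1 p.1.2 :=
    Finset.sum_nonneg fun p _ => ha _ _
  have h2 : 0 ≤ ∑ i, a i i := Finset.sum_nonneg fun i _ => ha _ _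
  have h3 : ∑ e : Pair n, a e.1.2 e.1.1 = ∑ p : Vale.Agent.P150.Pairs n, a p.1.2 p.1.1 := rfl
  rw [h3]
  linarith

lemma int_hp_zero {S : Finset (MI n)} (h0 : (0 : MI n) ∉ S) (c : MI n → ℝ) :
    ∫ z, hp S c z ∂(gpi (Pair n)) = 0 := by
  unfold hp
  rw [int_sum _ fun α _ => (H749.dom_heM α).const_mul _]
  refine Finset.sum_eq_zero fun α hα => ?_
  rw [integral_const_mul, H749.int_heM, if_neg, mul_zero]
  rintro rfl
  exact h0 hα

/-- **The distance to the linear statistic.** -/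
theorem dist_le (hn : 1 ≤ n) (β : ℝ) (m w : ℕ → ℝ) (L M : ℕ) :
    ∫ z, (hp ((ML n (M + 1)).erase 0) (cw n β w) z -
      (LS β m w L z - ∫ y, LS β m w L y ∂(gpi (Pair n)))) ^ 2 ∂(gpi (Pair n)) ≤
      β ^ 2 * nn (fun j v z => GG' (n := n) β w M j v z - Bk m w (L + 1) j v z) := by
  have hn0 : (0 : ℝ) < n := by exact_mod_cast hn
  obtain ⟨Φ, hΦ⟩ : ∃ Φ, Φ = hp ((ML n (M + 1)).erase 0) (cw n β w) := ⟨_, rfl⟩
  have dΦ : Dom Φ := by rw [hΦ]; exact dom_hp _ _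
  have dL := dom_LS (n := n) β m w L
  have h0 : (0 : MI n) ∉ (ML n (M + 1)).erase 0 := Finset.notMem_erase _ _
  have e0 : ∫ z, (Φ z - LS β m w L z) ∂(gpi (Pair n)) = -∫ y, LS β m w L y ∂(gpi (Pair n)) := by
    rw [int_sub dΦ dL, hΦ, int_hp_zero h0]
    ring
  have h1 := poincare (f := fun z => Φ z - LS β m w L z)
    (f' := fun e z => β / Real.sqrt n * (GG' β w M e.1.2 e.1.1 z - Bk m w (L + 1) e.1.2 e.1.1 z))
    (dΦ.sub dL) (fun e => ((dom_GG' β w M _ _).sub (dom_Bk m w _ _ _)).const_mul _)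
    (fun e g t => by
      have h2 := hp_deriv ((ML n (M + 1)).erase 0) (cw n β w) e g t
      rw [dhp_cw, ← hΦ] at h2
      refine (h2.sub (LS_deriv β m w L e g t)).congr_deriv ?_
      ring)
  rw [e0] at h1
  have e1 : ∀ z, (Φ z - LS β m w L z - -∫ y, LS β m w L y ∂(gpi (Pair n))) ^ 2 =
      (Φ z - (LS β m w L z - ∫ y, LS β m w L y ∂(gpi (Pair n)))) ^ 2 := fun z => by ring
  simp_rw [e1] at h1
  rw [← hΦ]
  refine h1.trans ?_
  have e2 : ∀ e : Pair n, ∫ z, (β / Real.sqrt n * (GG' β w M e.1.2 e.1.1 z -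
      Bk m w (L + 1) e.1.2 e.1.1 z)) ^ 2 ∂(gpi (Pair n)) =
      β ^ 2 / n * ∫ z, (GG' β w M e.1.2 e.1.1 z - Bk m w (L + 1) e.1.2 e.1.1 z) ^ 2
        ∂(gpi (Pair n)) := by
    intro e
    rw [← integral_const_mul]
    refine integral_congr_ae (Filter.Eventually.of_forall fun z => ?_)
    simp only
    rw [mul_pow, div_pow, Real.sq_sqrt hn0.le]
  rw [Finset.sum_congr rfl fun e _ => e2 e, ← Finset.mul_sum]
  unfold nn
  rw [← mul_assoc, ← div_eq_mul_inv]
  refine mul_le_mul_of_nonneg_left ?_ (by positivity)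
  exact sum_pair_le (fun j v => ∫ z, (GG' β w M j v z - Bk m w (L + 1) j v z) ^ 2
        ∂(gpi (Pair n))) fun j v => integral_nonneg fun z => sq_nonneg _

/-! ### the norm of the difference of the kernels -/

lemma nn_mono_dom {a b : Fin n → Fin n → (Pair n → ℝ) → ℝ} (ha : ∀ j v, Dom (a j v))
    (hb : ∀ j v, Dom (b j v)) (C : ℝ) (h : ∀ j v z, a j v z ^ 2 ≤ C * b j v z ^ 2) :
    nn a ≤ C * nn b := by
  unfold nn
  rw [mul_left_comm]
  refine mul_le_mul_of_nonneg_left ?_ (by positivity)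
  rw [Finset.mul_sum]
  refine Finset.sum_le_sum fun j _ => ?_
  rw [Finset.mul_sum]
  refine Finset.sum_le_sum fun v _ => ?_
  rw [← integral_const_mul]
  exact int_mono ((ha j v).pow 2) (((hb j v).pow 2).const_mul _) fun z => h j v z

lemma nn_add_le {a b : Fin n → Fin n → (Pair n → ℝ) → ℝ} (ha : ∀ j v, Dom (a j v))
    (hb : ∀ j v, Dom (b j v)) : nn (fun j v z => a j v z + b j v z) ≤ 2 * nn a + 2 * nn b := by
  unfold nn
  rw [mul_left_comm, mul_left_comm 2, ← mul_add]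
  refine mul_le_mul_of_nonneg_left ?_ (by positivity)
  rw [Finset.mul_sum, Finset.mul_sum, ← Finset.sum_add_distrib]
  refine Finset.sum_le_sum fun j _ => ?_
  rw [Finset.mul_sum, Finset.mul_sum, ← Finset.sum_add_distrib]
  refine Finset.sum_le_sum fun v _ => ?_
  rw [← integral_const_mul, ← integral_const_mul,
    ← int_add (((ha j v).pow 2).const_mul _) (((hb j v).pow 2).const_mul _)]
  refine int_mono (((ha j v).add (hb j v)).pow 2)
    ((((ha j v).pow 2).const_mul _).add (((hb j v).pow 2).const_mul _)) fun z => ?_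
  nlinarith [sq_nonneg (a j v z - b j v z)]

lemma nn_smul {a : Fin n → Fin n → (Pair n → ℝ) → ℝ} (x : ℝ) :
    nn (fun j v z => x * a j v z) = x ^ 2 * nn a := by
  unfold nn
  have h1 : ∀ j v : Fin n, ∫ z, (x * a j v z) ^ 2 ∂(gpi (Pair n)) =
      x ^ 2 * ∫ z, a j v z ^ 2 ∂(gpi (Pair n)) := by
    intro j v
    rw [← integral_const_mul]
    refine integral_congr_ae (Filter.Eventually.of_forall fun z => ?_)
    simp only
    ring
  simp_rw [h1, ← Finset.mul_sum]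
  ring

lemma nn_sum_le (x : ℕ → ℝ) {f : ℕ → Fin n → Fin n → (Pair n → ℝ) → ℝ}
    (hf : ∀ k j v, Dom (f k j v)) (L : ℕ) :
    nn (fun j v z => ∑ k ∈ range L, x k * f k j v z) ≤
      2 ^ L * ∑ k ∈ range L, x k ^ 2 * nn (f k) := by
  induction L with
  | zero => simp [nn]
  | succ L ih =>
    simp only [Finset.sum_range_succ]
    have h1 := nn_add_le (a := fun j v z => ∑ k ∈ range L, x k * f k j v z)
      (b := fun j v z => x L * f L j v z)
      (fun j v => Dom.sum _ fun k _ => (hf k j v).const_mul _)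
      (fun j v => (hf L j v).const_mul _)
    rw [nn_smul] at h1
    refine h1.trans ?_
    have h2 : 0 ≤ x L ^ 2 * nn (f L) := mul_nonneg (sq_nonneg _) (nn_nonneg _)
    have h3 : (1 : ℝ) ≤ 2 ^ L := one_le_pow₀ (by norm_num)
    have h4 : x L ^ 2 * nn (f L) ≤ 2 ^ L * (x L ^ 2 * nn (f L)) := by nlinarith
    calc _ ≤ 2 * nn (fun j v z => ∑ k ∈ range L, x k * f k j v z) +
          2 * (x L ^ 2 * nn (f L)) := le_rfl
      _ ≤ 2 * (2 ^ L * ∑ k ∈ range L, x k ^ 2 * nn (f k)) +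
          2 * (2 ^ L * (x L ^ 2 * nn (f L))) := by linarith
      _ = 2 ^ (L + 1) * (∑ k ∈ range L, x k ^ 2 * nn (f k) + x L ^ 2 * nn (f L)) := by ring

end Vale.Agent.P146.R3.H49
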