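import Vale.Agent.P146.R3.H49.SC

/-!
# P146, N5a: the Stieltjes transform of the semicircle law against Chebyshev polynomials
-/

open MeasureTheory Set Filter Topology

namespace Vale.Agent.P146.R3.H49

lemma chR_growth {w ζ : ℝ} (hw : 0 < w) (hζ : ζ = w + w⁻¹) (k : ℕ) :
    1 ≤ chR k ζ * w ^ k := by
  have h1 : ∀ k : ℕ, chR (k + 1) ζ - w⁻¹ * chR k ζ = w ^ (k + 1) := by
    intro k
    induction k with
    | zero => simp [hζ]
    | succ k ih =>
      rw [chR_succ_succ]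
      have : ζ * chR (k + 1) ζ - chR k ζ - w⁻¹ * chR (k + 1) ζ =
          w * (chR (k + 1) ζ - w⁻¹ * chR k ζ) := by
        rw [hζ]; field_simp; ring
      rw [this, ih]; ring
  induction k with
  | zero => simp
  | succ k ih =>
    have h2 : chR (k + 1) ζ = w⁻¹ * chR k ζ + w ^ (k + 1) := by linarith [h1 k]
    rw [h2]
    have h3 : (w⁻¹ * chR k ζ + w ^ (k + 1)) * w ^ (k + 1) =
        chR k ζ * w ^ k + (w ^ (k + 1)) ^ 2 := by
      field_simp
      ring
    rw [h3]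
    nlinarith [sq_nonneg (w ^ (k + 1))]

/-- a polynomially bounded solution of the Chebyshev recursion outside `[-2,2]` vanishes -/
lemma rec_zero {w ζ : ℝ} (hw : 0 < w) (hw1 : w < 1) (hζ : ζ = w + w⁻¹) (d : ℕ → ℝ)
    (h1 : d 1 = ζ * d 0) (h2 : ∀ j, d (j + 2) = ζ * d (j + 1) - d j) {C : ℝ}
    (hb : ∀ j, |d j| ≤ C * (j + 1)) (j : ℕ) : d j = 0 := by
  have h3 : ∀ j, d j = d 0 * chR j ζ ∧ d (j + 1) = d 0 * chR (j + 1) ζ := by
    intro j
    induction j with
    | zero => exact ⟨by simp, by rw [zero_add, h1, chR_one]; ring⟩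
    | succ j ih =>
      refine ⟨ih.2, ?_⟩
      rw [h2, ih.1, ih.2, chR_succ_succ]; ring
  have h4 : ∀ j : ℕ, |d 0| ≤ C * ((j : ℝ) * w ^ j + w ^ j) := by
    intro j
    have h5 := chR_growth hw hζ j
    have h6 : |d 0| ≤ |d j| * w ^ j := by
      rw [(h3 j).1, abs_mul, mul_assoc]
      have h7 : 1 ≤ |chR j ζ| * w ^ j := by
        refine h5.trans ?_
        gcongr
        exact le_abs_self _
      nlinarith [abs_nonneg (d 0)]
    refine h6.trans ?_
    calc |d j| * w ^ j ≤ C * (j + 1) * w ^ j := by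
          gcongr
          exact hb j
      _ = _ := by ring
  have h5 : Tendsto (fun j : ℕ => C * ((j : ℝ) * w ^ j + w ^ j)) atTop (𝓝 (C * (0 + 0))) := by
    apply Tendsto.const_mul
    apply Tendsto.add
    · exact tendsto_self_mul_const_pow_of_lt_one hw.le hw1
    · exact tendsto_pow_atTop_nhds_zero_of_lt_one hw.le hw1
  have h6 : |d 0| ≤ C * (0 + 0) := ge_of_tendsto' h5 h4
  have h7 : d 0 = 0 := by
    apply abs_eq_zero.1
    apply le_antisymm _ (abs_nonneg _)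
    simpa using h6
  rw [(h3 j).1, h7, zero_mul]

/-- bounded functions of the semicircle variable are integrable -/
lemma integrable_sc {f : ℝ → ℝ} (hf : Measurable f) {C : ℝ}
    (hb : ∀ x ∈ Icc (-2 : ℝ) 2, |f x| ≤ C) : Integrable f sc := by
  refine Integrable.of_bound hf.aestronglyMeasurable C ?_
  filter_upwards [sc_ae] with x hx
  rw [Real.norm_eq_abs]; exact hb x hx

lemma abs_integral_sc_le {f : ℝ → ℝ} {C : ℝ}
    (hb : ∀ x ∈ Icc (-2 : ℝ) 2, |f x| ≤ C) : |∫ x, f x ∂sc| ≤ C := by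
  have h := norm_integral_le_of_norm_le_const (μ := sc) (f := f) (C := C) (by
    filter_upwards [sc_ae] with x hx
    rw [Real.norm_eq_abs]; exact hb x hx)
  simpa using h

variable {w ζ : ℝ}

lemma zeta_gt (hw : 0 < w) (hw1 : w < 1) (hζ : ζ = w + w⁻¹) : 2 < ζ := by
  rw [hζ]
  have h : w + w⁻¹ - 2 = (1 - w) ^ 2 / w := by field_simp; ring
  have : 0 < (1 - w) ^ 2 / w := by
    apply div_pos _ hw
    have : 0 < 1 - w := by linarith
    positivity
  linarith

lemma measurable_A (k : ℕ) (z : ℝ) : Measurable fun x => chR k x * (z - x)⁻¹ :=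
  (continuous_chR k).measurable.mul ((measurable_const.sub measurable_id).inv)

lemma measurable_B (k : ℕ) (z : ℝ) : Measurable fun x => chR k x * ((z - x)⁻¹) ^ 2 :=
  (continuous_chR k).measurable.mul (((measurable_const.sub measurable_id).inv).pow_const 2)

lemma abs_A_le (k : ℕ) {z : ℝ} (hz : 2 < z) {x : ℝ} (hx : x ∈ Icc (-2 : ℝ) 2) :
    |chR k x * (z - x)⁻¹| ≤ (z - 2)⁻¹ * (k + 1) := by
  have h1 := abs_chR_le k hx
  have h2 : 0 < z - 2 := by linarith
  have h3 : 0 < z - x := by linarith [hx.2]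
  rw [abs_mul, abs_of_pos (inv_pos.2 h3), mul_comm]
  have h4 : (z - x)⁻¹ ≤ (z - 2)⁻¹ := inv_anti₀ h2 (by linarith [hx.2])
  gcongr

lemma abs_B_le (k : ℕ) {z : ℝ} (hz : 2 < z) {x : ℝ} (hx : x ∈ Icc (-2 : ℝ) 2) :
    |chR k x * ((z - x)⁻¹) ^ 2| ≤ ((z - 2)⁻¹) ^ 2 * (k + 1) := by
  have h1 := abs_chR_le k hx
  have h2 : 0 < z - 2 := by linarith
  have h3 : 0 < z - x := by linarith [hx.2]
  have h4 : (z - x)⁻¹ ≤ (z - 2)⁻¹ := inv_anti₀ h2 (by linarith [hx.2])
  have h5 : 0 < (z - x)⁻¹ := inv_pos.2 h3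
  rw [abs_mul, abs_of_pos (pow_pos h5 2), mul_comm]
  gcongr

lemma integrable_A (k : ℕ) {z : ℝ} (hz : 2 < z) :
    Integrable (fun x => chR k x * (z - x)⁻¹) sc :=
  integrable_sc (measurable_A k z) fun _ hx => abs_A_le k hz hx

lemma integrable_B (k : ℕ) {z : ℝ} (hz : 2 < z) :
    Integrable (fun x => chR k x * ((z - x)⁻¹) ^ 2) sc :=
  integrable_sc (measurable_B k z) fun _ hx => abs_B_le k hz hx

lemma integrable_chR (k : ℕ) : Integrable (fun x => chR k x) sc :=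
  integrable_sc (continuous_chR k).measurable fun _ hx => abs_chR_le k hx

/-- `∫ U_k(x) / (ζ - x) = w^(k+1)` -/
theorem integral_A (hw : 0 < w) (hw1 : w < 1) (hζ : ζ = w + w⁻¹) (k : ℕ) :
    ∫ x, chR k x * (ζ - x)⁻¹ ∂sc = w ^ (k + 1) := by
  have hz := zeta_gt hw hw1 hζ
  set A : ℕ → ℝ := fun k => ∫ x, chR k x * (ζ - x)⁻¹ ∂sc with hA
  have hA0 : A 1 = ζ * A 0 - 1 := by
    have h1 : ∀ᵐ x ∂sc, chR 1 x * (ζ - x)⁻¹ = ζ * (chR 0 x * (ζ - x)⁻¹) - 1 := by
      filter_upwards [sc_ae] with x hx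
      have h3 : ζ - x ≠ 0 := by linarith [hx.2]
      simp only [chR_one, chR_zero]
      field_simp; ring
    simp only [hA]
    rw [integral_congr_ae h1, integral_sub ((integrable_A 0 hz).const_mul ζ) (integrable_const _),
      integral_const_mul]
    simp
  have hArec : ∀ j, A (j + 2) = ζ * A (j + 1) - A j := by
    intro j
    have h1 : ∀ᵐ x ∂sc, chR (j + 2) x * (ζ - x)⁻¹ =
        ζ * (chR (j + 1) x * (ζ - x)⁻¹) - chR j x * (ζ - x)⁻¹ - chR (j + 1) x := by
      filter_upwards [sc_ae] with x hx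
      have h3 : ζ - x ≠ 0 := by linarith [hx.2]
      rw [chR_succ_succ]
      field_simp; ring
    simp only [hA]
    have i1 : Integrable (fun a => ζ * (chR (j + 1) a * (ζ - a)⁻¹) - chR j a * (ζ - a)⁻¹) sc :=
      ((integrable_A (j + 1) hz).const_mul ζ).sub (integrable_A j hz)
    rw [integral_congr_ae h1, integral_sub i1 (integrable_chR _),
      integral_sub ((integrable_A (j + 1) hz).const_mul ζ)
      (integrable_A j hz), integral_const_mul, integral_chR, if_neg (by omega), sub_zero]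
  have h := rec_zero hw hw1 hζ (fun j => A j - w ^ (j + 1))
    (by
      simp only [zero_add, pow_one]
      rw [hA0, hζ]; field_simp; ring)
    (by
      intro j
      rw [hArec, hζ]; field_simp; ring)
    (C := (ζ - 2)⁻¹ + 1)
    (by
      intro j
      have h1 : |A j| ≤ (ζ - 2)⁻¹ * (j + 1) :=
        abs_integral_sc_le fun x hx => abs_A_le j hz hx
      have h2 : |w ^ (j + 1)| ≤ 1 := by
        rw [abs_of_pos (pow_pos hw _)]
        exact pow_le_one₀ hw.le hw1.le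
      calc |A j - w ^ (j + 1)| ≤ |A j| + |w ^ (j + 1)| := abs_sub _ _
        _ ≤ (ζ - 2)⁻¹ * (j + 1) + 1 := by linarith
        _ ≤ _ := by
          have : (0 : ℝ) ≤ j := Nat.cast_nonneg j
          nlinarith)
    k
  linarith

/-- `∫ U_k(x) / (ζ - x)^2 = (k+1) w^(k+2) / (1 - w^2)` -/
theorem integral_B (hw : 0 < w) (hw1 : w < 1) (hζ : ζ = w + w⁻¹) (k : ℕ) :
    ∫ x, chR k x * ((ζ - x)⁻¹) ^ 2 ∂sc = (k + 1) * w ^ (k + 2) / (1 - w ^ 2) := by
  have hz := zeta_gt hw hw1 hζ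
  have hw2 : 1 - w ^ 2 ≠ 0 := by nlinarith
  set B : ℕ → ℝ := fun k => ∫ x, chR k x * ((ζ - x)⁻¹) ^ 2 ∂sc with hB
  have hB0 : B 1 = ζ * B 0 - w := by
    have h1 : ∀ᵐ x ∂sc, chR 1 x * ((ζ - x)⁻¹) ^ 2 =
        ζ * (chR 0 x * ((ζ - x)⁻¹) ^ 2) - chR 0 x * (ζ - x)⁻¹ := by
      filter_upwards [sc_ae] with x hx
      have h3 : ζ - x ≠ 0 := by linarith [hx.2]
      simp only [chR_one, chR_zero]
      field_simp; ring
    simp only [hB]
    rw [integral_congr_ae h1, integral_sub ((integrable_B 0 hz).const_mul ζ) (integrable_A 0 hz),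
      integral_const_mul, integral_A hw hw1 hζ]
    simp
  have hBrec : ∀ j, B (j + 2) = ζ * B (j + 1) - B j - w ^ (j + 2) := by
    intro j
    have h1 : ∀ᵐ x ∂sc, chR (j + 2) x * ((ζ - x)⁻¹) ^ 2 =
        ζ * (chR (j + 1) x * ((ζ - x)⁻¹) ^ 2) - chR j x * ((ζ - x)⁻¹) ^ 2 -
          chR (j + 1) x * (ζ - x)⁻¹ := by
      filter_upwards [sc_ae] with x hx
      have h3 : ζ - x ≠ 0 := by linarith [hx.2]
      rw [chR_succ_succ]
      field_simp; ring
    simp only [hB]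
    have i1 : Integrable (fun a => ζ * (chR (j + 1) a * ((ζ - a)⁻¹) ^ 2) -
        chR j a * ((ζ - a)⁻¹) ^ 2) sc :=
      ((integrable_B (j + 1) hz).const_mul ζ).sub (integrable_B j hz)
    rw [integral_congr_ae h1, integral_sub i1 (integrable_A _ hz),
      integral_sub ((integrable_B (j + 1) hz).const_mul ζ)
      (integrable_B j hz), integral_const_mul, integral_A hw hw1 hζ]
  have hpos : 0 < 1 - w ^ 2 := by nlinarith
  have h := rec_zero hw hw1 hζ (fun j => B j - (j + 1) * w ^ (j + 2) / (1 - w ^ 2))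
    (by
      simp only [Nat.cast_zero, Nat.cast_one, zero_add]
      rw [hB0, hζ]; field_simp; ring)
    (by
      intro j
      rw [hBrec, hζ]; push_cast; field_simp; ring)
    (C := ((ζ - 2)⁻¹) ^ 2 + (1 - w ^ 2)⁻¹)
    (by
      intro j
      have h1 : |B j| ≤ ((ζ - 2)⁻¹) ^ 2 * (j + 1) :=
        abs_integral_sc_le fun x hx => abs_B_le j hz hx
      have h2 : |((j : ℝ) + 1) * w ^ (j + 2) / (1 - w ^ 2)| ≤ (1 - w ^ 2)⁻¹ * ((j : ℝ) + 1) := by
        have h3 : w ^ (j + 2) ≤ 1 := pow_le_one₀ hw.le hw1.le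
        have h4 : 0 < w ^ (j + 2) := pow_pos hw _
        have h5 : (0 : ℝ) ≤ j := Nat.cast_nonneg j
        rw [abs_of_nonneg (by positivity), div_eq_mul_inv, mul_comm]
        gcongr
        nlinarith
      calc |B j - ((j : ℝ) + 1) * w ^ (j + 2) / (1 - w ^ 2)| ≤
            |B j| + |((j : ℝ) + 1) * w ^ (j + 2) / (1 - w ^ 2)| := abs_sub _ _
        _ ≤ ((ζ - 2)⁻¹) ^ 2 * ((j : ℝ) + 1) + (1 - w ^ 2)⁻¹ * ((j : ℝ) + 1) := add_le_add h1 h2
        _ = _ := by ring)
    k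
  linarith

end Vale.Agent.P146.R3.H49
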