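import Vale.Agent.P146.R2.H432.Cheb

/-!
# P146: the derivative of the trace of Chebyshev polynomials of a symmetric matrix
-/

open Matrix Finset

namespace Vale.Agent.P146.R3.H49

open Vale.Agent.P146.R2.H432 (cheb)

variable {n : ℕ}

/-- the derivative of `U_k(A)` in the direction `E` -/
def DM (A E : Matrix (Fin n) (Fin n) ℝ) : ℕ → Matrix (Fin n) (Fin n) ℝ
  | 0 => 0
  | 1 => E
  | k + 2 => E * cheb (k + 1) A + A * DM A E (k + 1) - DM A E k

/-- `U_k'(A)` -/
def VM (A : Matrix (Fin n) (Fin n) ℝ) : ℕ → Matrix (Fin n) (Fin n) ℝ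
  | 0 => 0
  | 1 => 1
  | k + 2 => cheb (k + 1) A + A * VM A (k + 1) - VM A k

lemma cheb_zero (A : Matrix (Fin n) (Fin n) ℝ) : cheb 0 A = 1 := by rw [cheb]
lemma cheb_one (A : Matrix (Fin n) (Fin n) ℝ) : cheb 1 A = A := by rw [cheb]
lemma cheb_succ (k : ℕ) (A : Matrix (Fin n) (Fin n) ℝ) :
    cheb (k + 2) A = A * cheb (k + 1) A - cheb k A := by rw [cheb]

lemma commute_cheb {A B : Matrix (Fin n) (Fin n) ℝ} (h : Commute A B) (k : ℕ) :
    Commute (cheb k A) B := by
  have key : ∀ k, Commute (cheb k A) B ∧ Commute (cheb (k + 1) A) B := by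
    intro k
    induction k with
    | zero => exact ⟨by rw [cheb_zero]; exact Commute.one_left B, by rw [zero_add, cheb_one]; exact h⟩
    | succ k ih =>
      refine ⟨ih.2, ?_⟩
      rw [cheb_succ]
      exact (h.mul_left ih.2).sub_left ih.1
  exact (key k).1

lemma commute_VM {A B : Matrix (Fin n) (Fin n) ℝ} (h : Commute A B) (k : ℕ) :
    Commute (VM A k) B := by
  have key : ∀ k, Commute (VM A k) B ∧ Commute (VM A (k + 1)) B := by
    intro k
    induction k with
    | zero => exact ⟨by rw [VM]; exact Commute.zero_left B, by rw [zero_add, VM]; exact Commute.one_left B⟩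
    | succ k ih =>
      refine ⟨ih.2, ?_⟩
      rw [VM]
      exact ((commute_cheb h (k + 1)).add_left (h.mul_left ih.2)).sub_left ih.1
  exact (key k).1

/-- the trace of the derivative against a matrix commuting with `A` -/
lemma trace_DM (A E : Matrix (Fin n) (Fin n) ℝ) (k : ℕ) :
    ∀ B : Matrix (Fin n) (Fin n) ℝ, Commute A B →
      trace (B * DM A E k) = trace (E * (VM A k * B)) := by
  have key : ∀ k, (∀ B : Matrix (Fin n) (Fin n) ℝ, Commute A B →
      trace (B * DM A E k) = trace (E * (VM A k * B))) ∧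
      (∀ B : Matrix (Fin n) (Fin n) ℝ, Commute A B →
      trace (B * DM A E (k + 1)) = trace (E * (VM A (k + 1) * B))) := by
    intro k
    induction k with
    | zero =>
      refine ⟨fun B _ => by simp [DM, VM], fun B _ => ?_⟩
      simp only [DM, VM, one_mul]
      exact Matrix.trace_mul_comm B E
    | succ k ih =>
      refine ⟨ih.2, fun B hB => ?_⟩
      have hBA : Commute A (B * A) := hB.mul_right (Commute.refl A)
      have h1 := ih.2 (B * A) hBA
      have h2 := ih.1 B hB
      have e1 : B * DM A E (k + 1 + 1) = B * (E * cheb (k + 1) A) + (B * A) * DM A E (k + 1) -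
          B * DM A E k := by
        rw [DM]; noncomm_ring
      have e2 : VM A (k + 1 + 1) * B = cheb (k + 1) A * B + VM A (k + 1) * (B * A) -
          VM A k * B := by
        rw [VM, sub_mul, add_mul]
        congr 2
        rw [← hB.eq, ← mul_assoc, (commute_VM (Commute.refl A) (k + 1)).eq]
      rw [e1, e2, trace_sub, trace_add, h1, h2, Matrix.mul_sub, Matrix.mul_add, trace_sub,
        trace_add]
      congr 2
      rw [Matrix.trace_mul_comm B, mul_assoc]
  exact (key k).1

/-- `U_{k+2}' - U_k' = (k+2) U_{k+1}` -/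
lemma VM_sub (A : Matrix (Fin n) (Fin n) ℝ) (k : ℕ) :
    VM A (k + 2) - VM A k = ((k : ℝ) + 2) • cheb (k + 1) A := by
  have key : ∀ k : ℕ, VM A (k + 2) - VM A k = ((k : ℝ) + 2) • cheb (k + 1) A ∧
      VM A (k + 3) - VM A (k + 1) = ((k : ℝ) + 3) • cheb (k + 2) A := by
    intro k
    induction k with
    | zero =>
      constructor
      · simp only [VM, cheb_one, zero_add, mul_one, sub_zero, Nat.cast_zero]
        rw [two_smul]
      · simp only [VM, cheb_one, zero_add, mul_one, sub_zero, Nat.cast_zero, cheb_succ, cheb_zero]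
        have : (3 : ℝ) • (A * A - 1) = (A * A - 1) + (A * A - 1) + (A * A - 1) := by
          rw [show (3 : ℝ) = 1 + 1 + 1 by norm_num, add_smul, add_smul, one_smul]
        rw [this]; noncomm_ring
    | succ k ih =>
      obtain ⟨h1, h2⟩ := ih
      refine ⟨by
        have e : ((k + 1 : ℕ) : ℝ) + 2 = (k : ℝ) + 3 := by push_cast; ring
        rw [e]; exact h2, ?_⟩
      have h3 : VM A (k + 1 + 3) = cheb (k + 3) A + A * VM A (k + 3) - VM A (k + 2) := by
        show VM A (k + 2 + 2) = _
        rw [VM]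
      have h4 : VM A (k + 1 + 1) = cheb (k + 1) A + A * VM A (k + 1) - VM A k := by
        show VM A (k + 2) = _
        rw [VM]
      have h5 : VM A (k + 1 + 3) - VM A (k + 1 + 1) = cheb (k + 3) A - cheb (k + 1) A +
          A * (VM A (k + 3) - VM A (k + 1)) - (VM A (k + 2) - VM A k) := by
        rw [h3, h4]; noncomm_ring
      rw [h5, h2, h1]
      have h6 : cheb (k + 3) A = A * cheb (k + 2) A - cheb (k + 1) A := cheb_succ (k + 1) A
      have h7 : cheb (k + 1 + 2) A = cheb (k + 3) A := rfl
      rw [h7]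
      have h8 : A * (((k : ℝ) + 3) • cheb (k + 2) A) = ((k : ℝ) + 3) • (cheb (k + 3) A +
          cheb (k + 1) A) := by
        rw [Matrix.mul_smul, h6]; congr 1; noncomm_ring
      rw [h8]
      push_cast
      module
  exact (key k).1

/-- the trace of the derivative of `U_{k+2} - U_k` -/
theorem trace_DM_sub (A E : Matrix (Fin n) (Fin n) ℝ) (k : ℕ) :
    trace (DM A E (k + 2)) - trace (DM A E k) = ((k : ℝ) + 2) * trace (E * cheb (k + 1) A) := by
  have h1 := trace_DM A E (k + 2) 1 (Commute.one_right A)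
  have h2 := trace_DM A E k 1 (Commute.one_right A)
  rw [one_mul, mul_one] at h1 h2
  rw [h1, h2, ← trace_sub, ← Matrix.mul_sub, VM_sub, Matrix.mul_smul, trace_smul, smul_eq_mul]

end Vale.Agent.P146.R3.H49
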