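import Mathlib
import Vale.Agent.P146.Bd5.B2

set_option linter.all false

/-!
# P146, R7: the transfer from the interpolating system to its base

If `H' = H + Y` where `Y` is linear in coordinates on which neither `H` nor the observable depend
and `top' ≥ top`, then `E' f ≤ exp (v / 2) E f` for `f ≥ 0`.
-/

open MeasureTheory ProbabilityTheory Filter Topology

namespace Vale.Agent.P146.R3.H49.Tr

set_option linter.unusedSectionVars false

open Vale.Agent.P157 Vale.Agent.P157.Lv Vale.Agent.P157.Lv.Sy Vale.Agent.P157.Lv.Fld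
open Vale.Agent.P157.Par (Path Exponents incr spinPart)
open Vale.Agent.P146.Ub Vale.Agent.P146.Ub.Ld

section gen

variable {ι X : Type} [Fintype ι] [DecidableEq ι] [Fintype X] [DecidableEq X] [Nonempty X]
  {S : Sy ι X} {H' : (ι → ℝ) → X → ℝ}

/-- `S.dn 0 · S.gb` in terms of the log-weights (summation by parts) -/
theorem dn_gb_eq (hS : S.Reg) (z : ι → ℝ) (x : X) :
    S.dn 0 z * S.gb z x = Real.exp (S.H z x - ∑ l ∈ Finset.range (S.K + 1), S.p l * S.lg l z) := by
  rw [gb_eq]
  unfold dn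
  rw [← Real.exp_add]
  congr 1
  have key : ∀ k ≤ S.K, ∑ i ∈ Finset.Ico 0 k, S.m (i + 1) * (S.lg (i + 1) z - S.lg i z) =
      S.m (k + 1) * S.lg k z - ∑ l ∈ Finset.range (k + 1), S.p l * S.lg l z := by
    intro k
    induction k with
    | zero =>
      intro _
      rw [Finset.Ico_self, Finset.sum_empty, Finset.sum_range_succ, Finset.sum_range_zero, Sy.p,
        hS.m0]
      ring
    | succ k ih =>
      intro hk
      rw [Finset.sum_Ico_succ_top (Nat.zero_le k), ih (by omega),
        Finset.sum_range_succ (n := k + 1)]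
      simp only [Sy.p]
      ring
  rw [key S.K le_rfl, hS.mK, lg_top S]
  ring

/-- the log-weights increase with the last one -/
theorem lg_mono (hS : S.Reg) (hS' : (S.wH H').Reg) (h : ∀ z, S.top z ≤ (S.wH H').top z) :
    ∀ l ≤ S.K, ∀ z, S.lg l z ≤ (S.wH H').lg l z := by
  refine down_ind (P := fun l => ∀ z, S.lg l z ≤ (S.wH H').lg l z) ?_ ?_
  · intro z
    have h1 : (S.wH H').lg S.K = (S.wH H').top := lg_top (S.wH H')
    rw [h1, lg_top S]
    exact h z
  · intro l hl ih z
    have hm : 0 < S.m (l + 1) := hS.m_pos (by omega) (by omega)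
    have h1 := hS.J_exp_lg hl z
    have h2 : J S.lev l (fun z => Real.exp (S.m (l + 1) * (S.wH H').lg (l + 1) z)) z =
        Real.exp (S.m (l + 1) * (S.wH H').lg l z) := hS'.J_exp_lg (l := l) hl z
    have h3 : Real.exp (S.m (l + 1) * S.lg l z) ≤ Real.exp (S.m (l + 1) * (S.wH H').lg l z) := by
      rw [← h1, ← h2]
      refine J_mono ((hS.lip_lg (l := l + 1) hl).exp_eg _)
        ((hS'.lip_lg (l := l + 1) hl).exp_eg _) (fun y => ?_) z
      exact Real.exp_le_exp.2 (mul_le_mul_of_nonneg_left (ih y) hm.le)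
    exact le_of_mul_le_mul_left (Real.exp_le_exp.1 h3) hm

/-- the density of the perturbed system -/
theorem dn_gb_le (hS : S.Reg) (hS' : (S.wH H').Reg) (h : ∀ z, S.top z ≤ (S.wH H').top z)
    (z : ι → ℝ) (x : X) :
    (S.wH H').dn 0 z * (S.wH H').gb z x ≤
      S.dn 0 z * S.gb z x * Real.exp (H' z x - S.H z x) := by
  rw [dn_gb_eq hS, dn_gb_eq hS', ← Real.exp_add, Real.exp_le_exp]
  have h1 : ∑ l ∈ Finset.range (S.K + 1), S.p l * S.lg l z ≤
      ∑ l ∈ Finset.range (S.K + 1), S.p l * (S.wH H').lg l z := by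
    refine Finset.sum_le_sum fun l hl => ?_
    have hl' : l ≤ S.K := by have := Finset.mem_range.1 hl; omega
    refine mul_le_mul_of_nonneg_left (lg_mono hS hS' h l hl' z) ?_
    rw [Sy.p]
    linarith [hS.mono l hl']
  have h2 : ∑ l ∈ Finset.range ((S.wH H').K + 1), (S.wH H').p l * (S.wH H').lg l z =
      ∑ l ∈ Finset.range (S.K + 1), S.p l * (S.wH H').lg l z := rfl
  have h3 : (S.wH H').H z x = H' z x := rfl
  rw [h2, h3]
  linarith

/-- the average of the perturbed system -/
theorem Ex_le (hS : S.Reg) (hS' : (S.wH H').Reg) (h : ∀ z, S.top z ≤ (S.wH H').top z)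
    {f : (ι → ℝ) → X → ℝ} (hf : Nh f) (hf0 : ∀ z x, 0 ≤ f z x) :
    (S.wH H').Ex f ≤ ∑ x, ∫ z, (S.dn 0 z * S.gb z x * f z x) *
      Real.exp (H' z x - S.H z x) ∂(gI ι) := by
  have eY : ∀ x, EG fun z => Real.exp (H' z x - S.H z x) := fun x => by
    have h1 := (hS.lip_diff hS' x).exp_eg 1
    simp only [one_mul] at h1
    exact h1
  have eg : ∀ x, EG fun z => S.gb z x := fun x => by
    have h1 := hS.eg_av (h := fun _ y => if y = x then (1 : ℝ) else 0)
      (Nh.snd fun y => if y = x then (1 : ℝ) else 0)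
    have h2 : S.av (fun _ y => if y = x then (1 : ℝ) else 0) = fun z => S.gb z x := by
      funext z
      simp [Sy.av]
    rwa [h2] at h1
  have e1 : ∀ x, EG fun z => (S.dn 0 z * S.gb z x * f z x) * Real.exp (H' z x - S.H z x) :=
    fun x => (((hS.eg_dn (Nat.zero_le _)).mul (eg x)).mul (hf x)).mul (eY x)
  rw [← integral_finsetSum _ fun x _ => (e1 x).integrable]
  unfold Ex
  have e2 : EG fun z => (S.wH H').dn 0 z * (S.wH H').av f z :=
    (hS'.eg_dn (Nat.zero_le _)).mul (hS'.eg_av hf)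
  refine integral_mono e2.integrable (EG.sum _ fun x _ => e1 x).integrable fun z => ?_
  show (S.wH H').dn 0 z * (S.wH H').av f z ≤
    ∑ x, (S.dn 0 z * S.gb z x * f z x) * Real.exp (H' z x - S.H z x)
  unfold Sy.av
  rw [Finset.mul_sum]
  refine Finset.sum_le_sum fun x _ => ?_
  have h1 := mul_le_mul_of_nonneg_right (dn_gb_le hS hS' h z x) (hf0 z x)
  linarith

/-- the exponential moment of a linear form -/
theorem int_exp_lin (v : ι → ℝ) :
    ∫ h, Real.exp (lin v h) ∂(gI ι) = Real.exp ((∑ i, v i ^ 2) / 2) := by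
  have e : (fun h : ι → ℝ => Real.exp (lin v h)) =
      fun h => ∏ i, (fun (i : ι) (y : ℝ) => Real.exp (v i * y)) i (h i) := by
    funext h
    unfold lin
    rw [Real.exp_sum]
  rw [e]
  have h1 := integral_fintype_prod_eq_prod (𝕜 := ℝ) (μ := fun _ : ι => gaussianReal 0 1)
    (fun (i : ι) (y : ℝ) => Real.exp (v i * y))
  have h2 : ∀ i, ∫ y, Real.exp (v i * y) ∂(gaussianReal 0 1) = Real.exp (v i ^ 2 / 2) := by
    intro i
    have h3 := mgf_gaussianReal (p := gaussianReal 0 1) (X := fun y => y) (μ := 0) (v := 1)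
      (by simp) (v i)
    rw [mgf] at h3
    rw [h3]
    simp
  rw [h1]
  simp only [h2]
  rw [← Real.exp_sum, Finset.sum_div]

/-- a function does not depend on the coordinates in `W` -/
def Off (W : ι → Prop) (h : (ι → ℝ) → ℝ) : Prop :=
  ∀ z w : ι → ℝ, (∀ e, ¬ W e → z e = w e) → h z = h w

/-- integration of the coordinates in `W` -/
theorem int_off {W : ι → Prop} {b : ι → ℝ} (hb : ∀ e, ¬ W e → b e = 0)
    {φ : (ι → ℝ) → ℝ} (hφ : EG φ) (hφW : Off W φ) :
    ∫ z, φ z * Real.exp (lin b z) ∂(gI ι) =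
      Real.exp ((∑ e, b e ^ 2) / 2) * ∫ z, φ z ∂(gI ι) := by
  classical
  obtain ⟨lev, hlev⟩ : ∃ lev : ι → ℕ, lev = fun e => if W e then 1 else 0 := ⟨_, rfl⟩
  have hl0 : ∀ e, ¬ W e → lev e ≤ 0 := fun e he => by rw [hlev]; simp [he]
  have hl1 : ∀ e, W e → ¬ lev e ≤ 0 := fun e he => by rw [hlev]; simp [he]
  have hdep : Dep lev 0 φ := by
    intro z w
    refine hφW _ _ fun e he => ?_
    unfold mix
    rw [if_pos (hl0 e he)]
  have hlin : Lip (fun z => lin b z) := by
    refine ⟨∑ e, |b e|, Finset.sum_nonneg fun e _ => abs_nonneg _, fun y y' => ?_⟩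
    rw [li2_lin_sub]
    exact li2_lin b (y - y')
  have hexp : EG (fun z => Real.exp (lin b z)) := by
    have h1 := hlin.exp_eg 1
    simp only [one_mul] at h1
    exact h1
  rw [← integral_J (lev := lev) (l := 0) (hφ.mul hexp)]
  have e1 : ∀ z, J lev 0 (fun z => φ z * Real.exp (lin b z)) z =
      Real.exp ((∑ e, b e ^ 2) / 2) * φ z := by
    intro z
    rw [hdep.J_mul]
    have e2 : J lev 0 (fun z => Real.exp (lin b z)) z = ∫ h, Real.exp (lin b h) ∂(gI ι) := by
      unfold J
      refine integral_congr_ae (Filter.Eventually.of_forall fun w => ?_)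
      have e3 : lin b (mix lev 0 z w) = lin b w := by
        unfold lin mix
        refine Finset.sum_congr rfl fun e _ => ?_
        by_cases he : W e
        · rw [if_neg (hl1 e he)]
        · rw [hb e he]
          ring
      show Real.exp (lin b (mix lev 0 z w)) = Real.exp (lin b w)
      rw [e3]
    rw [e2, int_exp_lin]
    ring
  simp only [e1]
  rw [integral_const_mul]

/-- **The transfer**, general form. -/
theorem tr_lin (hS : S.Reg) {b : X → ι → ℝ}
    (hS' : (S.wH fun z x => S.H z x + lin (b x) z).Reg) {W : ι → Prop}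
    (hb : ∀ x e, ¬ W e → b x e = 0) (hH : ∀ x, Off W fun z => S.H z x)
    (htop : ∀ z, S.top z ≤ (S.wH fun z x => S.H z x + lin (b x) z).top z) {v : ℝ}
    (hv : ∀ x, ∑ e, b x e ^ 2 ≤ v) {f : (ι → ℝ) → X → ℝ} (hf : Nh f)
    (hf0 : ∀ z x, 0 ≤ f z x) (hfW : ∀ x, Off W fun z => f z x) :
    (S.wH fun z x => S.H z x + lin (b x) z).Ex f ≤ Real.exp (v / 2) * S.Ex f := by
  refine (Ex_le hS hS' htop hf hf0).trans ?_
  have eg : ∀ x, EG fun z => S.gb z x := fun x => by
    have h1 := hS.eg_av (h := fun _ y => if y = x then (1 : ℝ) else 0)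
      (Nh.snd fun y => if y = x then (1 : ℝ) else 0)
    have h2 : S.av (fun _ y => if y = x then (1 : ℝ) else 0) = fun z => S.gb z x := by
      funext z
      simp [Sy.av]
    rwa [h2] at h1
  have e1 : ∀ x, EG fun z => S.dn 0 z * S.gb z x * f z x :=
    fun x => ((hS.eg_dn (Nat.zero_le _)).mul (eg x)).mul (hf x)
  -- the weights do not depend on `W`
  have hlg : ∀ l ≤ S.K, Off W (S.lg l) := by
    refine down_ind (P := fun l => Off W (S.lg l)) ?_ ?_
    · rw [lg_top]
      intro z w hzw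
      unfold top
      congr 1
      refine Finset.sum_congr rfl fun x _ => ?_
      congr 1
      exact hH x z w hzw
    · intro l hl ih
      rw [lg_step S hl]
      intro z w hzw
      unfold stp J
      congr 2
      refine integral_congr_ae (Filter.Eventually.of_forall fun y => ?_)
      show Real.exp (S.m (l + 1) * S.lg (l + 1) (mix S.lev l z y)) =
        Real.exp (S.m (l + 1) * S.lg (l + 1) (mix S.lev l w y))
      congr 2
      refine ih _ _ fun e he => ?_
      unfold mix
      split_ifs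
      · exact hzw e he
      · rfl
  have hφ : ∀ x, Off W fun z => S.dn 0 z * S.gb z x * f z x := by
    intro x z w hzw
    show S.dn 0 z * S.gb z x * f z x = S.dn 0 w * S.gb w x * f w x
    rw [dn_gb_eq hS, dn_gb_eq hS]
    have h1 : S.H z x = S.H w x := hH x z w hzw
    have h2 : f z x = f w x := hfW x z w hzw
    have h3 : ∑ l ∈ Finset.range (S.K + 1), S.p l * S.lg l z =
        ∑ l ∈ Finset.range (S.K + 1), S.p l * S.lg l w := by
      refine Finset.sum_congr rfl fun l hl => ?_
      rw [hlg l (by have := Finset.mem_range.1 hl; omega) z w hzw]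
    rw [h1, h2, h3]
  have e2 : ∀ x, ∫ z, (S.dn 0 z * S.gb z x * f z x) *
      Real.exp (S.H z x + lin (b x) z - S.H z x) ∂(gI ι) ≤
      Real.exp (v / 2) * ∫ z, S.dn 0 z * S.gb z x * f z x ∂(gI ι) := by
    intro x
    have h1 := int_off (hb x) (e1 x) (hφ x)
    have h2 : (fun z => (S.dn 0 z * S.gb z x * f z x) *
        Real.exp (S.H z x + lin (b x) z - S.H z x)) =
        fun z => (S.dn 0 z * S.gb z x * f z x) * Real.exp (lin (b x) z) := by
      funext z
      congr 2
      ring
    rw [h2, h1]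
    refine mul_le_mul_of_nonneg_right ?_ (integral_nonneg fun z => ?_)
    · exact Real.exp_le_exp.2 (by linarith [hv x])
    · exact mul_nonneg (mul_nonneg (S.dn_pos 0 z).le (S.gb_pos z x).le) (hf0 z x)
  refine (Finset.sum_le_sum fun x _ => e2 x).trans (le_of_eq ?_)
  rw [← Finset.mul_sum, ← integral_finsetSum _ fun x _ => (e1 x).integrable]
  unfold Ex
  congr 2
  funext z
  unfold Sy.av
  rw [Finset.mul_sum]
  refine Finset.sum_congr rfl fun x _ => ?_
  ring

end gen

/-! ### the SK systems -/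

section SK

variable {n K N d : ℕ} {m s R : ℕ → ℝ} {β θ : ℝ}

/-- the flip of the spin `i` -/
def flp (i : Fin n) (x : Fin n → Bool) : Fin n → Bool := Function.update x i (!x i)

theorem flp_invol (i : Fin n) : Function.Involutive (flp i) := by
  intro x
  unfold flp
  funext j
  by_cases h : j = i
  · subst h
    simp
  · simp [Function.update_of_ne h]

theorem spin_flp_self (i : Fin n) (x : Fin n → Bool) :
    Vale.Agent.P157.spin (flp i x) i = - Vale.Agent.P157.spin x i := by
  unfold flp Vale.Agent.P157.spin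
  cases h : x i <;> simp [h]

theorem spin_flp_of_ne {i j : Fin n} (h : j ≠ i) (x : Fin n → Bool) :
    Vale.Agent.P157.spin (flp i x) j = Vale.Agent.P157.spin x j := by
  unfold flp Vale.Agent.P157.spin
  rw [Function.update_of_ne h]

theorem sc_flp (hN : N < n) (x : Fin n → Bool) (e : RI n K) :
    (sc β N s : (Fin n → Bool) → RI n K → ℝ) (flp ⟨N, hN⟩ x) e = sc β N s x e := by
  show dsk N _ (flp ⟨N, hN⟩ x) e + fd N s (flp ⟨N, hN⟩ x) e = dsk N _ x e + fd N s x e
  rcases e with p | p | l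
  · rw [dsk_a, fd_a, dsk_a, fd_a]
    congr 1
    by_cases h : (p.1.2 : ℕ) < N
    · rw [if_pos h, if_pos h]
      have h2 : p.1.2 ≠ (⟨N, hN⟩ : Fin n) := fun h' => by rw [h'] at h; simp at h
      have h1 : p.1.1 ≠ (⟨N, hN⟩ : Fin n) := fun h' => by
        have h3 : p.1.1 < p.1.2 := p.2
        rw [h'] at h3
        have h4 : N < (p.1.2 : ℕ) := h3
        omega
      rw [spin_flp_of_ne h1, spin_flp_of_ne h2]
    · rw [if_neg h, if_neg h]
  · rw [dsk_b, fd_b, dsk_b, fd_b]
    congr 1
    by_cases h : (p.2 : ℕ) < N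
    · rw [if_pos h, if_pos h]
      have h2 : p.2 ≠ (⟨N, hN⟩ : Fin n) := fun h' => by rw [h'] at h; simp at h
      rw [spin_flp_of_ne h2]
    · rw [if_neg h, if_neg h]
  · rw [dsk_b, fd_c, dsk_b, fd_c]

theorem tre_flp (hN : N < n) (γ : ℝ) (x : Fin n → Bool) (e : RI n K) :
    (tre N γ R : (Fin n → Bool) → RI n K → ℝ) (flp ⟨N, hN⟩ x) e = - tre N γ R x e := by
  rcases e with p | p | l
  · rw [tre_a, tre_a, neg_zero]
  · rw [tre_b, tre_b, neg_zero]
  · rw [tre_c, tre_c]
    unfold Ub.sp
    rw [dif_pos hN, dif_pos hN, spin_flp_self]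
    ring

theorem cav_flp (hN : N < n) (γ : ℝ) (x : Fin n → Bool) (e : RI n K) :
    (cav N γ : (Fin n → Bool) → RI n K → ℝ) (flp ⟨N, hN⟩ x) e = - cav N γ x e := by
  rcases e with p | p
  · rw [cav_a, cav_a]
    by_cases h : (p.1.2 : ℕ) = N
    · rw [if_pos h, if_pos h]
      have h2 : p.1.2 = (⟨N, hN⟩ : Fin n) := Fin.ext h
      have h1 : p.1.1 ≠ (⟨N, hN⟩ : Fin n) := fun h' => by
        have h3 : p.1.1 < p.1.2 := p.2
        rw [h'] at h3
        have h4 : N < (p.1.2 : ℕ) := h3
        omega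
      rw [spin_flp_of_ne h1, h2, spin_flp_self]
      ring
    · rw [if_neg h, if_neg h, neg_zero]
  · rw [cav_b, cav_b, neg_zero]

/-- **The transfer** from the interpolating system to its base. -/
theorem ST_le_SC (hd : d ≤ K) (hN : N + 1 ≤ n) (h0 : 0 < N) (hm : Exponents K m)
    (hR : Path K R) (hR1 : R K ≤ 1) (s : ℕ → ℝ) (θ : ℝ)
    {f : (RI n K → ℝ) → (Fin n → Bool) → ℝ} (hf : Nh f) (hf0 : ∀ z x, 0 ≤ f z x)
    (hfd : ∀ z w x, (∀ p, z (Sum.inr (Sum.inl p)) = w (Sum.inr (Sum.inl p))) → f z x = f w x) :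
    (ST n K d m β N s R θ).Ex f ≤ Real.exp (β ^ 2 / 2) * (SC n K d m β N s).Ex f := by
  have hNn : N < n := by omega
  have hb2 : 0 ≤ β ^ 2 := sq_nonneg β
  obtain ⟨b, hb⟩ : ∃ b : (Fin n → Bool) → RI n K → ℝ, b = fun x e =>
    Real.sin θ * tre N β R x e + Real.cos θ * cav N (β / √((N + 1 : ℕ) : ℝ)) x e := ⟨_, rfl⟩
  have hbe : ∀ x e, b x e =
    Real.sin θ * tre N β R x e + Real.cos θ * cav N (β / √((N + 1 : ℕ) : ℝ)) x e := fun x e => by
    rw [hb]
  have e1 : ∀ x, (tc β N s R θ : (Fin n → Bool) → RI n K → ℝ) x = sc β N s x + b x := by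
    intro x
    rw [hb]
    rfl
  have hdj : ∀ e x x', b x e * (sc β N s : (Fin n → Bool) → RI n K → ℝ) x' e = 0 := by
    intro e x x'
    have h1 := dj_tre_sc (N := N) (s := s) (β := β) (R := R) β e x x'
    have h2 := dj_cav_sc (N := N) (s := s) (β := β) (β / √((N + 1 : ℕ) : ℝ)) e x x'
    rw [hbe]
    linear_combination Real.sin θ * h1 + Real.cos θ * h2
  have hV : ∀ x, ∑ e, b x e ^ 2 ≤ β ^ 2 := by
    intro x
    have h1 : ∀ e, b x e ^ 2 = Real.sin θ ^ 2 * tre N β R x e ^ 2 +
        Real.cos θ ^ 2 * cav N (β / √((N + 1 : ℕ) : ℝ)) x e ^ 2 := by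
      intro e
      have h2 := dj_tre_cav (N := N) (R := R) β (β / √((N + 1 : ℕ) : ℝ)) e x x
      rw [hbe]
      linear_combination 2 * Real.sin θ * Real.cos θ * h2
    rw [Finset.sum_congr rfl fun e _ => h1 e, Finset.sum_add_distrib, ← Finset.mul_sum,
      ← Finset.mul_sum, sum_tre hNn β hR, sum_cav hNn]
    have h3 : (β / √((N + 1 : ℕ) : ℝ)) ^ 2 * N ≤ β ^ 2 := by
      rw [div_pow, Real.sq_sqrt (by positivity), div_mul_eq_mul_div, div_le_iff₀ (by positivity)]
      push_cast
      nlinarith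
    have h4 : β ^ 2 * R K ≤ β ^ 2 := mul_le_of_le_one_right hb2 hR1
    have h5 := Real.sin_sq_add_cos_sq θ
    calc Real.sin θ ^ 2 * (β ^ 2 * R K) + Real.cos θ ^ 2 * ((β / √((N + 1 : ℕ) : ℝ)) ^ 2 * N) ≤
          Real.sin θ ^ 2 * β ^ 2 + Real.cos θ ^ 2 * β ^ 2 :=
          add_le_add (mul_le_mul_of_nonneg_left h4 (sq_nonneg _))
            (mul_le_mul_of_nonneg_left h3 (sq_nonneg _))
      _ = β ^ 2 := by rw [← add_mul, h5, one_mul]
  have hlinadd : ∀ x z, lin ((tc β N s R θ : (Fin n → Bool) → RI n K → ℝ) x) z =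
      lin (sc β N s x) z + lin (b x) z := by
    intro x z
    rw [e1]
    exact lin_add' _ _ _
  have eT : ST n K d m β N s R θ = (SC n K d m β N s).wH fun z x =>
      (SC n K d m β N s).H z x + lin (b x) z := by
    unfold Ld.ST Ld.SC ls Sy.wH
    congr 1
    funext z x
    show lin (tc β N s R θ x) z + lc n = lin (sc β N s x) z + lc n + lin (b x) z
    rw [hlinadd]
    ring
  have hS : (SC n K d m β N s).Reg := rs_reg hd hm _ _
  have hS' : ((SC n K d m β N s).wH fun z x =>
      (SC n K d m β N s).H z x + lin (b x) z).Reg := by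
    rw [← eT]
    exact rs_reg hd hm _ _
  -- the coordinates of the perturbation
  obtain ⟨W, hW⟩ : ∃ W : RI n K → Prop, W = fun e => ∃ x, b x e ≠ 0 := ⟨_, rfl⟩
  have hbW : ∀ x e, ¬ W e → b x e = 0 := by
    intro x e he
    by_contra h
    exact he (by rw [hW]; exact ⟨x, h⟩)
  have hscW : ∀ x e, W e → (sc β N s : (Fin n → Bool) → RI n K → ℝ) x e = 0 := by
    intro x e he
    rw [hW] at he
    obtain ⟨y, hy⟩ := he
    exact (mul_eq_zero.1 (hdj e y x)).resolve_left hy
  have hbp : ∀ x p, b x (Sum.inr (Sum.inl p)) = 0 := by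
    intro x p
    rw [hbe, tre_b, cav_b]
    ring
  rw [eT]
  have h := tr_lin (b := b) hS hS' (W := W) hbW (fun x z w hzw => by
    show lin (sc β N s x) z + lc n = lin (sc β N s x) w + lc n
    congr 1
    unfold lin
    refine Finset.sum_congr rfl fun e _ => ?_
    by_cases he : W e
    · rw [hscW x e he, zero_mul, zero_mul]
    · rw [hzw e he]) (fun z => ?_) hV hf hf0 (fun x z w hzw => by
    refine hfd z w x fun p => hzw _ ?_
    rw [hW]
    rintro ⟨y, hy⟩
    exact hy (hbp y p))
  · exact h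
  · -- the partition functions
    have hH : ∀ x, (SC n K d m β N s).H z (flp ⟨N, hNn⟩ x) = (SC n K d m β N s).H z x := by
      intro x
      show lin (sc β N s (flp ⟨N, hNn⟩ x)) z + lc n = lin (sc β N s x) z + lc n
      congr 1
      unfold lin
      refine Finset.sum_congr rfl fun e _ => ?_
      rw [sc_flp hNn]
    have hY : ∀ x, lin (b (flp ⟨N, hNn⟩ x)) z = - lin (b x) z := by
      intro x
      unfold lin
      rw [← Finset.sum_neg_distrib]
      refine Finset.sum_congr rfl fun e _ => ?_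
      rw [hbe, hbe, tre_flp hNn, cav_flp hNn]
      ring
    have h1 : 0 < ∑ x, Real.exp ((SC n K d m β N s).H z x) := (SC n K d m β N s).sum_exp_pos z
    show Real.log (∑ x, Real.exp ((SC n K d m β N s).H z x)) ≤
      Real.log (∑ x, Real.exp ((SC n K d m β N s).H z x + lin (b x) z))
    refine Real.log_le_log h1 ?_
    have h2 : ∑ x, Real.exp ((SC n K d m β N s).H z x + lin (b x) z) =
        ∑ x, Real.exp ((SC n K d m β N s).H z x - lin (b x) z) := by
      rw [← Equiv.sum_comp (flp_invol (⟨N, hNn⟩ : Fin n)).toPerm]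
      refine Finset.sum_congr rfl fun x _ => ?_
      show Real.exp ((SC n K d m β N s).H z (flp ⟨N, hNn⟩ x) + lin (b (flp ⟨N, hNn⟩ x)) z) = _
      rw [hH, hY]
      ring_nf
    have h3 : 2 * ∑ x, Real.exp ((SC n K d m β N s).H z x) ≤
        ∑ x, Real.exp ((SC n K d m β N s).H z x + lin (b x) z) +
        ∑ x, Real.exp ((SC n K d m β N s).H z x - lin (b x) z) := by
      rw [Finset.mul_sum, ← Finset.sum_add_distrib]
      refine Finset.sum_le_sum fun x _ => ?_
      rw [Real.exp_add, Real.exp_sub]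
      have h4 : 0 < Real.exp ((SC n K d m β N s).H z x) := Real.exp_pos _
      have h5 : 0 < Real.exp (lin (b x) z) := Real.exp_pos _
      have h6 : 2 ≤ Real.exp (lin (b x) z) + 1 / Real.exp (lin (b x) z) := by
        rw [← sub_nonneg]
        have e : Real.exp (lin (b x) z) + 1 / Real.exp (lin (b x) z) - 2 =
            (Real.exp (lin (b x) z) - 1) ^ 2 / Real.exp (lin (b x) z) := by
          field_simp
          ring
        rw [e]
        positivity
      have h7 := mul_le_mul_of_nonneg_left h6 h4.le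
      have e : Real.exp ((SC n K d m β N s).H z x) * Real.exp (lin (b x) z) +
          Real.exp ((SC n K d m β N s).H z x) / Real.exp (lin (b x) z) =
          Real.exp ((SC n K d m β N s).H z x) *
            (Real.exp (lin (b x) z) + 1 / Real.exp (lin (b x) z)) := by ring
      rw [e]
      linarith
    rw [← h2] at h3
    linarith

end SK

end Vale.Agent.P146.R3.H49.Tr
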