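import Vale.Agent.P146.R3.H49.TrD
import Vale.Agent.P146.R2.H432.Mom

/-!
# P146: the gradient of the trace of Chebyshev polynomials of the disorder matrix
-/

open Matrix Finset MeasureTheory ProbabilityTheory

namespace Vale.Agent.P146.R3.H49

open Vale.Agent.P146.Ub.Cv
open Vale.Agent.P146.R2.H432 (cheb WW dom_cheb dom_WW WW_symm)

variable {n : ℕ}

/-- the derivative of the disorder matrix in the direction of the coordinate `e` -/
noncomputable def Ed (e : Pair n) : Matrix (Fin n) (Fin n) ℝ := fun i j =>
  (Real.sqrt n)⁻¹ * ((if i = e.1.1 ∧ j = e.1.2 then 1 else 0) +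
    (if i = e.1.2 ∧ j = e.1.1 then 1 else 0))

lemma WW_deriv (g : Pair n → ℝ) (e : Pair n) (t : ℝ) (i j : Fin n) :
    HasDerivAt (fun t => WW (Function.update g e t) i j) (Ed e i j) t := by
  obtain ⟨⟨a, b⟩, hab⟩ := e
  have hab' : a < b := hab
  have h0 : ∀ t, WW (Function.update g (⟨(a, b), hab⟩ : Pair n) t) i j =
      Vale.Agent.P150.gsym (Function.update g (⟨(a, b), hab⟩ : Pair n) t) i j / Real.sqrt n :=
    fun t => rfl
  simp_rw [h0]
  unfold Ed
  simp only
  by_cases h1 : i = a ∧ j = b
  · obtain ⟨rfl, rfl⟩ := h1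
    have h2 : ∀ t, Vale.Agent.P150.gsym (Function.update g (⟨(i, j), hab⟩ : Pair n) t) i j = t := by
      intro t
      unfold Vale.Agent.P150.gsym
      rw [dif_pos hab']
      exact Function.update_self _ _ _
    simp_rw [h2]
    have h3 : ¬ (i = j ∧ j = i) := fun h => hab'.ne h.1
    have h4 := (hasDerivAt_id t).div_const (Real.sqrt n)
    refine h4.congr_deriv ?_
    rw [if_neg h3]
    simp
  · by_cases h2 : i = b ∧ j = a
    · obtain ⟨rfl, rfl⟩ := h2
      have h3 : ∀ t, Vale.Agent.P150.gsym (Function.update g (⟨(j, i), hab⟩ : Pair n) t) i j =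
          t := by
        intro t
        unfold Vale.Agent.P150.gsym
        rw [dif_neg hab'.asymm, dif_pos hab']
        exact Function.update_self _ _ _
      simp_rw [h3]
      have h4 := (hasDerivAt_id t).div_const (Real.sqrt n)
      refine h4.congr_deriv ?_
      rw [if_neg h1]
      simp
    · have h3 : ∀ t, Vale.Agent.P150.gsym (Function.update g (⟨(a, b), hab⟩ : Pair n) t) i j =
          Vale.Agent.P150.gsym g i j := by
        intro t
        unfold Vale.Agent.P150.gsym
        split_ifs with h4 h5
        · refine Function.update_of_ne ?_ _ _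
          intro h
          apply h1
          have := congrArg Subtype.val h
          simp only [Prod.mk.injEq] at this
          exact this
        · refine Function.update_of_ne ?_ _ _
          intro h
          apply h2
          have := congrArg Subtype.val h
          simp only [Prod.mk.injEq] at this
          exact ⟨this.2, this.1⟩
        · rfl
      simp_rw [h3]
      rw [if_neg h1, if_neg h2, add_zero, mul_zero]
      exact hasDerivAt_const _ _

lemma cheb_deriv (g : Pair n → ℝ) (e : Pair n) (t : ℝ) (k : ℕ) : ∀ i j : Fin n,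
    HasDerivAt (fun t => cheb k (WW (Function.update g e t)) i j)
      (DM (WW (Function.update g e t)) (Ed e) k i j) t := by
  have key : (∀ i j : Fin n, HasDerivAt (fun t => cheb k (WW (Function.update g e t)) i j)
      (DM (WW (Function.update g e t)) (Ed e) k i j) t) ∧
      (∀ i j : Fin n, HasDerivAt (fun t => cheb (k + 1) (WW (Function.update g e t)) i j)
      (DM (WW (Function.update g e t)) (Ed e) (k + 1) i j) t) := by
    induction k with
    | zero =>
      refine ⟨fun i j => ?_, fun i j => ?_⟩
      · simp only [cheb_zero, DM]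
        exact hasDerivAt_const _ _
      · simp only [zero_add, cheb_one, DM]
        exact WW_deriv g e t i j
    | succ k ih =>
      refine ⟨ih.2, fun i j => ?_⟩
      have h1 : ∀ t, cheb (k + 1 + 1) (WW (Function.update g e t)) i j =
          ∑ l, WW (Function.update g e t) i l * cheb (k + 1) (WW (Function.update g e t)) l j -
            cheb k (WW (Function.update g e t)) i j := by
        intro t
        rw [cheb_succ, Matrix.sub_apply, Matrix.mul_apply]
      simp_rw [h1]
      have h2 : DM (WW (Function.update g e t)) (Ed e) (k + 1 + 1) i j =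
          ∑ l, (Ed e i l * cheb (k + 1) (WW (Function.update g e t)) l j +
            WW (Function.update g e t) i l *
              DM (WW (Function.update g e t)) (Ed e) (k + 1) l j) -
            DM (WW (Function.update g e t)) (Ed e) k i j := by
        rw [DM, Matrix.sub_apply, Matrix.add_apply, Matrix.mul_apply, Matrix.mul_apply,
          Finset.sum_add_distrib]
      rw [h2]
      exact (HasDerivAt.fun_sum fun l _ => (WW_deriv g e t i l).mul (ih.2 l j)).sub (ih.1 i j)
  exact key.1

lemma cheb_transpose (A : Matrix (Fin n) (Fin n) ℝ) (k : ℕ) : (cheb k A)ᵀ = cheb k Aᵀ := by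
  have key : (cheb k A)ᵀ = cheb k Aᵀ ∧ (cheb (k + 1) A)ᵀ = cheb (k + 1) Aᵀ := by
    induction k with
    | zero => exact ⟨by rw [cheb_zero, cheb_zero, transpose_one],
        by rw [zero_add, cheb_one, cheb_one]⟩
    | succ k ih =>
      refine ⟨ih.2, ?_⟩
      rw [cheb_succ, cheb_succ, transpose_sub, transpose_mul, ih.2, ih.1,
        (commute_cheb (Commute.refl Aᵀ) (k + 1)).eq]
  exact key.1

lemma WW_transpose (g : Pair n → ℝ) : (WW g)ᵀ = WW g := by
  ext i j
  exact WW_symm g j i

lemma cheb_symm (k : ℕ) (g : Pair n → ℝ) (i j : Fin n) :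
    cheb k (WW g) i j = cheb k (WW g) j i := by
  have h := cheb_transpose (WW g) k
  rw [WW_transpose] at h
  have h2 := congrFun (congrFun h j) i
  rwa [transpose_apply] at h2

lemma trace_Ed_mul (e : Pair n) (A : Matrix (Fin n) (Fin n) ℝ) :
    trace (Ed e * A) = (Real.sqrt n)⁻¹ * (A e.1.2 e.1.1 + A e.1.1 e.1.2) := by
  have h1 : ∀ i, (Ed e * A) i i = (Real.sqrt n)⁻¹ * ((if i = e.1.1 then A e.1.2 i else 0) +
      (if i = e.1.2 then A e.1.1 i else 0)) := by
    intro i
    rw [Matrix.mul_apply]
    have h2 : ∀ j, Ed e i j * A j i = (Real.sqrt n)⁻¹ *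
        ((if j = e.1.2 then (if i = e.1.1 then A j i else 0) else 0) +
          (if j = e.1.1 then (if i = e.1.2 then A j i else 0) else 0)) := by
      intro j
      unfold Ed
      simp only [ite_and]
      split_ifs <;> ring
    rw [Finset.sum_congr rfl fun j _ => h2 j, ← Finset.mul_sum, Finset.sum_add_distrib,
      Finset.sum_ite_eq', Finset.sum_ite_eq', if_pos (Finset.mem_univ _),
      if_pos (Finset.mem_univ _)]
  unfold trace
  simp only [diag_apply]
  rw [Finset.sum_congr rfl fun i _ => h1 i, ← Finset.mul_sum, Finset.sum_add_distrib,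
    Finset.sum_ite_eq', Finset.sum_ite_eq', if_pos (Finset.mem_univ _),
    if_pos (Finset.mem_univ _)]

/-- the linear statistic `tr (U_{k+2}(W) - U_k(W))` -/
noncomputable def ls (k : ℕ) (g : Pair n → ℝ) : ℝ :=
  trace (cheb (k + 2) (WW g)) - trace (cheb k (WW g))

/-- **The gradient of the linear statistic.** -/
theorem ls_deriv (k : ℕ) (g : Pair n → ℝ) (e : Pair n) (t : ℝ) :
    HasDerivAt (fun t => ls k (Function.update g e t))
      (2 * ((k : ℝ) + 2) / Real.sqrt n *
        cheb (k + 1) (WW (Function.update g e t)) e.1.1 e.1.2) t := by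
  have h1 : ∀ k, HasDerivAt (fun t => trace (cheb k (WW (Function.update g e t))))
      (trace (DM (WW (Function.update g e t)) (Ed e) k)) t := fun k =>
    HasDerivAt.fun_sum fun i _ => cheb_deriv g e t k i i
  have h2 := (h1 (k + 2)).sub (h1 k)
  rw [trace_DM_sub, trace_Ed_mul] at h2
  refine h2.congr_deriv ?_
  rw [cheb_symm (k + 1) _ e.1.2 e.1.1]
  ring

lemma dom_ls (k : ℕ) : Dom (ls (n := n) k) := by
  have h : ∀ k, Dom (fun g : Pair n → ℝ => trace (cheb k (WW g))) := fun k =>
    Dom.sum _ fun i _ => dom_cheb k i i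
  exact (h (k + 2)).sub (h k)

end Vale.Agent.P146.R3.H49
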